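import Mathlib

/-!
The weak observation channel used for P161: given a mean `m`, an observation `y ∈ [-1,1]`
has density `(1 + c y)/2` with `c = a m`.  `qf c` is the quantile function of that density.
-/

open MeasureTheory Set

namespace Vale.Agent.P161

/-- The quantile function of the density `(1 + c y)/2` on `[-1,1]`. -/
noncomputable def qf (c r : ℝ) : ℝ := (4 * r - 2 + c) / (1 + √((1 - c) ^ 2 + 4 * c * r))

/-- The distribution function of the density `(1 + c y)/2` on `[-1,1]`. -/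
noncomputable def cdfF (c y : ℝ) : ℝ := (1 + y) / 2 + c * (y ^ 2 - 1) / 4

lemma qf_cdfF {c y : ℝ} (hc : |c| < 1) (hy : |y| ≤ 1) : qf c (cdfF c y) = y := by
  have h1 : (1 - c) ^ 2 + 4 * c * cdfF c y = (1 + c * y) ^ 2 := by
    unfold cdfF; ring
  have hcy : |c * y| < 1 := by
    rw [abs_mul]
    calc |c| * |y| ≤ |c| * 1 := by gcongr
      _ < 1 := by linarith
  have h2 : 0 < 1 + c * y := by
    have := (abs_lt.mp hcy).1
    linarith
  unfold qf
  rw [h1, Real.sqrt_sq h2.le]
  have h3 : (1 + (1 + c * y)) ≠ 0 := by linarith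
  rw [div_eq_iff h3]
  unfold cdfF
  ring

lemma continuous_cdfF (c : ℝ) : Continuous (cdfF c) := by
  unfold cdfF; fun_prop

lemma exists_cdfF_eq (c : ℝ) {r : ℝ} (hr : r ∈ Icc (0 : ℝ) 1) :
    ∃ y ∈ Icc (-1 : ℝ) 1, cdfF c y = r := by
  have h := intermediate_value_Icc (by norm_num : (-1 : ℝ) ≤ 1) (continuous_cdfF c).continuousOn
  have h0 : cdfF c (-1) = 0 := by unfold cdfF; norm_num
  have h1 : cdfF c 1 = 1 := by unfold cdfF; norm_num
  rw [h0, h1] at h
  exact h hr

lemma qf_mem {c r : ℝ} (hc : |c| < 1) (hr : r ∈ Icc (0 : ℝ) 1) : |qf c r| ≤ 1 := by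
  obtain ⟨y, hy, rfl⟩ := exists_cdfF_eq c hr
  have hy' : |y| ≤ 1 := abs_le.mpr hy
  rwa [qf_cdfF hc hy']

lemma qf_lipschitz {c c' r : ℝ} (hc : |c| ≤ 1 / 2) (hc' : |c'| ≤ 1 / 2) (hr : r ∈ Icc (0 : ℝ) 1) :
    |qf c r - qf c' r| ≤ |c - c'| := by
  obtain ⟨y, hy, hyr⟩ := exists_cdfF_eq c hr
  obtain ⟨y', hy', hyr'⟩ := exists_cdfF_eq c' hr
  have hya : |y| ≤ 1 := abs_le.mpr hy
  have hya' : |y'| ≤ 1 := abs_le.mpr hy'
  have e1 : qf c r = y := by rw [← hyr]; exact qf_cdfF (by linarith) hya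
  have e2 : qf c' r = y' := by rw [← hyr']; exact qf_cdfF (by linarith) hya'
  rw [e1, e2]
  have key : (y - y') * (1 / 2 + c * (y + y') / 4) = (c - c') * ((1 - y' ^ 2) / 4) := by
    have : cdfF c y = cdfF c' y' := by rw [hyr, hyr']
    unfold cdfF at this
    linear_combination this
  have hpos : 1 / 4 ≤ 1 / 2 + c * (y + y') / 4 := by
    have : |c * (y + y')| ≤ 1 := by
      rw [abs_mul]
      have h2 : |y + y'| ≤ 2 := by
        calc |y + y'| ≤ |y| + |y'| := abs_add_le _ _
          _ ≤ 2 := by linarith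
      calc |c| * |y + y'| ≤ (1 / 2) * 2 := by
            apply mul_le_mul hc h2 (abs_nonneg _) (by norm_num)
        _ = 1 := by norm_num
    have := (abs_le.mp this).1
    linarith
  have hq : |(1 - y' ^ 2) / 4| ≤ 1 / 4 := by
    rw [abs_le]
    have : y' ^ 2 ≤ 1 := by
      have := sq_abs y'
      nlinarith [abs_nonneg y']
    constructor <;> nlinarith [sq_nonneg y']
  have h3 : |y - y'| * (1 / 4) ≤ |c - c'| * (1 / 4) := by
    calc |y - y'| * (1 / 4) ≤ |y - y'| * |1 / 2 + c * (y + y') / 4| := by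
          gcongr
          exact hpos.trans (le_abs_self _)
      _ = |(c - c') * ((1 - y' ^ 2) / 4)| := by rw [← abs_mul, key]
      _ = |c - c'| * |(1 - y' ^ 2) / 4| := abs_mul _ _
      _ ≤ |c - c'| * (1 / 4) := by gcongr
  linarith

lemma qf_measurable : Measurable (fun p : ℝ × ℝ => qf p.1 p.2) := by
  unfold qf
  fun_prop

lemma qf_continuousOn {c : ℝ} : Continuous (qf c) := by
  unfold qf
  apply Continuous.div
  · fun_prop
  · fun_prop
  · intro x
    positivity

/-- Change of variables for the quantile function. -/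
lemma integral_qf {c : ℝ} (hc : |c| < 1) {f : ℝ → ℝ} (hf : ContinuousOn f (Icc (-1) 1)) :
    ∫ r in (0 : ℝ)..1, f (qf c r) = ∫ y in (-1 : ℝ)..1, f y * ((1 + c * y) / 2) := by
  have hderiv : ∀ y ∈ uIcc (-1 : ℝ) 1, HasDerivAt (cdfF c) ((1 + c * y) / 2) y := by
    intro y _
    unfold cdfF
    have h1 : HasDerivAt (fun y : ℝ => (1 + y) / 2) (1 / 2) y := by
      simpa using ((hasDerivAt_id y).const_add 1).div_const 2
    have h2 : HasDerivAt (fun y : ℝ => c * (y ^ 2 - 1) / 4) (c * (2 * y) / 4) y := by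
      have := (((hasDerivAt_pow 2 y).sub_const 1).const_mul c).div_const 4
      simpa using this
    have h3 := h1.add h2
    have e : (1 + c * y) / 2 = 1 / 2 + c * (2 * y) / 4 := by ring
    rw [e]
    exact h3
  have h0 : cdfF c (-1) = 0 := by unfold cdfF; norm_num
  have h1 : cdfF c 1 = 1 := by unfold cdfF; norm_num
  have himg : cdfF c '' uIcc (-1 : ℝ) 1 ⊆ Icc 0 1 := by
    rintro _ ⟨y, hy, rfl⟩
    rw [uIcc_of_le (by norm_num)] at hy
    obtain ⟨ha, hb⟩ := hy
    have hc1 := abs_lt.mp hc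
    unfold cdfF
    constructor
    · nlinarith [mul_nonneg (by linarith : 0 ≤ 1 + y) (by linarith : 0 ≤ 1 - y),
        mul_nonneg (by linarith : 0 ≤ 1 + y) (mul_nonneg (by linarith : 0 ≤ 1 - y) (by linarith : 0 ≤ 1 - c))]
    · nlinarith [mul_nonneg (by linarith : 0 ≤ 1 + y) (by linarith : 0 ≤ 1 - y),
        mul_nonneg (by linarith : 0 ≤ 1 + y) (mul_nonneg (by linarith : 0 ≤ 1 - y) (by linarith : 0 ≤ 1 + c))]
  have hcont : ContinuousOn (fun r => f (qf c r)) (Icc 0 1) := by
    apply hf.comp qf_continuousOn.continuousOn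
    intro r hr
    exact abs_le.mp (qf_mem hc hr)
  have key := intervalIntegral.integral_comp_mul_deriv' (a := -1) (b := 1) (f := cdfF c)
    (f' := fun y => (1 + c * y) / 2) (g := fun r => f (qf c r)) hderiv (by fun_prop)
    (hcont.mono himg)
  rw [h0, h1] at key
  rw [← key]
  apply intervalIntegral.integral_congr
  intro y hy
  rw [uIcc_of_le (by norm_num)] at hy
  have hy' : |y| ≤ 1 := abs_le.mpr hy
  simp only [Function.comp]
  rw [qf_cdfF hc hy']

end Vale.Agent.P161
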