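import Mathlib

/-!
Definitions used in the statement for P161: the free Ising measure on a graph, given by its
cylinder probabilities, and factors of i.i.d. uniform labels.
-/

open MeasureTheory

namespace Vale.Agent.P161

/-- Edges of `G` with both end vertices in the finite set `D`. -/
noncomputable def edgesIn {V : Type*} (G : SimpleGraph V) (D : Finset V) : Finset (Sym2 V) := by
  classical exact D.sym2.filter (fun e => e ∈ G.edgeSet)

/-- `ν` is the free zero-field ferromagnetic Ising measure of the tree `G` at inverse
temperature `β`: for every finite connected set `D` of vertices and every configuration `η`,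
`ν(σ = η on D) = 1/2 * ∏_{uv ∈ E(D)} (1 + tanh β * η_u * η_v) / 2`. -/
def IsFreeIsing {V : Type*} (G : SimpleGraph V) (β : ℝ) (ν : Measure (V → ℤˣ)) : Prop :=
  ∀ D : Finset V, (G.induce (D : Set V)).Connected → ∀ η : V → ℤˣ,
    ν {σ | ∀ v ∈ D, σ v = η v} =
      ENNReal.ofReal (1 / 2 * ∏ e ∈ edgesIn G D,
        (1 + Real.tanh β * (((e.map η).mul : ℤˣ) : ℤ)) / 2)

/-- The law of i.i.d. uniform `[0,1]` labels at the vertices. -/
noncomputable def uniformLabels (V : Type*) : Measure (V → unitInterval) :=
  Measure.infinitePi fun _ : V => (volume : Measure unitInterval)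

/-- The action of an automorphism on labelings: `(g x)_v = x_{g⁻¹ v}`. -/
def act {V α : Type*} {G : SimpleGraph V} (g : G ≃g G) (x : V → α) : V → α :=
  fun v => x (g.symm v)

/-- `ν` is a factor of i.i.d. for the graph `G`. -/
def IsFactorOfIID {V : Type*} (G : SimpleGraph V) (ν : Measure (V → ℤˣ)) : Prop :=
  ∃ Φ : (V → unitInterval) → (V → ℤˣ), Measurable Φ ∧
    (∀ g : G ≃g G, ∀ᵐ U ∂uniformLabels V, Φ (act g U) = act g (Φ U)) ∧
    (uniformLabels V).map Φ = ν

end Vale.Agent.P161
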