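import Vale.Agent.Lib.P161.Process3
import Vale.Agent.Lib.P161.Defs

/-!
The zero-field finite-volume cylinder probabilities on a tree.
-/

open Finset MeasureTheory

namespace Vale.Agent.P161

variable {V : Type*} [DecidableEq V] {G : SimpleGraph V} [DecidableRel G.Adj]

omit [DecidableEq V] [DecidableRel G.Adj] in
/-- If `x` is on the `v`-side and `y` on the `w`-side of the edge `v w`, geodesics use the edge. -/
lemma dist_across (hG : G.IsTree) {v w y : V} (hvw : G.Adj v w)
    (hy : G.dist y w < G.dist y v) (n : ℕ) :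
    ∀ x, G.dist x v < G.dist x w → G.dist x v = n → G.dist x y = n + 1 + G.dist w y := by
  induction n using Nat.strong_induction_on with
  | _ n ih =>
    intro x hx hxn
    have hvy : G.dist v y = G.dist w y + 1 := by
      rcases dist_succ_cases hG y hvw with h | h
      · exact h
      · rw [G.dist_comm (u := v), G.dist_comm (u := w)] at h; omega
    rcases Nat.eq_zero_or_pos n with rfl | hn
    · have : x = v := (hG.connected.dist_eq_zero_iff).mp hxn
      subst this; omega
    · have hxv : x ≠ v := by
        rintro rfl; rw [SimpleGraph.dist_self] at hxn; omega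
      obtain ⟨z, hxz, hz⟩ := exists_adj_closer hG.connected hxv
      have hzside : G.dist z v < G.dist z w := by
        by_contra hcon
        have hne := hG.dist_ne_of_adj z hvw
        have : G.dist z w < G.dist z v := by omega
        exact hxv (crossing_unique hG hxz hx this hvw).1
      have ihz := ih (n - 1) (by omega) z hzside (by omega)
      rcases dist_succ_cases hG y hxz with h | h
      · omega
      · exfalso
        rcases Nat.eq_zero_or_pos (n - 1) with h1 | h1
        · have hzv : z = v := (hG.connected.dist_eq_zero_iff).mp (by omega)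
          subst hzv
          have : x = w := closer_unique hG hxz.symm hvw (w := y) (by omega) (by omega)
          subst this
          rw [SimpleGraph.dist_self] at hx
          omega
        · have hzv : z ≠ v := by
            rintro rfl; rw [SimpleGraph.dist_self] at hz; omega
          obtain ⟨z', hzz', hz'⟩ := exists_adj_closer hG.connected hzv
          have hzside' : G.dist z' v < G.dist z' w := by
            by_contra hcon
            have hne := hG.dist_ne_of_adj z' hvw
            have : G.dist z' w < G.dist z' v := by omega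
            exact hzv (crossing_unique hG hzz' hzside this hvw).1
          have ihz' := ih (n - 2) (by omega) z' hzside' (by omega)
          have : x = z' := closer_unique hG hxz.symm hzz' (w := y) (by omega) (by omega)
          subst this
          omega

/-- `D` contains `r` and is closed under taking the neighbour closer to `r`. -/
def ClosedTo (G : SimpleGraph V) (r : V) (D : Finset V) : Prop :=
  r ∈ D ∧ ∀ x ∈ D, ∀ w, G.Adj x w → G.dist w r < G.dist x r → w ∈ D

omit [DecidableEq V] [DecidableRel G.Adj] in
lemma closedTo_of_connected (hG : G.IsTree) {D : Finset V}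
    (hD : (G.induce (D : Set V)).Connected) {r : V} (hr : r ∈ D) : ClosedTo G r D := by
  refine ⟨hr, fun x hx w hxw hw => ?_⟩
  obtain ⟨p, hp⟩ := (hD.preconnected ⟨x, hx⟩ ⟨r, hr⟩).exists_isPath
  set f : G.induce (D : Set V) →g G := (SimpleGraph.Embedding.induce (D : Set V)).toHom with hf
  have hfi : Function.Injective f := (SimpleGraph.Embedding.induce (G := G) (D : Set V)).injective
  obtain ⟨q, hq, hqs⟩ : ∃ q : G.Walk x r, q.IsPath ∧ q.support = p.support.map f :=
    ⟨p.map f, hp.map hfi, SimpleGraph.Walk.support_map f p⟩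
  obtain ⟨g, hg⟩ := hG.connected.exists_walk_length_eq_dist w r
  have hxr : G.dist x r = G.dist w r + 1 := by
    rcases dist_succ_cases hG r hxw with h | h <;> omega
  have hc : (SimpleGraph.Walk.cons hxw g).IsPath := by
    apply SimpleGraph.Walk.isPath_of_length_eq_dist
    rw [SimpleGraph.Walk.length_cons, hg, hxr]
  have heq : q = SimpleGraph.Walk.cons hxw g :=
    (hG.existsUnique_path x r).unique hq hc
  have hmem : w ∈ q.support := by
    rw [heq, SimpleGraph.Walk.support_cons]
    exact List.mem_cons_of_mem _ g.start_mem_support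
  rw [hqs, List.mem_map] at hmem
  obtain ⟨y, _, hy⟩ := hmem
  rw [← hy]
  exact y.2

/-- Indicator of the event that the configuration agrees with `s` on `D₀`. -/
noncomputable def cyl (D₀ : Finset V) (s : V → ℝ) (S : Finset V) : ℝ :=
  ∏ v ∈ D₀, (1 + s v * sp S v) / 2

lemma markov_zero (hG : G.IsTree) {β : ℝ} {D : Finset V} {v w : V} (hvw : G.Adj v w)
    (hv : v ∈ D) (hw : w ∈ D) (f : Finset V → ℝ)
    (hf : ∀ S₁ S₂, S₁ ⊆ side G D v w → S₂ ⊆ side G D w v → f (S₁ ∪ S₂) = f S₂) :
    gx G β D (0 : V → ℝ) (fun S => sp S v * f S) =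
      Real.tanh β * gx G β D 0 (fun S => sp S w * f S) := by
  obtain ⟨M, hM, hMf⟩ := markov_in hG (β := β) (h := (0 : V → ℝ)) hvw hv hw
  have h1 := hMf (fun _ => 1) (fun _ _ _ _ => rfl)
  simp only [mul_one] at h1
  rw [gx_const] at h1
  have e1 : gx G β D (0 : V → ℝ) (fun S => sp S v) = 0 := mag_zero β hv
  have e2 : gx G β D (0 : V → ℝ) (fun S => sp S w) = 0 := mag_zero β hw
  rw [e1, e2, mul_zero, add_zero, mul_one] at h1
  have hθlt : |Real.tanh β| < 1 := by
    rw [abs_lt]; exact ⟨Real.neg_one_lt_tanh β, Real.tanh_lt_one β⟩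
  have hθ2 : Real.tanh β ^ 2 < 1 := sq_lt_one_iff_abs_lt_one _ |>.mpr hθlt
  have hM2 := sq_le_one_of_abs hM
  have hden : (1 - Real.tanh β ^ 2 * M ^ 2) ≠ 0 := by
    nlinarith [sq_nonneg (Real.tanh β), sq_nonneg M]
  have hM0 : M = 0 := by
    unfold icept at h1
    have h2 : M * (1 - Real.tanh β ^ 2) = 0 := by
      have := h1.symm
      rw [div_eq_zero_iff] at this
      rcases this with h | h
      · exact h
      · exact absurd h hden
    rcases mul_eq_zero.mp h2 with h | h
    · exact h
    · linarith
  have h3 := hMf f hf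
  rw [hM0] at h3
  have i0 : icept (Real.tanh β) 0 = 0 := by unfold icept; simp
  have s0 : slope (Real.tanh β) 0 = Real.tanh β := by unfold slope; simp
  rw [i0, s0, zero_mul, zero_add] at h3
  exact h3

/-- The spin as a real number. -/
noncomputable def sv (u : ℤˣ) : ℝ := ((u : ℤ) : ℝ)

lemma sv_eq (u : ℤˣ) : sv u = 1 ∨ sv u = -1 := by
  rcases Int.units_eq_one_or u with h | h
  · left; rw [h]; simp [sv]
  · right; rw [h]; simp [sv]

lemma sv_mul_self (u : ℤˣ) : sv u * sv u = 1 := by
  rcases sv_eq u with h | h <;> rw [h] <;> norm_num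

lemma sv_mul (u v : ℤˣ) : sv (u * v) = sv u * sv v := by
  unfold sv; push_cast; ring

omit [DecidableRel G.Adj] in
lemma edgesIn_insert (hG : G.IsTree) {D : Finset V} {v w r : V} (hv : v ∉ D) (hw : w ∈ D)
    (hvw : G.Adj v w) (hwr : G.dist w r < G.dist v r)
    (hmax : ∀ x ∈ D, G.dist x r ≤ G.dist v r) :
    edgesIn G (insert v D) = insert s(v, w) (edgesIn G D) := by
  classical
  ext e
  unfold edgesIn
  induction e using Sym2.ind with
  | _ x y =>
    simp only [mem_filter, Finset.mk_mem_sym2_iff, mem_insert, SimpleGraph.mem_edgeSet]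
    have key : ∀ z ∈ D, G.Adj v z → z = w := by
      intro z hz hvz
      rcases dist_succ_cases hG r hvz with h | h
      · exact closer_unique hG hvz hvw (w := r) (by omega) hwr
      · have := hmax z hz; omega
    constructor
    · rintro ⟨⟨hx | hx, hy | hy⟩, hadj⟩
      · subst hx; subst hy; exact absurd hadj (SimpleGraph.irrefl _)
      · subst hx; left; rw [key y hy hadj]
      · subst hy; left; rw [key x hx hadj.symm, Sym2.eq_swap]
      · right; exact ⟨⟨hx, hy⟩, hadj⟩
    · rintro (h | ⟨⟨hx, hy⟩, hadj⟩)
      · rw [Sym2.eq_iff] at h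
        rcases h with ⟨rfl, rfl⟩ | ⟨rfl, rfl⟩
        · exact ⟨⟨Or.inl rfl, Or.inr hw⟩, hvw⟩
        · exact ⟨⟨Or.inr hw, Or.inl rfl⟩, hvw.symm⟩
      · exact ⟨⟨Or.inr hx, Or.inr hy⟩, hadj⟩

lemma cyl_law (hG : G.IsTree) (β : ℝ) {D : Finset V} (η : V → ℤˣ) (r : V) (n : ℕ) :
    ∀ D₀ : Finset V, D₀.card = n + 1 → D₀ ⊆ D → ClosedTo G r D₀ →
    gx G β D (0 : V → ℝ) (cyl D₀ (fun v => sv (η v))) =
      1 / 2 * ∏ e ∈ edgesIn G D₀, (1 + Real.tanh β * (((e.map η).mul : ℤˣ) : ℤ)) / 2 := by
  classical
  induction n with
  | zero =>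
    intro D₀ hcard hsub hcl
    obtain ⟨x, hx⟩ := Finset.card_eq_one.mp hcard
    have hxr : x = r := by
      have := hcl.1; rw [hx, mem_singleton] at this; exact this.symm
    subst hxr
    have hE : edgesIn G D₀ = ∅ := by
      rw [Finset.eq_empty_iff_forall_notMem]
      intro e he
      unfold edgesIn at he
      induction e using Sym2.ind with
      | _ a b =>
        simp only [mem_filter, Finset.mk_mem_sym2_iff, SimpleGraph.mem_edgeSet] at he
        rw [hx, mem_singleton, mem_singleton] at he
        obtain ⟨⟨rfl, rfl⟩, h⟩ := he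
        exact SimpleGraph.irrefl _ h
    rw [hE, prod_empty, mul_one]
    have hxD : x ∈ D := hsub hcl.1
    have e1 : gx G β D (0 : V → ℝ) (cyl D₀ (fun v => sv (η v))) =
        gx G β D (0 : V → ℝ) (fun S => 1 / 2 + (sv (η x) / 2) * sp S x) := by
      apply gx_congr
      intro S _
      unfold cyl
      rw [hx, prod_singleton]
      ring
    rw [e1, gx_add, gx_const, gx_mul_left]
    have := mag_zero (G := G) β hxD
    unfold mag at this
    rw [this]
    ring
  | succ n ih =>
    intro D₀ hcard hsub hcl
    -- a vertex of `D₀` farthest from `r`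
    obtain ⟨v, hv, hmax⟩ := Finset.exists_max_image D₀ (fun x => G.dist x r) ⟨r, hcl.1⟩
    have hvr : v ≠ r := by
      rintro rfl
      have h1 : D₀ ⊆ {v} := by
        intro x hx
        have := hmax x hx
        rw [SimpleGraph.dist_self] at this
        rw [mem_singleton]
        exact (hG.connected.dist_eq_zero_iff).mp (by omega)
      have := card_le_card h1
      rw [card_singleton] at this
      omega
    obtain ⟨w, hvw, hdw⟩ := exists_adj_closer hG.connected hvr
    have hwr : G.dist w r < G.dist v r := by omega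
    have hw : w ∈ D₀ := hcl.2 v hv w hvw hwr
    have hwv : w ≠ v := hvw.ne.symm
    set D₁ := D₀.erase v with hD₁
    have hvD₁ : v ∉ D₁ := by rw [hD₁]; simp
    have hins : D₀ = insert v D₁ := by rw [hD₁, Finset.insert_erase hv]
    have hwD₁ : w ∈ D₁ := by rw [hD₁, mem_erase]; exact ⟨hwv, hw⟩
    have hcl₁ : ClosedTo G r D₁ := by
      refine ⟨?_, ?_⟩
      · rw [hD₁, mem_erase]; exact ⟨hvr.symm, hcl.1⟩
      · intro x hx y hxy hy
        rw [hD₁, mem_erase] at hx ⊢
        refine ⟨?_, hcl.2 x hx.2 y hxy hy⟩
        rintro rfl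
        have := hmax x hx.2
        omega
    have hcard₁ : D₁.card = n + 1 := by
      rw [hD₁, card_erase_of_mem hv, hcard]; rfl
    have hsub₁ : D₁ ⊆ D := (erase_subset _ _).trans hsub
    have ih₁ := ih D₁ hcard₁ hsub₁ hcl₁
    -- all of `D₁` lies on the `w`-side
    have hrside : G.dist r w < G.dist r v := by
      rw [G.dist_comm (u := r), G.dist_comm (u := r) (v := v)]; exact hwr
    have hside : ∀ x ∈ D₁, G.dist x w < G.dist x v := by
      intro x hx
      rw [hD₁, mem_erase] at hx
      by_contra hcon
      have hne := hG.dist_ne_of_adj x hvw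
      have hlt : G.dist x v < G.dist x w := by omega
      have h1 := dist_across hG hvw hrside (G.dist x v) x hlt rfl
      have h2 := hmax x hx.2
      have h3 : G.dist x v ≠ 0 := by
        rw [Ne, hG.connected.dist_eq_zero_iff]
        exact hx.1
      omega
    have hloc : ∀ S₁ S₂ : Finset V, S₁ ⊆ side G D v w → S₂ ⊆ side G D w v →
        cyl D₁ (fun v => sv (η v)) (S₁ ∪ S₂) = cyl D₁ (fun v => sv (η v)) S₂ := by
      intro S₁ S₂ h1 _
      unfold cyl
      apply Finset.prod_congr rfl
      intro x hx
      rw [sp_union_of_notMem]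
      intro hmem
      have := (mem_side.mp (h1 hmem)).2
      have := hside x hx
      omega
    have hm := markov_zero hG (β := β) hvw (hsub hv) (hsub hw) _ hloc
    have e1 : gx G β D (0 : V → ℝ) (cyl D₀ (fun v => sv (η v))) =
        gx G β D (0 : V → ℝ) (fun S => 1 / 2 * cyl D₁ (fun v => sv (η v)) S +
          (sv (η v) / 2) * (sp S v * cyl D₁ (fun v => sv (η v)) S)) := by
      apply gx_congr
      intro S _
      unfold cyl
      rw [hins, prod_insert hvD₁]
      ring
    -- on the event, the spin at `w` equals `η w`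
    have e2 : gx G β D (0 : V → ℝ) (fun S => sp S w * cyl D₁ (fun v => sv (η v)) S) =
        sv (η w) * gx G β D (0 : V → ℝ) (cyl D₁ (fun v => sv (η v))) := by
      rw [← gx_mul_left]
      apply gx_congr
      intro S _
      unfold cyl
      rw [← Finset.mul_prod_erase D₁ _ hwD₁]
      have h1 := sp_mul_self S w
      have h2 := sv_mul_self (η w)
      have h3 : sp S w * ((1 + sv (η w) * sp S w) / 2) =
          sv (η w) * ((1 + sv (η w) * sp S w) / 2) := by
        linear_combination (sv (η w) / 2) * h1 - (sp S w / 2) * h2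
      rw [← mul_assoc, h3, mul_assoc]
    rw [e1, gx_add, gx_mul_left, gx_mul_left, hm, e2]
    have hE : edgesIn G D₀ = insert s(v, w) (edgesIn G D₁) := by
      rw [hins]
      apply edgesIn_insert hG hvD₁ hwD₁ hvw hwr
      intro x hx
      rw [hD₁, mem_erase] at hx
      exact hmax x hx.2
    have hnotin : s(v, w) ∉ edgesIn G D₁ := by
      unfold edgesIn
      simp only [mem_filter, Finset.mk_mem_sym2_iff, not_and]
      intro h; exact absurd h.1 hvD₁
    rw [hE, prod_insert hnotin, ih₁]
    have h4 : ((((s(v, w)).map η).mul : ℤˣ) : ℝ) = sv (η v) * sv (η w) := by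
      rw [Sym2.map_mk, Sym2.mul_mk]
      exact sv_mul _ _
    rw [h4]
    ring

end Vale.Agent.P161
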