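import Vale.Agent.Lib.P161.Process3

/-!
Equivariance of the finite-volume process under graph automorphisms.
-/

open Finset MeasureTheory

namespace Vale.Agent.P161

variable {V : Type*} [DecidableEq V] {G : SimpleGraph V} [DecidableRel G.Adj]

lemma sp_map (e : V ≃ V) (S : Finset V) (v : V) : sp (S.map e.toEmbedding) (e v) = sp S v := by
  unfold sp
  simp

lemma en_map (e : G ≃g G) (β : ℝ) (D : Finset V) (h : V → ℝ) (S : Finset V) :
    en G β (D.map e.toEquiv.toEmbedding) h (S.map e.toEquiv.toEmbedding) =
      en G β D (fun v => h (e v)) S := by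
  unfold en
  rw [Finset.sum_map, Finset.sum_map]
  congr 1
  · apply Finset.sum_congr rfl
    intro x _
    have := sp_map e.toEquiv S x
    exact congrArg (fun t => h (e x) * t) this
  · congr 1
    apply Finset.sum_congr rfl
    intro x _
    rw [Finset.sum_map]
    apply Finset.sum_congr rfl
    intro y _
    have h1 := sp_map e.toEquiv S x
    have h2 := sp_map e.toEquiv S y
    have h3 : G.Adj (e.toEquiv.toEmbedding x) (e.toEquiv.toEmbedding y) ↔ G.Adj x y :=
      e.map_adj_iff
    have h4 : sp (S.map e.toEquiv.toEmbedding) (e.toEquiv.toEmbedding x) = sp S x := h1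
    have h5 : sp (S.map e.toEquiv.toEmbedding) (e.toEquiv.toEmbedding y) = sp S y := h2
    rw [h4, h5]
    by_cases hxy : G.Adj x y
    · rw [if_pos (h3.mpr hxy), if_pos hxy]
    · rw [if_neg (fun hc => hxy (h3.mp hc)), if_neg hxy]

lemma gs_map (e : G ≃g G) (β : ℝ) (D : Finset V) (h : V → ℝ) (f : Finset V → ℝ) :
    gs G β (D.map e.toEquiv.toEmbedding) h f =
      gs G β D (fun v => h (e v)) (fun S => f (S.map e.toEquiv.toEmbedding)) := by
  unfold gs
  symm
  refine Finset.sum_bij (fun S _ => S.map e.toEquiv.toEmbedding) ?_ ?_ ?_ ?_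
  · intro S hS
    rw [mem_powerset] at hS ⊢
    exact Finset.map_subset_map.mpr hS
  · intro S₁ _ S₂ _ h12
    exact Finset.map_injective _ h12
  · intro T hT
    rw [mem_powerset] at hT
    refine ⟨T.map e.toEquiv.symm.toEmbedding, ?_, ?_⟩
    · rw [mem_powerset]
      intro x hx
      rw [Finset.mem_map_equiv] at hx
      have := hT hx
      rw [Finset.mem_map_equiv] at this
      have h3 : e.toEquiv.symm (e.toEquiv.symm.symm x) = x := by
        rw [Equiv.symm_symm, Equiv.symm_apply_apply]
      rwa [h3] at this
    · ext x
      rw [Finset.mem_map_equiv, Finset.mem_map_equiv]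
      simp
  · intro S _
    rw [en_map]

lemma mag_map (e : G ≃g G) (β : ℝ) (D : Finset V) (h : V → ℝ) (v : V) :
    mag G β (D.map e.toEquiv.toEmbedding) h (e v) = mag G β D (fun v => h (e v)) v := by
  unfold mag gx
  rw [gs_map, gs_map]
  congr 1
  unfold gs
  apply Finset.sum_congr rfl
  intro S _
  have := sp_map e.toEquiv S v
  exact congrArg (fun t => Real.exp (en G β D (fun v => h (e v)) S) * t) this

lemma stepF_map (e : G ≃g G) (β a : ℝ) (D : Finset V) (v : V) (r : ℝ) (h : V → ℝ) :
    stepF G β a D v r (fun w => h (e w)) =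
      fun w => stepF G β a (D.map e.toEquiv.toEmbedding) (e v) r h (e w) := by
  unfold stepF
  have hmem : e v ∈ D.map e.toEquiv.toEmbedding ↔ v ∈ D := by
    rw [Finset.mem_map_equiv]
    have : e.toEquiv.symm (e v) = v := e.toEquiv.symm_apply_apply v
    rw [this]
  by_cases hv : v ∈ D
  · rw [if_pos hv, if_pos (hmem.mpr hv), mag_map]
    ext w
    by_cases hw : w = v
    · subst hw
      simp only [Function.update_self]
    · have : e w ≠ e v := fun h => hw (e.injective h)
      rw [Function.update_of_ne hw, Function.update_of_ne this]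
  · rw [if_neg hv, if_neg (fun h => hv (hmem.mp h))]

lemma run_map (e : G ≃g G) (β a : ℝ) (D : Finset V) (L : List V) (ξ h : V → ℝ) :
    run G β a D L (fun w => ξ (e w)) (fun w => h (e w)) =
      fun w => run G β a (D.map e.toEquiv.toEmbedding) (L.map e) ξ h (e w) := by
  induction L using List.reverseRecOn with
  | nil => rfl
  | append_singleton L u ih =>
    rw [run_append, ih, List.map_append, List.map_singleton, run_append]
    exact stepF_map e β a D u (ξ (e u)) (run G β a (D.map e.toEquiv.toEmbedding) (L.map e) ξ h)

lemma perms_map (e : G ≃g G) (D : Finset V) (L : List V) :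
    L.map e ∈ ((D.map e.toEquiv.toEmbedding).toList.permutations).toFinset ↔
      L ∈ D.toList.permutations.toFinset := by
  rw [List.mem_toFinset, List.mem_permutations, List.mem_toFinset, List.mem_permutations]
  have h1 : (D.map e.toEquiv.toEmbedding).toList.Perm (D.toList.map e) := by
    apply List.perm_of_nodup_nodup_toFinset_eq (Finset.nodup_toList _)
    · exact D.nodup_toList.map e.injective
    · ext x
      simp only [Finset.toList_toFinset, Finset.mem_map_equiv, List.mem_toFinset, List.mem_map,
        Finset.mem_toList]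
      constructor
      · intro hx
        exact ⟨e.symm x, hx, e.apply_symm_apply x⟩
      · rintro ⟨y, hy, rfl⟩
        have : e.toEquiv.symm (e y) = y := e.toEquiv.symm_apply_apply y
        rw [this]; exact hy
  constructor
  · intro h
    have h2 := h.trans h1
    have h3 := h2.map e.symm
    rw [List.map_map, List.map_map] at h3
    have : (e.symm ∘ e : V → V) = id := by ext x; simp
    rw [this, List.map_id, List.map_id] at h3
    exact h3
  · intro h
    exact (h.map e).trans h1.symm

lemma roundF_map (e : G ≃g G) (β a : ℝ) (D : Finset V) (l ξ h : V → ℝ) :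
    roundF G β a D (fun w => l (e w)) (fun w => ξ (e w)) (fun w => h (e w)) =
      fun w => roundF G β a (D.map e.toEquiv.toEmbedding) l ξ h (e w) := by
  classical
  ext w
  unfold roundF
  rw [Finset.sum_apply, Finset.sum_apply]
  refine Finset.sum_bij (fun L _ => L.map e) ?_ ?_ ?_ ?_
  · intro L hL
    exact (perms_map e D L).mpr hL
  · intro L₁ _ L₂ _ h12
    exact List.map_injective_iff.mpr e.injective h12
  · intro L hL
    refine ⟨L.map e.symm, ?_, ?_⟩
    · rw [← perms_map e D]
      have : (L.map e.symm).map e = L := by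
        rw [List.map_map]
        have : (e ∘ e.symm : V → V) = id := by ext x; simp
        rw [this, List.map_id]
      rw [this]; exact hL
    · rw [List.map_map]
      have : (e ∘ e.symm : V → V) = id := by ext x; simp
      rw [this, List.map_id]
  · intro L _
    have hp : (L.map e).Pairwise (fun x y => l x < l y) ↔
        L.Pairwise (fun x y => l (e x) < l (e y)) := List.pairwise_map
    by_cases hL : L.Pairwise (fun x y => l (e x) < l (e y))
    · rw [if_pos hL, if_pos (hp.mpr hL), run_map]
    · rw [if_neg hL, if_neg (fun hc => hL (hp.mp hc))]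
      rfl

/-- Shift of the labels. -/
def shiftL (e : G ≃g G) (ω : V × ℕ → unitInterval) : V × ℕ → unitInterval :=
  fun p => ω (e p.1, p.2)

lemma xr_map (e : G ≃g G) (β a : ℝ) (D : Finset V) (k : ℕ) (ω : V × ℕ → unitInterval) :
    xr G β a D k (shiftL e ω) =
      fun w => xr G β a (D.map e.toEquiv.toEmbedding) k ω (e w) := by
  induction k with
  | zero => rfl
  | succ k ih =>
    change roundF G β a D (label k (shiftL e ω)) (noise k (shiftL e ω))
      (xr G β a D k (shiftL e ω)) = _
    rw [ih]
    exact roundF_map e β a D (label k ω) (noise k ω)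
      (xr G β a (D.map e.toEquiv.toEmbedding) k ω)

lemma mag_xr_map (e : G ≃g G) (β a : ℝ) (D : Finset V) (k : ℕ) (ω : V × ℕ → unitInterval)
    (v : V) :
    mag G β D (xr G β a D k (shiftL e ω)) v =
      mag G β (D.map e.toEquiv.toEmbedding) (xr G β a (D.map e.toEquiv.toEmbedding) k ω)
        (e v) := by
  rw [xr_map, mag_map]

end Vale.Agent.P161
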