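import Vale.Agent.Lib.P161.Tree
import Vale.Agent.Lib.P161.Channel

/-!
Deterministic estimates: covariances on a tree and the effect of one observation.
-/

open Finset MeasureTheory

namespace Vale.Agent.P161

section Slope

lemma one_sub_pos_of {θ M : ℝ} (h0 : 0 ≤ θ) (h1 : θ < 1) (hM : |M| ≤ 1) :
    0 < 1 - θ ^ 2 * M ^ 2 := by
  have hM2 : M ^ 2 ≤ 1 := by
    have := sq_abs M
    nlinarith [abs_nonneg M]
  have hθ2 : θ ^ 2 < 1 := by nlinarith
  nlinarith [sq_nonneg θ, sq_nonneg M]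

lemma one_sub_ge_of {θ M : ℝ} (hM : |M| ≤ 1) : 1 - θ ^ 2 ≤ 1 - θ ^ 2 * M ^ 2 := by
  have hM2 : M ^ 2 ≤ 1 := by
    have := sq_abs M
    nlinarith [abs_nonneg M]
  nlinarith [sq_nonneg θ]

lemma sq_le_one_of_abs {M : ℝ} (hM : |M| ≤ 1) : M ^ 2 ≤ 1 := by
  have := sq_abs M
  nlinarith [abs_nonneg M]

lemma slope_nonneg {θ M : ℝ} (h0 : 0 ≤ θ) (h1 : θ < 1) (hM : |M| ≤ 1) : 0 ≤ slope θ M := by
  unfold slope
  have := one_sub_pos_of h0 h1 hM
  have hM2 := sq_le_one_of_abs hM
  apply div_nonneg _ this.le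
  apply mul_nonneg h0; linarith

lemma slope_le {θ M : ℝ} (h0 : 0 ≤ θ) (h1 : θ < 1) (hM : |M| ≤ 1) : slope θ M ≤ θ := by
  unfold slope
  have := one_sub_pos_of h0 h1 hM
  rw [div_le_iff₀ this]
  have hM2 := sq_le_one_of_abs hM
  have hθ2 : θ ^ 2 ≤ 1 := by nlinarith
  apply mul_le_mul_of_nonneg_left _ h0
  nlinarith [sq_nonneg M]

lemma slope_lip {θ M M' : ℝ} (h0 : 0 ≤ θ) (h1 : θ < 1) (hM : |M| ≤ 1) (hM' : |M'| ≤ 1) :
    |slope θ M - slope θ M'| ≤ 2 / (1 - θ ^ 2) * |M - M'| := by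
  have p := one_sub_pos_of h0 h1 hM
  have p' := one_sub_pos_of h0 h1 hM'
  have q := one_sub_ge_of (θ := θ) hM
  have q' := one_sub_ge_of (θ := θ) hM'
  have hθ2 : 0 < 1 - θ ^ 2 := by nlinarith
  have e : slope θ M - slope θ M' =
      -(θ * (1 - θ ^ 2) * (M + M') * (M - M')) /
        ((1 - θ ^ 2 * M ^ 2) * (1 - θ ^ 2 * M' ^ 2)) := by
    unfold slope
    rw [div_sub_div _ _ p.ne' p'.ne']
    congr 1
    ring
  rw [e, abs_div, abs_neg, abs_mul, abs_mul, abs_mul, abs_of_nonneg h0, abs_of_pos hθ2,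
    abs_of_pos (mul_pos p p')]
  rw [div_le_iff₀ (mul_pos p p')]
  have hs : |M + M'| ≤ 2 := by
    calc |M + M'| ≤ |M| + |M'| := abs_add_le _ _
      _ ≤ 2 := by linarith
  have hprod : (1 - θ ^ 2) * (1 - θ ^ 2) ≤ (1 - θ ^ 2 * M ^ 2) * (1 - θ ^ 2 * M' ^ 2) := by
    apply mul_le_mul q q' hθ2.le p.le
  calc θ * (1 - θ ^ 2) * |M + M'| * |M - M'| ≤ 1 * (1 - θ ^ 2) * 2 * |M - M'| := by
        gcongr
    _ = 2 / (1 - θ ^ 2) * |M - M'| * ((1 - θ ^ 2) * (1 - θ ^ 2)) := by
        field_simp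
    _ ≤ 2 / (1 - θ ^ 2) * |M - M'| * ((1 - θ ^ 2 * M ^ 2) * (1 - θ ^ 2 * M' ^ 2)) := by
        gcongr

/-- The cavity mean is a Lipschitz function of the two magnetizations. -/
lemma cavity_lip {θ M M' p q p' q' : ℝ} (h0 : 0 ≤ θ) (h1 : θ < 1) (hM : |M| ≤ 1)
    (hM' : |M'| ≤ 1) (hq : |q| ≤ 1)
    (e : p = icept θ M + slope θ M * q) (e' : p' = icept θ M' + slope θ M' * q') :
    |M - M'| ≤ (1 + θ) / (1 - θ) * (|p - p'| + |q - q'|) := by
  have hMa := abs_le.mp hM
  have hMa' := abs_le.mp hM'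
  have hqa := abs_le.mp hq
  have pp := one_sub_pos_of h0 h1 hM
  have pp' := one_sub_pos_of h0 h1 hM'
  have d1 : 0 < 1 + θ * M := by nlinarith
  have d2 : 0 < 1 - θ * M := by nlinarith
  have d1' : 0 < 1 + θ * M' := by nlinarith
  have d2' : 0 < 1 - θ * M' := by nlinarith
  -- rewrite the affine function as a convex combination
  have conv : ∀ N s : ℝ, 0 < 1 + θ * N → 0 < 1 - θ * N →
      icept θ N + slope θ N * s =
        (1 + s) / 2 * ((N + θ) / (1 + θ * N)) + (1 - s) / 2 * ((N - θ) / (1 - θ * N)) := by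
    intro N s a b
    have hab : 1 - θ ^ 2 * N ^ 2 = (1 + θ * N) * (1 - θ * N) := by ring
    have a' := a.ne'
    have b' := b.ne'
    unfold icept slope
    rw [hab]
    rw [div_mul_eq_mul_div, ← add_div, mul_div_assoc', mul_div_assoc', div_add_div _ _ a' b']
    congr 1
    ring
  have diff1 : (M + θ) / (1 + θ * M) - (M' + θ) / (1 + θ * M') =
      (1 - θ ^ 2) * (M - M') / ((1 + θ * M) * (1 + θ * M')) := by
    rw [div_sub_div _ _ d1.ne' d1'.ne']; congr 1; ring
  have diff2 : (M - θ) / (1 - θ * M) - (M' - θ) / (1 - θ * M') =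
      (1 - θ ^ 2) * (M - M') / ((1 - θ * M) * (1 - θ * M')) := by
    rw [div_sub_div _ _ d2.ne' d2'.ne']; congr 1; ring
  have hcoef : (icept θ M + slope θ M * q) - (icept θ M' + slope θ M' * q) =
      (M - M') * ((1 - θ ^ 2) * ((1 + q) / 2 / ((1 + θ * M) * (1 + θ * M')) +
        (1 - q) / 2 / ((1 - θ * M) * (1 - θ * M')))) := by
    rw [conv M q d1 d2, conv M' q d1' d2']
    have : (1 + q) / 2 * ((M + θ) / (1 + θ * M)) + (1 - q) / 2 * ((M - θ) / (1 - θ * M)) -
        ((1 + q) / 2 * ((M' + θ) / (1 + θ * M')) + (1 - q) / 2 * ((M' - θ) / (1 - θ * M'))) =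
        (1 + q) / 2 * ((M + θ) / (1 + θ * M) - (M' + θ) / (1 + θ * M')) +
        (1 - q) / 2 * ((M - θ) / (1 - θ * M) - (M' - θ) / (1 - θ * M')) := by ring
    rw [this, diff1, diff2]
    ring
  have hθ2 : 0 < 1 - θ ^ 2 := by nlinarith
  have b1 : 1 / ((1 + θ) * (1 + θ)) ≤ 1 / ((1 + θ * M) * (1 + θ * M')) := by
    apply one_div_le_one_div_of_le (mul_pos d1 d1')
    apply mul_le_mul _ _ d1'.le (by linarith)
    · nlinarith
    · nlinarith
  have b2 : 1 / ((1 + θ) * (1 + θ)) ≤ 1 / ((1 - θ * M) * (1 - θ * M')) := by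
    apply one_div_le_one_div_of_le (mul_pos d2 d2')
    apply mul_le_mul _ _ d2'.le (by linarith)
    · nlinarith
    · nlinarith
  have hlow : (1 - θ) / (1 + θ) ≤ (1 - θ ^ 2) * ((1 + q) / 2 / ((1 + θ * M) * (1 + θ * M')) +
        (1 - q) / 2 / ((1 - θ * M) * (1 - θ * M'))) := by
    calc (1 - θ) / (1 + θ) = (1 - θ ^ 2) * (1 / ((1 + θ) * (1 + θ))) := by
          have : (1 + θ) ≠ 0 := by linarith
          field_simp
          ring
      _ = (1 - θ ^ 2) * ((1 + q) / 2 * (1 / ((1 + θ) * (1 + θ))) +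
            (1 - q) / 2 * (1 / ((1 + θ) * (1 + θ)))) := by ring
      _ ≤ (1 - θ ^ 2) * ((1 + q) / 2 * (1 / ((1 + θ * M) * (1 + θ * M'))) +
            (1 - q) / 2 * (1 / ((1 - θ * M) * (1 - θ * M')))) := by
          have i1 : 0 ≤ (1 + q) / 2 := by linarith
          have i2 : 0 ≤ (1 - q) / 2 := by linarith
          gcongr
      _ = _ := by ring
  have hr : 0 < (1 - θ) / (1 + θ) := div_pos (by linarith) (by linarith)
  have hsl : |slope θ M'| ≤ 1 := by
    rw [abs_of_nonneg (slope_nonneg h0 h1 hM')]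
    exact (slope_le h0 h1 hM').trans h1.le
  have key : |M - M'| * ((1 - θ) / (1 + θ)) ≤ |p - p'| + |q - q'| := by
    calc |M - M'| * ((1 - θ) / (1 + θ)) ≤ |M - M'| *
          |(1 - θ ^ 2) * ((1 + q) / 2 / ((1 + θ * M) * (1 + θ * M')) +
            (1 - q) / 2 / ((1 - θ * M) * (1 - θ * M')))| := by
          gcongr
          exact hlow.trans (le_abs_self _)
      _ = |(icept θ M + slope θ M * q) - (icept θ M' + slope θ M' * q)| := by
          rw [hcoef, ← abs_mul]
      _ = |(p - p') - slope θ M' * (q - q')| := by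
          rw [e, e']; congr 1; ring
      _ ≤ |p - p'| + |slope θ M' * (q - q')| := abs_sub _ _
      _ ≤ |p - p'| + |q - q'| := by
          rw [abs_mul]
          have := mul_le_mul_of_nonneg_right hsl (abs_nonneg (q - q'))
          linarith
  have : |M - M'| = (1 + θ) / (1 - θ) * (|M - M'| * ((1 - θ) / (1 + θ))) := by
    have h2 : (1 - θ) ≠ 0 := by linarith
    have h3 : (1 + θ) ≠ 0 := by linarith
    field_simp
  rw [this]
  have hpos : 0 ≤ (1 + θ) / (1 - θ) := div_nonneg (by linarith) (by linarith)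
  gcongr

end Slope

section Cov

variable {V : Type*} [DecidableEq V] {G : SimpleGraph V} [DecidableRel G.Adj]
variable {β : ℝ} {D : Finset V} {h : V → ℝ}

lemma sp_union_of_notMem {S₁ S₂ : Finset V} {u : V} (hu : u ∉ S₁) :
    sp (S₁ ∪ S₂) u = sp S₂ u := by
  unfold sp; simp [hu]

/-- Both the magnetization at `v` and the covariances with the far side factor through `w`. -/
lemma cov_step (hG : G.IsTree) {v w : V} (hvw : G.Adj v w) (hv : v ∈ D) (hw : w ∈ D) :
    ∃ M : ℝ, |M| ≤ 1 ∧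
      mag G β D h v = icept (Real.tanh β) M + slope (Real.tanh β) M * mag G β D h w ∧
      ∀ u, G.dist u w < G.dist u v →
        cov G β D h v u = slope (Real.tanh β) M * cov G β D h w u := by
  obtain ⟨M, hM, hf⟩ := markov_in hG (β := β) (h := h) hvw hv hw
  refine ⟨M, hM, ?_, ?_⟩
  · have := hf (fun _ => 1) (fun _ _ _ _ => rfl)
    simp only [mul_one] at this
    rw [gx_const] at this
    unfold mag
    rw [this]; ring
  · intro u hu
    have h1 := hf (fun _ => 1) (fun _ _ _ _ => rfl)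
    simp only [mul_one] at h1
    rw [gx_const] at h1
    have hloc : ∀ S₁ S₂ : Finset V, S₁ ⊆ side G D v w → S₂ ⊆ side G D w v →
        sp (S₁ ∪ S₂) u = sp S₂ u := by
      intro S₁ S₂ hs1 _
      apply sp_union_of_notMem
      intro hmem
      have := (mem_side.mp (hs1 hmem)).2
      omega
    have h2 := hf (fun S => sp S u) hloc
    unfold cov mag
    rw [h1, h2]
    ring

lemma cov_out (hG : G.IsTree) {v w : V} (hvw : G.Adj v w) (hv : v ∈ D) (hw : w ∉ D) {u : V}
    (hu : G.dist u w < G.dist u v) : cov G β D h v u = 0 := by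
  have hloc : ∀ S₁ S₂ : Finset V, S₁ ⊆ side G D v w → S₂ ⊆ side G D w v →
      sp (S₁ ∪ S₂) u = sp S₂ u := by
    intro S₁ S₂ hs1 _
    apply sp_union_of_notMem
    intro hmem
    have := (mem_side.mp (hs1 hmem)).2
    omega
  have h1 := markov_out hG (β := β) (h := h) hvw hv hw (fun S => sp S u) hloc
  unfold cov
  rw [h1]
  unfold mag
  ring

lemma tanh_nonneg (hβ : 0 ≤ β) : 0 ≤ Real.tanh β := by
  rw [Real.tanh_eq_sinh_div_cosh]
  exact div_nonneg (Real.sinh_nonneg_iff.mpr hβ) (Real.cosh_pos β).le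

/-- Exponential decay of covariances on the tree. -/
lemma abs_cov_le (hG : G.IsTree) (hβ : 0 ≤ β) (v u : V) :
    |cov G β D h v u| ≤ Real.tanh β ^ G.dist v u := by
  have h0 := tanh_nonneg hβ
  have h1 := Real.tanh_lt_one β
  induction hn : G.dist v u generalizing v with
  | zero =>
    have hvu : v = u := (hG.connected.dist_eq_zero_iff).mp hn
    subst hvu
    rw [cov_self, pow_zero]
    have hm := abs_mag_le (G := G) (β := β) (D := D) (h := h) v
    have := sq_le_one_of_abs hm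
    rw [abs_le]
    constructor <;> nlinarith [sq_nonneg (mag G β D h v)]
  | succ n ih =>
    have hvu : v ≠ u := by
      rintro rfl
      rw [SimpleGraph.dist_self] at hn
      omega
    obtain ⟨w, hvw, hd⟩ := exists_adj_closer hG.connected hvu
    by_cases hv : v ∈ D
    · have hlt : G.dist u w < G.dist u v := by
        rw [G.dist_comm (u := u), G.dist_comm (u := u) (v := v)]; omega
      by_cases hw : w ∈ D
      · obtain ⟨M, hM, _, hc⟩ := cov_step (β := β) (h := h) hG hvw hv hw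
        rw [hc u hlt, abs_mul, abs_of_nonneg (slope_nonneg h0 h1 hM), pow_succ']
        have := ih w (by omega)
        apply mul_le_mul (slope_le h0 h1 hM) this (abs_nonneg _) h0
      · rw [cov_out hG hvw hv hw hlt, abs_zero]
        positivity
    · rw [cov_of_notMem_left hv, abs_zero]
      positivity

/-- Pointwise comparison of covariances in two volumes. -/
lemma cov_diff_step (hG : G.IsTree) (hβ : 0 ≤ β) {D' : Finset V} {h' : V → ℝ} {v w u : V}
    (hvw : G.Adj v w) (hv : v ∈ D) (hw : w ∈ D) (hv' : v ∈ D') (hw' : w ∈ D')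
    (hu : G.dist v u = G.dist w u + 1) :
    |cov G β D h v u - cov G β D' h' v u| ≤
      Real.tanh β * |cov G β D h w u - cov G β D' h' w u| +
      (2 / (1 - Real.tanh β) ^ 2) * Real.tanh β ^ (G.dist w u) *
        (|mag G β D h v - mag G β D' h' v| + |mag G β D h w - mag G β D' h' w|) := by
  have h0 := tanh_nonneg hβ
  have h1 := Real.tanh_lt_one β
  set θ := Real.tanh β with hθ
  have hlt : G.dist u w < G.dist u v := by
    rw [G.dist_comm (u := u), G.dist_comm (u := u) (v := v)]; omega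
  obtain ⟨M, hM, hm, hc⟩ := cov_step (β := β) (h := h) hG hvw hv hw
  obtain ⟨M', hM', hm', hc'⟩ := cov_step (β := β) (h := h') hG hvw hv' hw'
  rw [hc u hlt, hc' u hlt]
  have e : slope θ M * cov G β D h w u - slope θ M' * cov G β D' h' w u =
      slope θ M * (cov G β D h w u - cov G β D' h' w u) +
      (slope θ M - slope θ M') * cov G β D' h' w u := by ring
  rw [e]
  have hsl : |slope θ M - slope θ M'| ≤ 2 / (1 - θ) ^ 2 *
      (|mag G β D h v - mag G β D' h' v| + |mag G β D h w - mag G β D' h' w|) := by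
    have k1 := slope_lip h0 h1 hM hM'
    have k2 := cavity_lip h0 h1 hM hM' (abs_mag_le w) hm hm'
    have hθ2 : 0 < 1 - θ ^ 2 := by nlinarith
    have e1 : 2 / (1 - θ) ^ 2 = 2 / (1 - θ ^ 2) * ((1 + θ) / (1 - θ)) := by
      have a1 : (1 - θ) ≠ 0 := by linarith
      have a2 : (1 + θ) ≠ 0 := by linarith
      have a3 : 1 - θ ^ 2 = (1 - θ) * (1 + θ) := by ring
      rw [a3]
      field_simp
    calc |slope θ M - slope θ M'| ≤ 2 / (1 - θ ^ 2) * |M - M'| := k1
      _ ≤ 2 / (1 - θ ^ 2) * ((1 + θ) / (1 - θ) *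
          (|mag G β D h v - mag G β D' h' v| + |mag G β D h w - mag G β D' h' w|)) := by
          gcongr
      _ = _ := by rw [e1]; ring
  calc |slope θ M * (cov G β D h w u - cov G β D' h' w u) +
      (slope θ M - slope θ M') * cov G β D' h' w u|
      ≤ |slope θ M * (cov G β D h w u - cov G β D' h' w u)| +
        |(slope θ M - slope θ M') * cov G β D' h' w u| := abs_add_le _ _
    _ ≤ θ * |cov G β D h w u - cov G β D' h' w u| +
        (2 / (1 - θ) ^ 2 * (|mag G β D h v - mag G β D' h' v| +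
          |mag G β D h w - mag G β D' h' w|)) * θ ^ (G.dist w u) := by
        rw [abs_mul, abs_mul, abs_of_nonneg (slope_nonneg h0 h1 hM)]
        have := slope_le h0 h1 hM
        have := abs_cov_le (D := D') (h := h') hG hβ w u
        gcongr
    _ = _ := by ring

end Cov

end Vale.Agent.P161
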