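import Vale.Agent.Lib.P161.Main
import Vale.Agent.Lib.P161.Defs
import Mathlib.Probability.Kernel.Representation

/-!
Passing from countably many labels per vertex to one label per vertex, and uniqueness of the
measure with given cylinder probabilities.
-/

open Finset MeasureTheory Filter Topology

namespace Vale.Agent.P161

/-- Extract countably many labels from each single label. -/
def split {V : Type*} (f : unitInterval → ℕ → unitInterval) (U : V → unitInterval) :
    V × ℕ → unitInterval :=
  fun p => f (U p.1) p.2

lemma measurable_split {V : Type*} {f : unitInterval → ℕ → unitInterval} (hf : Measurable f) :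
    Measurable (split (V := V) f) := by
  rw [measurable_pi_iff]
  intro p
  have h1 := (measurable_pi_iff.mp hf) p.2
  have h2 := h1.comp (measurable_pi_apply (X := fun _ : V => unitInterval) p.1)
  exact h2

lemma map_split {V : Type*} {f : unitInterval → ℕ → unitInterval} (hf : Measurable f)
    (hmap : (volume : Measure unitInterval).map f = iidLaw ℕ) :
    (uniformLabels V).map (split f) = iidLaw (V × ℕ) := by
  have h1 : (uniformLabels V).map (fun U v => f (U v)) =
      Measure.infinitePi fun _ : V => Measure.infinitePi fun _ : ℕ =>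
        (volume : Measure unitInterval) := by
    unfold uniformLabels
    rw [Measure.infinitePi_map_pi (X := fun _ : V => unitInterval)
      (μ := fun _ : V => (volume : Measure unitInterval)) (f := fun _ : V => f) (fun _ => hf)]
    simp only [hmap]
    rfl
  have h2 := Measure.infinitePi_map_curry_symm (ι := V) (κ := ℕ) (X := unitInterval)
    (fun _ _ => (volume : Measure unitInterval))
  have h3 : split (V := V) f = (MeasurableEquiv.curry V ℕ unitInterval).symm ∘
      (fun U v => f (U v)) := by
    funext U p
    rfl
  have h4 : Measurable (fun (U : V → unitInterval) v => f (U v)) := by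
    rw [measurable_pi_iff]
    intro v
    have h := hf.comp (measurable_pi_apply (X := fun _ : V => unitInterval) v)
    exact h
  rw [h3, ← Measure.map_map (MeasurableEquiv.curry V ℕ unitInterval).symm.measurable h4, h1, h2]
  rfl

/-- The set of spin configurations agreeing with `η` on `D`. -/
def cylSet {V : Type*} (D : Finset V) (η : V → ℤˣ) : Set (V → ℤˣ) := {σ | ∀ v ∈ D, σ v = η v}

lemma measurableSet_cylSet {V : Type*} (D : Finset V) (η : V → ℤˣ) :
    MeasurableSet (cylSet D η) := by
  have : cylSet D η = ⋂ v ∈ D, (fun σ : V → ℤˣ => σ v) ⁻¹' {η v} := by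
    ext σ; simp [cylSet]
  rw [this]
  apply Finset.measurableSet_biInter
  intro v _
  exact (measurable_pi_apply v) (measurableSet_singleton_units _)

variable {V : Type*} {G : SimpleGraph V}

lemma exists_factor (hG : G.IsTree) [G.LocallyFinite] {d : ℕ} (hd : 2 ≤ d)
    (hreg : G.IsRegularOfDegree d) {β : ℝ} (hβ : 0 ≤ β)
    (hlt : ((d : ℝ) - 1) * Real.tanh β ^ 2 < 1) :
    ∃ Φ : (V → unitInterval) → (V → ℤˣ), Measurable Φ ∧
      (∀ g : G ≃g G, ∀ᵐ U ∂uniformLabels V, Φ (act g U) = act g (Φ U)) ∧
      IsFreeIsing G β ((uniformLabels V).map Φ) := by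
  classical
  have : Countable V := countable_of_connected hG.connected
  obtain ⟨lam, rho, eps, c1, a, hp⟩ := exists_par hd (tanh_nonneg hβ) hlt
  obtain ⟨R, n, hs⟩ := exists_sched (a := a) (rho := rho) hp.ha0 hp.hrho0 hp.hrho1
  obtain ⟨o⟩ := hG.connected.nonempty
  obtain ⟨f, hf, hmap⟩ := MeasureTheory.Measure.exists_measurable_map_eq (iidLaw ℕ)
  have hsplit := map_split (V := V) hf hmap
  have hms := measurable_split (V := V) hf
  have hmF := measurable_bigF (G := G) β a o R n
  have hΦ : Measurable (fun U : V → unitInterval => bigF G β a o R n (split f U)) := by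
    have h := hmF.comp hms
    exact h
  refine ⟨fun U => bigF G β a o R n (split f U), hΦ, ?_, ?_⟩
  · intro g
    have h := bigF_equivariant (β := β) hG hreg hβ hp hs o g.symm
    rw [← hsplit] at h
    have h' := ae_of_ae_map hms.aemeasurable h
    filter_upwards [h'] with U hU
    funext v
    have h1 := hU v
    exact h1
  · intro D hD η
    have h1 : (uniformLabels V).map (fun U => bigF G β a o R n (split f U)) =
        (iidLaw (V × ℕ)).map (bigF G β a o R n) := by
      rw [← hsplit, Measure.map_map hmF hms]
      rfl
    have h2 := Measure.map_apply (μ := iidLaw (V × ℕ)) hmF (measurableSet_cylSet D η)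
    rw [h1]
    have h3 := bigF_law (β := β) hG hreg hβ hp hs o D hD η
    have h4 : {σ : V → ℤˣ | ∀ v ∈ D, σ v = η v} = cylSet D η := rfl
    rw [h4, h2, ← h3]
    rfl

lemma isProb_of_isFreeIsing (hG : G.Connected) {β : ℝ} {ν : Measure (V → ℤˣ)}
    (h : IsFreeIsing G β ν) : ν Set.univ = 1 := by
  classical
  obtain ⟨o⟩ := hG.nonempty
  have hconn : (G.induce (({o} : Finset V) : Set V)).Connected := by
    rw [Finset.coe_singleton]
    have : Nonempty ({o} : Set V) := ⟨⟨o, rfl⟩⟩
    refine SimpleGraph.Connected.mk ?_
    intro x y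
    have : x = y := Subsingleton.elim _ _
    rw [this]
  have hE : edgesIn G ({o} : Finset V) = ∅ := by
    unfold edgesIn
    ext e
    simp only [Finset.mem_filter, Finset.notMem_empty, iff_false, not_and]
    intro he
    rw [Finset.sym2_singleton, Finset.mem_singleton] at he
    subst he
    simp
  have hu : (Set.univ : Set (V → ℤˣ)) = cylSet {o} (fun _ => 1) ∪ cylSet {o} (fun _ => -1) := by
    ext σ
    simp only [Set.mem_univ, true_iff, Set.mem_union]
    rcases Int.units_eq_one_or (σ o) with h1 | h1
    · left
      intro v hv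
      rw [Finset.mem_singleton] at hv
      subst hv
      exact h1
    · right
      intro v hv
      rw [Finset.mem_singleton] at hv
      subst hv
      exact h1
  have hdisj : Disjoint (cylSet ({o} : Finset V) (fun _ => (1 : ℤˣ)))
      (cylSet {o} (fun _ => -1)) := by
    rw [Set.disjoint_left]
    intro σ h1 h2
    have h3 := h1 o (Finset.mem_singleton_self o)
    have h4 := h2 o (Finset.mem_singleton_self o)
    rw [h3] at h4
    have h5 : (1 : ℤˣ) = -1 := h4
    exact absurd h5 (by decide)
  rw [hu, measure_union hdisj (measurableSet_cylSet _ _)]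
  have e1 := h {o} hconn (fun _ => 1)
  have e2 := h {o} hconn (fun _ => -1)
  rw [hE, Finset.prod_empty, mul_one] at e1 e2
  have e1' : ν (cylSet {o} (fun _ => 1)) = ENNReal.ofReal (1 / 2) := e1
  have e2' : ν (cylSet {o} (fun _ => -1)) = ENNReal.ofReal (1 / 2) := e2
  rw [e1', e2', ← ENNReal.ofReal_add (by norm_num) (by norm_num)]
  norm_num

lemma isFreeIsing_unique (hG : G.Connected) [G.LocallyFinite] {β : ℝ}
    {ν ν' : Measure (V → ℤˣ)} (h : IsFreeIsing G β ν) (h' : IsFreeIsing G β ν') : ν = ν' := by
  classical
  have hu := isProb_of_isFreeIsing hG h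
  have hu' := isProb_of_isFreeIsing hG h'
  have : IsProbabilityMeasure ν := ⟨hu⟩
  have : IsProbabilityMeasure ν' := ⟨hu'⟩
  have : Countable V := countable_of_connected hG
  obtain ⟨o⟩ := hG.nonempty
  have hball : ∀ n, (G.induce ((bal G o n : Finset V) : Set V)).Connected := by
    intro n
    have ho : o ∈ ((bal G o n : Finset V) : Set V) := by
      rw [Finset.mem_coe, mem_bal hG, SimpleGraph.dist_self]
      exact Nat.zero_le n
    have key : ∀ k, ∀ x (hx : x ∈ ((bal G o n : Finset V) : Set V)), G.dist x o = k →
        (G.induce ((bal G o n : Finset V) : Set V)).Reachable ⟨x, hx⟩ ⟨o, ho⟩ := by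
      intro k
      induction k with
      | zero =>
        intro x hx hk
        have hxo : x = o := by
          by_contra hne
          have := hG.pos_dist_of_ne hne
          omega
        subst hxo
        exact SimpleGraph.Reachable.refl _
      | succ k ih =>
        intro x hx hk
        have hne : x ≠ o := by
          rintro rfl
          rw [SimpleGraph.dist_self] at hk
          omega
        obtain ⟨w, hw, hd⟩ := exists_adj_closer hG hne
        have hwb : w ∈ ((bal G o n : Finset V) : Set V) := by
          rw [Finset.mem_coe, mem_bal hG] at hx ⊢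
          rw [G.dist_comm] at hx ⊢
          omega
        have h1 := ih w hwb (by omega)
        have h2 : (G.induce ((bal G o n : Finset V) : Set V)).Adj ⟨x, hx⟩ ⟨w, hwb⟩ := hw
        exact h2.reachable.trans h1
    have : Nonempty ((bal G o n : Finset V) : Set V) := ⟨⟨o, ho⟩⟩
    refine SimpleGraph.Connected.mk ?_
    intro x y
    exact (key _ x.1 x.2 rfl).trans (key _ y.1 y.2 rfl).symm
  -- the generating family
  set C : Set (Set (V → ℤˣ)) := {s | s = ∅ ∨ ∃ n η, s = cylSet (bal G o n) η} with hC
  have hpi : IsPiSystem C := by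
    rintro s hs t ht ⟨σ, hσs, hσt⟩
    rcases hs with rfl | ⟨n, η, rfl⟩
    · exact absurd hσs (Set.notMem_empty σ)
    rcases ht with rfl | ⟨m, ζ, rfl⟩
    · exact absurd hσt (Set.notMem_empty σ)
    have mono : ∀ {k l : ℕ}, k ≤ l → ∀ v, v ∈ bal G o k → v ∈ bal G o l := by
      intro k l hkl v hv
      rw [mem_bal hG] at hv ⊢
      exact hv.trans hkl
    right
    refine ⟨max n m, σ, ?_⟩
    ext τ
    constructor
    · rintro ⟨h1, h2⟩ v hv
      rcases le_total n m with hnm | hnm
      · rw [max_eq_right hnm] at hv
        rw [h2 v hv, hσt v hv]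
      · rw [max_eq_left hnm] at hv
        rw [h1 v hv, hσs v hv]
    · intro h1
      refine ⟨fun v hv => ?_, fun v hv => ?_⟩
      · rw [h1 v (mono (le_max_left n m) v hv), hσs v hv]
      · rw [h1 v (mono (le_max_right n m) v hv), hσt v hv]
  have hgen : (MeasurableSpace.pi : MeasurableSpace (V → ℤˣ)) = MeasurableSpace.generateFrom C := by
    apply le_antisymm
    · apply iSup_le
      intro v
      rw [← measurable_iff_comap_le]
      refine @measurable_to_countable' ℤˣ (V → ℤˣ) _ _ (MeasurableSpace.generateFrom C)
        (fun σ => σ v) ?_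
      intro x
      set η : Finset V → V → ℤˣ := fun T w => if w ∈ T then 1 else -1 with hη
      have heq : (fun σ : V → ℤˣ => σ v) ⁻¹' {x} =
          ⋃ T ∈ ((bal G o (G.dist o v)).powerset.filter (fun T => η T v = x)),
            cylSet (bal G o (G.dist o v)) (η T) := by
        have hv : v ∈ bal G o (G.dist o v) := by rw [mem_bal hG]
        ext σ
        simp only [Set.mem_preimage, Set.mem_singleton_iff, Set.mem_iUnion, Finset.mem_filter,
          Finset.mem_powerset]
        constructor
        · intro hσ
          have hmem : ∀ w ∈ bal G o (G.dist o v),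
              σ w = η ((bal G o (G.dist o v)).filter (fun w => σ w = 1)) w := by
            intro w hw
            simp only [hη, Finset.mem_filter]
            rcases Int.units_eq_one_or (σ w) with h1 | h1
            · rw [if_pos ⟨hw, h1⟩, h1]
            · rw [if_neg (fun hc => by rw [h1] at hc; exact absurd hc.2 (by decide)), h1]
          refine ⟨(bal G o (G.dist o v)).filter (fun w => σ w = 1),
            ⟨Finset.filter_subset _ _, ?_⟩, hmem⟩
          rw [← hmem v hv, hσ]
        · rintro ⟨T, ⟨_, hT⟩, hσ⟩
          rw [hσ v hv, hT]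
      rw [heq]
      apply Finset.measurableSet_biUnion
      intro T _
      apply MeasurableSpace.measurableSet_generateFrom
      exact Or.inr ⟨_, _, rfl⟩
    · apply MeasurableSpace.generateFrom_le
      rintro s (rfl | ⟨n, η, rfl⟩)
      · exact MeasurableSet.empty
      · exact measurableSet_cylSet _ _
  apply MeasureTheory.ext_of_generate_finite C hgen hpi
  · rintro s (rfl | ⟨n, η, rfl⟩)
    · simp
    · have e1 := h (bal G o n) (hball n) η
      have e2 := h' (bal G o n) (hball n) η
      exact e1.trans e2.symm
  · rw [hu, hu']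

/-- Main theorem below the reconstruction threshold. -/
theorem free_ising_factor (hG : G.IsTree) [G.LocallyFinite] {d : ℕ} (hd : 3 ≤ d)
    (hreg : G.IsRegularOfDegree d) {β : ℝ} (hβ : 0 ≤ β)
    (hlt : Real.tanh β < 1 / √((d : ℝ) - 1)) :
    (∃! ν : Measure (V → ℤˣ), IsFreeIsing G β ν) ∧
      ∀ ν : Measure (V → ℤˣ), IsFreeIsing G β ν → IsFactorOfIID G ν := by
  have hd' : (3 : ℝ) ≤ d := by exact_mod_cast hd
  have hpos : (0 : ℝ) < (d : ℝ) - 1 := by linarith
  have hlt' : ((d : ℝ) - 1) * Real.tanh β ^ 2 < 1 := by
    have h0 := tanh_nonneg hβ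
    have h1 : Real.tanh β ^ 2 < (1 / √((d : ℝ) - 1)) ^ 2 := by
      exact pow_lt_pow_left₀ hlt h0 (by norm_num)
    rw [div_pow, one_pow, Real.sq_sqrt hpos.le] at h1
    rw [lt_div_iff₀ hpos] at h1
    linarith
  obtain ⟨Φ, hΦ, heq, hlaw⟩ := exists_factor hG (by omega) hreg hβ hlt'
  refine ⟨⟨_, hlaw, fun ν' hν' => isFreeIsing_unique hG.connected hν' hlaw⟩, fun ν hν => ?_⟩
  exact ⟨Φ, hΦ, heq, isFreeIsing_unique hG.connected hlaw hν⟩

end Vale.Agent.P161
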