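import Mathlib

/-!
Finite-volume Ising expectations, written as finite sums over the set `S` of plus spins.
-/

open Finset

namespace Vale.Agent.P161

variable {V : Type*} [DecidableEq V]

/-- The spin at `v` of the configuration whose set of plus spins is `S`. -/
def sp (S : Finset V) (v : V) : ℝ := if v ∈ S then 1 else -1

lemma sp_mul_self (S : Finset V) (v : V) : sp S v * sp S v = 1 := by
  unfold sp; split_ifs <;> norm_num

lemma abs_sp (S : Finset V) (v : V) : |sp S v| = 1 := by
  unfold sp; split_ifs <;> norm_num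

lemma sp_eq (S : Finset V) (v : V) : sp S v = 1 ∨ sp S v = -1 := by
  unfold sp; split_ifs <;> simp

lemma sp_union_left {S₁ S₂ T R : Finset V} (hTR : Disjoint T R) (h2 : S₂ ⊆ R) {v : V}
    (hv : v ∈ T) : sp (S₁ ∪ S₂) v = sp S₁ v := by
  unfold sp
  have : v ∉ S₂ := fun h => (Finset.disjoint_left.mp hTR hv) (h2 h)
  simp [this]

lemma sp_union_right {S₁ S₂ T R : Finset V} (hTR : Disjoint T R) (h1 : S₁ ⊆ T) {v : V}
    (hv : v ∈ R) : sp (S₁ ∪ S₂) v = sp S₂ v := by
  unfold sp
  have : v ∉ S₁ := fun h => (Finset.disjoint_left.mp hTR (h1 h)) hv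
  simp [this]

lemma sum_powerset_union {T R : Finset V} (hTR : Disjoint T R) (K : Finset V → ℝ) :
    ∑ S ∈ (T ∪ R).powerset, K S = ∑ S₁ ∈ T.powerset, ∑ S₂ ∈ R.powerset, K (S₁ ∪ S₂) := by
  rw [← Finset.sum_product']
  refine Finset.sum_nbij' (fun S => (S ∩ T, S ∩ R)) (fun p => p.1 ∪ p.2) ?_ ?_ ?_ ?_ ?_
  · intro S hS
    simp only [mem_product, mem_powerset]
    exact ⟨Finset.inter_subset_right, Finset.inter_subset_right⟩
  · intro p hp
    simp only [mem_product, mem_powerset] at hp
    simp only [mem_powerset]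
    exact Finset.union_subset_union hp.1 hp.2
  · intro S hS
    simp only [mem_powerset] at hS
    rw [← Finset.inter_union_distrib_left]
    exact Finset.inter_eq_left.mpr hS
  · intro p hp
    simp only [mem_product, mem_powerset] at hp
    ext x
    · simp only [mem_inter, mem_union]
      constructor
      · rintro ⟨h1 | h1, h2⟩
        · exact h1
        · exact absurd (hp.2 h1) (Finset.disjoint_left.mp hTR h2)
      · intro h; exact ⟨Or.inl h, hp.1 h⟩
    · simp only [mem_inter, mem_union]
      constructor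
      · rintro ⟨h1 | h1, h2⟩
        · exact absurd h2 (Finset.disjoint_left.mp hTR (hp.1 h1))
        · exact h1
      · intro h; exact ⟨Or.inr h, hp.2 h⟩
  · intro S hS
    simp only [mem_powerset] at hS
    rw [← Finset.inter_union_distrib_left, Finset.inter_eq_left.mpr hS]

variable (G : SimpleGraph V) [DecidableRel G.Adj]

/-- The (negative) energy of the Ising model on `D` with external fields `h`. -/
noncomputable def en (β : ℝ) (D : Finset V) (h : V → ℝ) (S : Finset V) : ℝ :=
  ∑ v ∈ D, h v * sp S v +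
    β / 2 * ∑ u ∈ D, ∑ v ∈ D, if G.Adj u v then sp S u * sp S v else 0

/-- Unnormalized Gibbs sum. -/
noncomputable def gs (β : ℝ) (D : Finset V) (h : V → ℝ) (f : Finset V → ℝ) : ℝ :=
  ∑ S ∈ D.powerset, Real.exp (en G β D h S) * f S

/-- Gibbs expectation. -/
noncomputable def gx (β : ℝ) (D : Finset V) (h : V → ℝ) (f : Finset V → ℝ) : ℝ :=
  gs G β D h f / gs G β D h (fun _ => 1)

/-- Magnetization at `v`. -/
noncomputable def mag (β : ℝ) (D : Finset V) (h : V → ℝ) (v : V) : ℝ :=
  gx G β D h (fun S => sp S v)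

/-- Covariance of the spins at `v` and `u`. -/
noncomputable def cov (β : ℝ) (D : Finset V) (h : V → ℝ) (v u : V) : ℝ :=
  gx G β D h (fun S => sp S v * sp S u) - mag G β D h v * mag G β D h u

variable {G} {β : ℝ} {D : Finset V} {h : V → ℝ}

lemma gs_one_pos : 0 < gs G β D h (fun _ => 1) := by
  unfold gs
  apply Finset.sum_pos
  · intro S _; positivity
  · exact ⟨∅, by simp⟩

lemma gs_add (f g : Finset V → ℝ) :
    gs G β D h (fun S => f S + g S) = gs G β D h f + gs G β D h g := by
  unfold gs
  rw [← Finset.sum_add_distrib]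
  exact Finset.sum_congr rfl fun S _ => by ring

lemma gs_mul_left (c : ℝ) (f : Finset V → ℝ) :
    gs G β D h (fun S => c * f S) = c * gs G β D h f := by
  unfold gs
  rw [Finset.mul_sum]
  exact Finset.sum_congr rfl fun S _ => by ring

lemma gs_congr {f g : Finset V → ℝ} (hfg : ∀ S ⊆ D, f S = g S) :
    gs G β D h f = gs G β D h g := by
  unfold gs
  exact Finset.sum_congr rfl fun S hS => by rw [hfg S (mem_powerset.mp hS)]

lemma gs_mono {f g : Finset V → ℝ} (hfg : ∀ S ⊆ D, f S ≤ g S) :
    gs G β D h f ≤ gs G β D h g := by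
  unfold gs
  apply Finset.sum_le_sum
  intro S hS
  have := hfg S (mem_powerset.mp hS)
  gcongr

lemma gx_add (f g : Finset V → ℝ) :
    gx G β D h (fun S => f S + g S) = gx G β D h f + gx G β D h g := by
  unfold gx; rw [gs_add]; ring

lemma gx_mul_left (c : ℝ) (f : Finset V → ℝ) :
    gx G β D h (fun S => c * f S) = c * gx G β D h f := by
  unfold gx; rw [gs_mul_left]; ring

lemma gx_const (c : ℝ) : gx G β D h (fun _ => c) = c := by
  have := gs_mul_left (G := G) (β := β) (D := D) (h := h) c (fun _ => 1)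
  simp only [mul_one] at this
  unfold gx
  rw [this]
  exact mul_div_cancel_right₀ _ gs_one_pos.ne'

lemma gx_congr {f g : Finset V → ℝ} (hfg : ∀ S ⊆ D, f S = g S) :
    gx G β D h f = gx G β D h g := by
  unfold gx; rw [gs_congr hfg]

lemma gx_mono {f g : Finset V → ℝ} (hfg : ∀ S ⊆ D, f S ≤ g S) :
    gx G β D h f ≤ gx G β D h g := by
  unfold gx
  have := gs_mono (G := G) (β := β) (D := D) (h := h) hfg
  have h1 := gs_one_pos (G := G) (β := β) (D := D) (h := h)
  gcongr

lemma gx_sub (f g : Finset V → ℝ) :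
    gx G β D h (fun S => f S - g S) = gx G β D h f - gx G β D h g := by
  have h1 := gx_add (G := G) (β := β) (D := D) (h := h) f (fun S => (-1) * g S)
  rw [gx_mul_left] at h1
  rw [show (fun S => f S - g S) = (fun S => f S + (-1) * g S) by ext S; ring, h1]
  ring

lemma abs_gx_le {f : Finset V → ℝ} {c : ℝ} (hf : ∀ S ⊆ D, |f S| ≤ c) :
    |gx G β D h f| ≤ c := by
  rw [abs_le]
  constructor
  · calc -c = gx G β D h (fun _ => -c) := (gx_const _).symm
      _ ≤ _ := gx_mono fun S hS => (abs_le.mp (hf S hS)).1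
  · calc gx G β D h f ≤ gx G β D h (fun _ => c) := gx_mono fun S hS => (abs_le.mp (hf S hS)).2
      _ = c := gx_const _

lemma abs_mag_le (v : V) : |mag G β D h v| ≤ 1 :=
  abs_gx_le fun S _ => (abs_sp S v).le

lemma mag_of_notMem {v : V} (hv : v ∉ D) : mag G β D h v = -1 := by
  unfold mag
  rw [gx_congr (g := fun _ => -1), gx_const]
  intro S hS
  unfold sp
  rw [if_neg (fun h => hv (hS h))]

lemma cov_self (v : V) : cov G β D h v v = 1 - mag G β D h v ^ 2 := by
  unfold cov
  rw [gx_congr (g := fun _ => 1) (fun S _ => sp_mul_self S v), gx_const]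
  ring

lemma cov_comm (v u : V) : cov G β D h v u = cov G β D h u v := by
  unfold cov
  rw [gx_congr (g := fun S => sp S u * sp S v) (fun S _ => mul_comm _ _)]
  ring

lemma cov_of_notMem_left {v u : V} (hv : v ∉ D) : cov G β D h v u = 0 := by
  unfold cov
  rw [mag_of_notMem hv]
  rw [gx_congr (g := fun S => (-1) * sp S u)]
  · rw [gx_mul_left]; unfold mag; ring
  · intro S hS
    unfold sp
    rw [if_neg (fun h => hv (hS h))]

lemma cov_of_notMem_right {v u : V} (hu : u ∉ D) : cov G β D h v u = 0 := by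
  rw [cov_comm]; exact cov_of_notMem_left hu

/-! ### Changing one external field -/

lemma en_update {u : V} (hu : u ∈ D) (t : ℝ) (S : Finset V) :
    en G β D (Function.update h u (h u + t)) S = en G β D h S + t * sp S u := by
  unfold en
  have : ∑ v ∈ D, Function.update h u (h u + t) v * sp S v = ∑ v ∈ D, h v * sp S v + t * sp S u := by
    rw [← Finset.add_sum_erase _ _ hu, ← Finset.add_sum_erase D (fun v => h v * sp S v) hu]
    rw [Function.update_self]
    have : ∑ x ∈ D.erase u, Function.update h u (h u + t) x * sp S x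
        = ∑ x ∈ D.erase u, h x * sp S x := by
      apply Finset.sum_congr rfl
      intro x hx
      rw [Function.update_of_ne (Finset.ne_of_mem_erase hx)]
    rw [this]; ring
  rw [this]; ring

lemma exp_artanh_mul {t s : ℝ} (ht : |t| < 1) (hs : s = 1 ∨ s = -1) :
    Real.exp (Real.artanh t * s) = (1 + t * s) / √(1 - t ^ 2) := by
  have ht' : t ∈ Set.Ioo (-1 : ℝ) 1 := abs_lt.mp ht
  have hc := Real.cosh_artanh ht'
  have hsn := Real.sinh_artanh ht'
  have h1 : 0 < 1 - t ^ 2 := by
    have := sq_lt_one_iff_abs_lt_one t |>.mpr ht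
    linarith
  have h2 : √(1 - t ^ 2) ≠ 0 := (Real.sqrt_pos.mpr h1).ne'
  rcases hs with rfl | rfl
  · rw [mul_one, ← Real.cosh_add_sinh, hc, hsn]
    field_simp
  · rw [mul_neg_one, ← Real.cosh_sub_sinh, hc, hsn]
    field_simp
    ring

lemma gs_update {u : V} (hu : u ∈ D) {t : ℝ} (ht : |t| < 1) (f : Finset V → ℝ) :
    gs G β D (Function.update h u (h u + Real.artanh t)) f =
      (1 / √(1 - t ^ 2)) * gs G β D h (fun S => f S + t * (f S * sp S u)) := by
  unfold gs
  rw [Finset.mul_sum]
  apply Finset.sum_congr rfl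
  intro S _
  rw [en_update hu, Real.exp_add, exp_artanh_mul ht (sp_eq S u)]
  ring

lemma one_add_mul_mag_pos {u : V} {t : ℝ} (ht : |t| < 1) : 0 < 1 + t * mag G β D h u := by
  have h1 := abs_mag_le (G := G) (β := β) (D := D) (h := h) u
  have : |t * mag G β D h u| < 1 := by
    rw [abs_mul]
    calc |t| * |mag G β D h u| ≤ |t| * 1 := by gcongr
      _ < 1 := by linarith
  have := (abs_lt.mp this).1
  linarith

/-- The Gibbs expectation after a noisy observation of the spin at `u`. -/
lemma gx_update {u : V} (hu : u ∈ D) {t : ℝ} (ht : |t| < 1) (f : Finset V → ℝ) :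
    gx G β D (Function.update h u (h u + Real.artanh t)) f =
      (gx G β D h f + t * gx G β D h (fun S => f S * sp S u)) / (1 + t * mag G β D h u) := by
  have hZ := gs_one_pos (G := G) (β := β) (D := D) (h := h)
  have h1 : 0 < 1 - t ^ 2 := by
    have := sq_lt_one_iff_abs_lt_one t |>.mpr ht
    linarith
  have h2 : √(1 - t ^ 2) ≠ 0 := (Real.sqrt_pos.mpr h1).ne'
  have h3 := (one_add_mul_mag_pos (G := G) (β := β) (D := D) (h := h) (u := u) ht).ne'
  have e1 := gs_update (G := G) (β := β) (D := D) (h := h) hu ht f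
  have e2 := gs_update (G := G) (β := β) (D := D) (h := h) hu ht (fun _ => 1)
  have e3 : gs G β D h (fun S => f S + t * (f S * sp S u)) =
      gs G β D h f + t * gs G β D h (fun S => f S * sp S u) := by
    rw [gs_add, gs_mul_left]
  have e4 : gs G β D h (fun S => 1 + t * (1 * sp S u)) =
      gs G β D h (fun _ => 1) + t * gs G β D h (fun S => sp S u) := by
    rw [gs_add, gs_mul_left]
    simp
  unfold gx mag gx at *
  rw [e1, e2, e3, e4]
  have h4 : gs G β D h (fun _ => 1) + t * gs G β D h (fun S => sp S u) ≠ 0 := by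
    intro h0
    apply h3
    field_simp
    linarith
  field_simp

lemma mag_update {u : V} (hu : u ∈ D) {t : ℝ} (ht : |t| < 1) (v : V) :
    mag G β D (Function.update h u (h u + Real.artanh t)) v =
      mag G β D h v + t * cov G β D h v u / (1 + t * mag G β D h u) := by
  have h3 := (one_add_mul_mag_pos (G := G) (β := β) (D := D) (h := h) (u := u) ht).ne'
  have := gx_update (G := G) (β := β) (D := D) (h := h) hu ht (fun S => sp S v)
  unfold cov
  rw [show mag G β D (Function.update h u (h u + Real.artanh t)) v =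
    gx G β D (Function.update h u (h u + Real.artanh t)) (fun S => sp S v) from rfl, this]
  rw [show gx G β D h (fun S => sp S v) = mag G β D h v from rfl]
  field_simp
  ring

end Vale.Agent.P161
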