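import Vale.Agent.Lib.P161.CylLaw
import Vale.Agent.Lib.P161.Equivar

/-!
Passage to the limit: auxiliary facts.
-/

open Finset MeasureTheory Filter Topology

namespace Vale.Agent.P161

lemma ae_tendsto_zero {Ω : Type*} [MeasurableSpace Ω] {P : Measure Ω} [IsProbabilityMeasure P]
    {f : ℕ → Ω → ℝ} (hm : ∀ j, Measurable (f j)) (h0 : ∀ j ω, 0 ≤ f j ω) {c : ℝ}
    (hb : ∀ j ω, f j ω ≤ c) {C : ℝ} (hC : 0 ≤ C) {j0 : ℕ}
    (hI : ∀ j, j0 ≤ j → ∫ ω, f j ω ∂P ≤ C * (1 / 4) ^ j) :
    ∀ᵐ ω ∂P, Tendsto (fun j => f j ω) atTop (𝓝 0) := by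
  have hint : ∀ j, Integrable (f j) P := fun j => integrable_of_meas_bdd (hm j) (c := c)
    (fun ω => by rw [abs_of_nonneg (h0 j ω)]; exact hb j ω)
  have hl : ∀ j, j0 ≤ j → ∫⁻ ω, ENNReal.ofReal (f j ω) ∂P ≤ ENNReal.ofReal (C * (1 / 4) ^ j) := by
    intro j hj
    rw [← ofReal_integral_eq_lintegral_ofReal (hint j) (Eventually.of_forall (h0 j))]
    exact ENNReal.ofReal_le_ofReal (hI j hj)
  have hsum : ∫⁻ ω, ∑' j, ENNReal.ofReal (f (j + j0) ω) ∂P ≠ ⊤ := by
    rw [lintegral_tsum (fun j => ((hm (j + j0)).ennreal_ofReal).aemeasurable)]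
    have h1 : ∑' j, ∫⁻ ω, ENNReal.ofReal (f (j + j0) ω) ∂P ≤
        ∑' j, ENNReal.ofReal (C * (1 / 4) ^ (j + j0)) :=
      ENNReal.tsum_le_tsum fun j => hl (j + j0) (by omega)
    have hs : Summable fun j : ℕ => C * (1 / 4 : ℝ) ^ (j + j0) := by
      have : Summable fun j : ℕ => (C * (1 / 4 : ℝ) ^ j0) * (1 / 4 : ℝ) ^ j :=
        (summable_geometric_of_lt_one (by norm_num) (by norm_num)).mul_left _
      convert this using 1
      ext j; rw [pow_add]; ring
    have h2 : ∑' j, ENNReal.ofReal (C * (1 / 4) ^ (j + j0)) ≠ ⊤ := by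
      rw [← ENNReal.ofReal_tsum_of_nonneg (fun j => by positivity) hs]
      exact ENNReal.ofReal_ne_top
    exact ne_top_of_le_ne_top h2 h1
  have hmeas : Measurable fun ω => ∑' j, ENNReal.ofReal (f (j + j0) ω) :=
    Measurable.tsum fun j => (hm (j + j0)).ennreal_ofReal
  filter_upwards [ae_lt_top hmeas hsum] with ω hω
  have h3 := ENNReal.tendsto_atTop_zero_of_tsum_ne_top hω.ne
  have h4 : Tendsto (fun j => f (j + j0) ω) atTop (𝓝 0) := by
    have h5 := (ENNReal.tendsto_toReal (ENNReal.zero_ne_top)).comp h3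
    have h6 : (ENNReal.toReal ∘ fun j => ENNReal.ofReal (f (j + j0) ω)) =
        fun j => f (j + j0) ω := by
      ext j
      simp only [Function.comp]
      exact ENNReal.toReal_ofReal (h0 _ _)
    rw [h6] at h5
    simpa using h5
  exact (tendsto_add_atTop_iff_nat j0).mp h4

open Classical in
/-- The limiting sign of a sequence. -/
noncomputable def sgnLim (z : ℕ → ℝ) : ℤˣ := if ∃ N, ∀ j, N ≤ j → 0 < z j then 1 else -1

lemma sgnLim_eq_of_tendsto {z : ℕ → ℝ} {u : ℤˣ} (h : Tendsto z atTop (𝓝 (sv u))) :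
    sgnLim z = u := by
  rcases Int.units_eq_one_or u with rfl | rfl
  · have h1 : sv 1 = 1 := by simp [sv]
    rw [h1] at h
    have h2 : ∀ᶠ j in atTop, 0 < z j := h.eventually (lt_mem_nhds (by norm_num))
    obtain ⟨N, hN⟩ := eventually_atTop.mp h2
    unfold sgnLim
    rw [if_pos ⟨N, fun j hj => hN j hj⟩]
  · have h1 : sv (-1) = -1 := by simp [sv]
    rw [h1] at h
    have h2 : ∀ᶠ j in atTop, z j < 0 := h.eventually (gt_mem_nhds (by norm_num))
    obtain ⟨N, hN⟩ := eventually_atTop.mp h2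
    unfold sgnLim
    rw [if_neg]
    rintro ⟨M, hM⟩
    have a1 := hN (max N M) (le_max_left _ _)
    have a2 := hM (max N M) (le_max_right _ _)
    linarith

lemma tendsto_sgnLim {z : ℕ → ℝ} (hz : ∀ j, |z j| ≤ 1)
    (h1 : Tendsto (fun j => 1 - z j ^ 2) atTop (𝓝 0))
    (h2 : Tendsto (fun j => (z (j + 1) - z j) ^ 2) atTop (𝓝 0)) :
    Tendsto z atTop (𝓝 (sv (sgnLim z))) := by
  have e1 : ∀ᶠ j in atTop, 1 - z j ^ 2 < 1 / 4 := h1.eventually (gt_mem_nhds (by norm_num))
  have e2 : ∀ᶠ j in atTop, (z (j + 1) - z j) ^ 2 < 1 / 4 :=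
    h2.eventually (gt_mem_nhds (by norm_num))
  obtain ⟨N, hN⟩ := eventually_atTop.mp (e1.and e2)
  -- sign is constant from `N` on
  have hbig : ∀ j, N ≤ j → 1 / 2 < |z j| := by
    intro j hj
    have := (hN j hj).1
    by_contra hcon
    push Not at hcon
    have h3 : |z j| ^ 2 ≤ (1 / 2) ^ 2 := by gcongr
    rw [sq_abs] at h3
    linarith
  have hstep : ∀ j, N ≤ j → |z (j + 1) - z j| < 1 / 2 := by
    intro j hj
    have := (hN j hj).2
    rw [← sq_abs] at this
    by_contra hcon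
    push Not at hcon
    have h3 : (1 / 2 : ℝ) ^ 2 ≤ |z (j + 1) - z j| ^ 2 := by gcongr
    linarith
  by_cases hpos : 0 < z N
  · have hall : ∀ j, N ≤ j → 0 < z j := by
      intro j hj
      induction j, hj using Nat.le_induction with
      | base => exact hpos
      | succ j hj ih =>
        have a1 := hbig j hj
        rw [abs_of_pos ih] at a1
        have a2 := (abs_lt.mp (hstep j hj)).1
        linarith
    have hs : sgnLim z = 1 := by
      unfold sgnLim; rw [if_pos ⟨N, hall⟩]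
    rw [hs]
    have h1' : sv 1 = 1 := by simp [sv]
    rw [h1']
    have hlow : ∀ᶠ j in atTop, 1 - (1 - z j ^ 2) ≤ z j := by
      filter_upwards [eventually_ge_atTop N] with j hj
      have a1 := hall j hj
      have a2 := (abs_le.mp (hz j)).2
      nlinarith
    have hup : ∀ᶠ j in atTop, z j ≤ 1 := Eventually.of_forall fun j => (abs_le.mp (hz j)).2
    have hl : Tendsto (fun j => 1 - (1 - z j ^ 2)) atTop (𝓝 1) := by
      simpa using (tendsto_const_nhds (x := (1 : ℝ))).sub h1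
    exact tendsto_of_tendsto_of_tendsto_of_le_of_le' hl tendsto_const_nhds hlow hup
  · have hneg : z N < 0 := by
      rcases lt_or_eq_of_le (not_lt.mp hpos) with h | h
      · exact h
      · have := hbig N le_rfl
        rw [h, abs_zero] at this
        norm_num at this
    have hall : ∀ j, N ≤ j → z j < 0 := by
      intro j hj
      induction j, hj using Nat.le_induction with
      | base => exact hneg
      | succ j hj ih =>
        have a1 := hbig j hj
        rw [abs_of_neg ih] at a1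
        have a2 := (abs_lt.mp (hstep j hj)).2
        linarith
    have hs : sgnLim z = -1 := by
      unfold sgnLim; rw [if_neg]
      rintro ⟨M, hM⟩
      have a1 := hall (max N M) (le_max_left _ _)
      have a2 := hM (max N M) (le_max_right _ _)
      linarith
    rw [hs]
    have h1' : sv (-1) = -1 := by simp [sv]
    rw [h1']
    have hup : ∀ᶠ j in atTop, z j ≤ -1 + (1 - z j ^ 2) := by
      filter_upwards [eventually_ge_atTop N] with j hj
      have a1 := hall j hj
      have a2 := (abs_le.mp (hz j)).1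
      nlinarith
    have hlow : ∀ᶠ j in atTop, -1 ≤ z j := Eventually.of_forall fun j => (abs_le.mp (hz j)).1
    have hl : Tendsto (fun j => -1 + (1 - z j ^ 2)) atTop (𝓝 (-1)) := by
      simpa using (tendsto_const_nhds (x := (-1 : ℝ))).add h1
    exact tendsto_of_tendsto_of_tendsto_of_le_of_le' tendsto_const_nhds hl hlow hup

lemma measurableSet_evPos {Ω : Type*} [MeasurableSpace Ω] {z : ℕ → Ω → ℝ}
    (hz : ∀ j, Measurable (z j)) : MeasurableSet {ω | ∃ N, ∀ j, N ≤ j → 0 < z j ω} := by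
  have : {ω | ∃ N, ∀ j, N ≤ j → 0 < z j ω} = ⋃ N : ℕ, ⋂ j : ℕ, {ω | N ≤ j → 0 < z j ω} := by
    ext ω; simp
  rw [this]
  apply MeasurableSet.iUnion; intro N
  apply MeasurableSet.iInter; intro j
  by_cases h : N ≤ j
  · simp only [h, true_imp_iff]
    exact measurableSet_lt measurable_const (hz j)
  · simp [h]

lemma measurable_sgnLim {Ω : Type*} [MeasurableSpace Ω] {z : ℕ → Ω → ℝ}
    (hz : ∀ j, Measurable (z j)) : Measurable fun ω => sgnLim (fun j => z j ω) := by
  classical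
  unfold sgnLim
  exact Measurable.ite (measurableSet_evPos hz) measurable_const measurable_const

lemma measurableSet_singleton_units (u : ℤˣ) : MeasurableSet ({u} : Set ℤˣ) := by
  have : ({u} : Set ℤˣ) = (fun w : ℤˣ => (w : ℤ)) ⁻¹' {(u : ℤ)} := by
    ext w; simp [Units.ext_iff]
  rw [this]
  exact ⟨{(u : ℤ)}, MeasurableSet.singleton _, rfl⟩

section Cyl

variable {V : Type*} [DecidableEq V] {G : SimpleGraph V} [DecidableRel G.Adj]
variable {β : ℝ} {D : Finset V} {h : V → ℝ}

lemma abs_prod_sub_le {ι : Type*} (s : Finset ι) {f g : ι → ℝ}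
    (hf0 : ∀ i ∈ s, 0 ≤ f i) (hf : ∀ i ∈ s, f i ≤ 1) (hg0 : ∀ i ∈ s, 0 ≤ g i)
    (hg : ∀ i ∈ s, g i ≤ 1) :
    |∏ i ∈ s, f i - ∏ i ∈ s, g i| ≤ ∑ i ∈ s, |f i - g i| := by
  classical
  induction s using Finset.induction_on with
  | empty => simp
  | insert x s hx ih =>
    have ih' := ih (fun i hi => hf0 i (mem_insert_of_mem hi)) (fun i hi => hf i (mem_insert_of_mem hi))
      (fun i hi => hg0 i (mem_insert_of_mem hi)) (fun i hi => hg i (mem_insert_of_mem hi))
    rw [prod_insert hx, prod_insert hx, sum_insert hx]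
    have e : f x * ∏ i ∈ s, f i - g x * ∏ i ∈ s, g i =
        (f x - g x) * ∏ i ∈ s, f i + g x * (∏ i ∈ s, f i - ∏ i ∈ s, g i) := by ring
    have p0 : 0 ≤ ∏ i ∈ s, f i := Finset.prod_nonneg fun i hi => hf0 i (mem_insert_of_mem hi)
    have p1 : ∏ i ∈ s, f i ≤ 1 := Finset.prod_le_one
      (fun i hi => hf0 i (mem_insert_of_mem hi)) (fun i hi => hf i (mem_insert_of_mem hi))
    have g0 := hg0 x (mem_insert_self _ _)
    have g1 := hg x (mem_insert_self _ _)
    rw [e]
    calc _ ≤ |(f x - g x) * ∏ i ∈ s, f i| + |g x * (∏ i ∈ s, f i - ∏ i ∈ s, g i)| :=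
          abs_add_le _ _
      _ = |f x - g x| * ∏ i ∈ s, f i + g x * |∏ i ∈ s, f i - ∏ i ∈ s, g i| := by
          rw [abs_mul, abs_mul, abs_of_nonneg p0, abs_of_nonneg g0]
      _ ≤ |f x - g x| * 1 + 1 * ∑ i ∈ s, |f i - g i| := by
          gcongr
      _ = _ := by ring

/-- The cylinder indicator evaluated at a spin configuration. -/
noncomputable def cylP (D₀ : Finset V) (η σ : V → ℤˣ) : ℝ :=
  ∏ v ∈ D₀, (1 + sv (η v) * sv (σ v)) / 2

omit [DecidableEq V] in
lemma cylP_eq (D₀ : Finset V) (η σ : V → ℤˣ) [Decidable (∀ v ∈ D₀, σ v = η v)] :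
    cylP D₀ η σ = if ∀ v ∈ D₀, σ v = η v then 1 else 0 := by
  unfold cylP
  split_ifs with hcond
  · apply Finset.prod_eq_one
    intro v hv
    rw [hcond v hv, sv_mul_self]
    norm_num
  · push Not at hcond
    obtain ⟨v, hv, hne⟩ := hcond
    apply Finset.prod_eq_zero hv
    have : sv (η v) * sv (σ v) = -1 := by
      rcases Int.units_eq_one_or (η v) with h1 | h1 <;>
        rcases Int.units_eq_one_or (σ v) with h2 | h2
      · exact absurd (h2.trans h1.symm) hne
      · rw [h1, h2]; simp [sv]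
      · rw [h1, h2]; simp [sv]
      · exact absurd (h2.trans h1.symm) hne
    rw [this]; norm_num

lemma cyl_sub_le (D₀ : Finset V) (η σ : V → ℤˣ) (S : Finset V) :
    |cyl D₀ (fun v => sv (η v)) S - cylP D₀ η σ| ≤ ∑ v ∈ D₀, (1 - sv (σ v) * sp S v) / 2 := by
  unfold cyl cylP
  have key : ∀ v ∈ D₀, |(1 + sv (η v) * sp S v) / 2 - (1 + sv (η v) * sv (σ v)) / 2| =
      (1 - sv (σ v) * sp S v) / 2 := by
    intro v _
    rcases sv_eq (η v) with h1 | h1 <;> rcases sv_eq (σ v) with h2 | h2 <;>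
      rcases sp_eq S v with h3 | h3 <;> rw [h1, h2, h3] <;> norm_num
  rw [← Finset.sum_congr rfl key]
  apply abs_prod_sub_le
  · intro v _
    beta_reduce
    rcases sv_eq (η v) with h1 | h1 <;> rcases sp_eq S v with h3 | h3 <;> rw [h1, h3] <;> norm_num
  · intro v _
    beta_reduce
    rcases sv_eq (η v) with h1 | h1 <;> rcases sp_eq S v with h3 | h3 <;> rw [h1, h3] <;> norm_num
  · intro v _
    rcases sv_eq (η v) with h1 | h1 <;> rcases sv_eq (σ v) with h3 | h3 <;> rw [h1, h3] <;> norm_num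
  · intro v _
    rcases sv_eq (η v) with h1 | h1 <;> rcases sv_eq (σ v) with h3 | h3 <;> rw [h1, h3] <;> norm_num

lemma gx_sum (s : Finset V) (f : V → Finset V → ℝ) :
    gx G β D h (fun S => ∑ v ∈ s, f v S) = ∑ v ∈ s, gx G β D h (f v) := by
  classical
  induction s using Finset.induction_on with
  | empty =>
    simp only [sum_empty]
    exact gx_const 0
  | insert x s hx ih =>
    simp only [sum_insert hx]
    rw [gx_add, ih]

lemma abs_gx_cyl_sub_le (D₀ : Finset V) (η σ : V → ℤˣ) :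
    |gx G β D h (cyl D₀ (fun v => sv (η v))) - cylP D₀ η σ| ≤
      ∑ v ∈ D₀, (1 - sv (σ v) * mag G β D h v) / 2 := by
  have e1 : gx G β D h (cyl D₀ (fun v => sv (η v))) - cylP D₀ η σ =
      gx G β D h (fun S => cyl D₀ (fun v => sv (η v)) S - cylP D₀ η σ) := by
    rw [gx_sub, gx_const]
  have e2 : ∑ v ∈ D₀, (1 - sv (σ v) * mag G β D h v) / 2 =
      gx G β D h (fun S => ∑ v ∈ D₀, (1 - sv (σ v) * sp S v) / 2) := by
    rw [gx_sum]
    apply Finset.sum_congr rfl
    intro v _
    have : gx G β D h (fun S => (1 - sv (σ v) * sp S v) / 2) =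
        gx G β D h (fun S => 1 / 2 + (-(sv (σ v)) / 2) * sp S v) := by
      apply gx_congr; intro S _; ring
    rw [this, gx_add, gx_const, gx_mul_left]
    unfold mag
    ring
  rw [e1, e2, abs_le]
  constructor
  · have : -gx G β D h (fun S => ∑ v ∈ D₀, (1 - sv (σ v) * sp S v) / 2) =
        gx G β D h (fun S => (-1) * ∑ v ∈ D₀, (1 - sv (σ v) * sp S v) / 2) := by
      rw [gx_mul_left]; ring
    rw [this]
    apply gx_mono
    intro S _
    have := (abs_le.mp (cyl_sub_le D₀ η σ S)).1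
    linarith
  · apply gx_mono
    intro S _
    exact (abs_le.mp (cyl_sub_le D₀ η σ S)).2

lemma abs_cyl_le (D₀ : Finset V) (η : V → ℤˣ) (S : Finset V) :
    |cyl D₀ (fun v => sv (η v)) S| ≤ 1 := by
  unfold cyl
  rw [Finset.abs_prod]
  apply Finset.prod_le_one
  · intro v _; exact abs_nonneg _
  · intro v _
    beta_reduce
    rcases sv_eq (η v) with h1 | h1 <;> rcases sp_eq S v with h3 | h3 <;> rw [h1, h3] <;> norm_num

end Cyl

end Vale.Agent.P161
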