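import Vale.Agent.Lib.P161.Limit

/-!
Construction of the free Ising measure as a factor of i.i.d.
-/

open Finset MeasureTheory Filter Topology

namespace Vale.Agent.P161

variable {V : Type*} [DecidableEq V] {G : SimpleGraph V} [DecidableRel G.Adj] [G.LocallyFinite]

/-- Numbers of rounds and radii growing fast enough. -/
structure Sched (a rho : ℝ) (R n : ℕ → ℕ) : Prop where
  hR : Monotone R
  hn : Monotone n
  hjn : ∀ j, j ≤ n j
  hR' : ∀ j, 1 / (1 + a ^ 2 / 6 * (R j : ℝ)) ≤ (1 / 4) ^ j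
  hn' : ∀ j, 4 * 2 ^ (R j) * rho ^ (n j) ≤ (1 / 4) ^ j

lemma exists_sched {a rho : ℝ} (ha : 0 < a) (hr0 : 0 < rho) (hr1 : rho < 1) :
    ∃ R n : ℕ → ℕ, Sched a rho R n := by
  obtain ⟨N, hN⟩ := exists_nat_ge (6 / a ^ 2)
  set R : ℕ → ℕ := fun j => N * 4 ^ j with hRdef
  have hex : ∀ j, ∃ m : ℕ, 4 * 2 ^ (R j) * rho ^ m ≤ (1 / 4) ^ j := by
    intro j
    have hpos : (0 : ℝ) < (1 / 4) ^ j / (4 * 2 ^ (R j)) := by positivity
    obtain ⟨m, hm⟩ := exists_pow_lt_of_lt_one hpos hr1
    refine ⟨m, ?_⟩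
    have h4 : (0 : ℝ) < 4 * 2 ^ (R j) := by positivity
    rw [lt_div_iff₀ h4] at hm
    linarith
  choose m hm using hex
  refine ⟨R, fun j => ∑ i ∈ range (j + 1), (m i + 1), ?_, ?_, ?_, ?_, ?_⟩
  · intro i j hij
    simp only [hRdef]
    exact Nat.mul_le_mul_left _ (Nat.pow_le_pow_right (by norm_num) hij)
  · intro i j hij
    apply Finset.sum_le_sum_of_subset
    intro x hx
    rw [mem_range] at hx ⊢
    omega
  · intro j
    calc j ≤ j + 1 := Nat.le_succ j
      _ = ∑ i ∈ range (j + 1), 1 := by simp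
      _ ≤ _ := Finset.sum_le_sum fun i _ => by omega
  · intro j
    have h1 : (4 : ℝ) ^ j ≤ 1 + a ^ 2 / 6 * (R j : ℝ) := by
      have h2 : (R j : ℝ) = N * 4 ^ j := by simp [hRdef]
      rw [h2]
      have h3 : 1 ≤ a ^ 2 / 6 * N := by
        have h4 : 6 / a ^ 2 ≤ N := hN
        rw [div_le_iff₀ (by positivity)] at h4
        nlinarith
      have h5 : (0 : ℝ) ≤ 4 ^ j := by positivity
      nlinarith
    rw [one_div_pow]
    exact one_div_le_one_div_of_le (by positivity) h1
  · intro j
    have h1 : m j ≤ ∑ i ∈ range (j + 1), (m i + 1) := by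
      calc m j ≤ m j + 1 := Nat.le_succ _
        _ ≤ _ := Finset.single_le_sum (f := fun i => m i + 1) (fun i _ => Nat.zero_le _)
            (mem_range.mpr (Nat.lt_succ_self j))
    calc 4 * 2 ^ (R j) * rho ^ (∑ i ∈ range (j + 1), (m i + 1)) ≤ 4 * 2 ^ (R j) * rho ^ (m j) := by
          gcongr ?_ * ?_
          exact pow_le_pow_of_le_one hr0.le hr1.le h1
      _ ≤ _ := hm j

variable (G) in
/-- The approximating magnetizations. -/
noncomputable def zz (β a : ℝ) (o : V) (R n : ℕ → ℕ) (v : V) (j : ℕ)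
    (ω : V × ℕ → unitInterval) : ℝ :=
  mag G β (bal G o (n j)) (xr G β a (bal G o (n j)) (R j) ω) v

variable {d : ℕ} {β lam rho eps c1 a : ℝ} {R n : ℕ → ℕ}

lemma measurable_zz (β a : ℝ) (o : V) (R n : ℕ → ℕ) (v : V) (j : ℕ) :
    Measurable (zz G β a o R n v j) := by
  have h := (measurable_mag (G := G) β (bal G o (n j)) v).comp
    (measurable_xr (G := G) β a (bal G o (n j)) (R j))
  exact h

lemma abs_zz_le (β a : ℝ) (o : V) (R n : ℕ → ℕ) (v : V) (j : ℕ) (ω : V × ℕ → unitInterval) :
    |zz G β a o R n v j ω| ≤ 1 := abs_mag_le v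

/-- Comparison of the approximation with the process in another volume. -/
lemma compare_vol [Countable V] (hG : G.IsTree) (hreg : G.IsRegularOfDegree d)
    (hβ : 0 ≤ β) (hp : Par d (Real.tanh β) lam rho eps c1 a) (hs : Sched a rho R n)
    (o : V) (v : V) (j k : ℕ) (D' : Finset V)
    (hD' : ∀ x, k + G.dist o x ≤ n j → x ∈ D') (hkj : k + G.dist o v ≤ n j) :
    ∫ ω, (zz G β a o R n v j ω - mag G β D' (xr G β a D' (R j) ω) v) ^ 2 ∂iidLaw (V × ℕ) ≤
      (1 / rho ^ (k + G.dist o v)) * (1 / 4) ^ j := by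
  have hrho0 := hp.hrho0
  set δ : V → ℕ := fun x => n j + 1 - (k + G.dist o x) with hδdef
  have hδ : ∀ x y, G.Adj x y → δ x ≤ δ y + 1 := by
    intro x y hxy
    simp only [hδdef]
    have h1 := hG.connected.dist_triangle (u := o) (v := x) (w := y)
    rw [SimpleGraph.dist_eq_one_iff_adj.mpr hxy] at h1
    omega
  have hδ0 : ∀ x, x ∉ bal G o (n j) ∨ x ∉ D' → δ x = 0 := by
    intro x hx
    simp only [hδdef]
    rcases hx with hx | hx
    · rw [mem_bal hG.connected] at hx
      omega
    · have : ¬ (k + G.dist o x ≤ n j) := fun h => hx (hD' x h)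
      omega
  have h := xr_bound (D := bal G o (n j)) (D' := D') hG hreg hβ hp hδ hδ0 (R j) v
  refine h.trans ?_
  have h2 : rho ^ δ v ≤ (1 / rho ^ (k + G.dist o v)) * rho ^ (n j) := by
    rw [one_div, inv_mul_eq_div, le_div_iff₀ (by positivity), ← pow_add]
    apply pow_le_pow_of_le_one hrho0.le hp.hrho1.le
    simp only [hδdef]
    omega
  calc 4 * 2 ^ (R j) * rho ^ δ v ≤ 4 * 2 ^ (R j) * ((1 / rho ^ (k + G.dist o v)) * rho ^ (n j)) := by
        gcongr
    _ = (1 / rho ^ (k + G.dist o v)) * (4 * 2 ^ (R j) * rho ^ (n j)) := by ring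
    _ ≤ _ := by
        gcongr
        exact hs.hn' j

lemma zz_tendsto [Countable V] (hG : G.IsTree) (hreg : G.IsRegularOfDegree d)
    (hβ : 0 ≤ β) (hp : Par d (Real.tanh β) lam rho eps c1 a) (hs : Sched a rho R n)
    (o : V) (v : V) :
    ∀ᵐ ω ∂iidLaw (V × ℕ), Tendsto (fun j => zz G β a o R n v j ω) atTop
      (𝓝 (sv (sgnLim (fun j => zz G β a o R n v j ω)))) := by
  have ha0 := hp.ha0.le
  have ha := hp.ha
  have hrho0 := hp.hrho0
  have hzm := measurable_zz (G := G) β a o R n v
  have hzb := abs_zz_le (G := G) β a o R n v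
  -- polarization
  have hpol : ∀ᵐ ω ∂iidLaw (V × ℕ),
      Tendsto (fun j => 1 - zz G β a o R n v j ω ^ 2) atTop (𝓝 0) := by
    apply ae_tendsto_zero (c := 1) (C := 1) (j0 := G.dist o v)
    · intro j; exact ((hzm j).pow_const 2).const_sub 1
    · intro j ω
      have := sq_le_one_of_abs (hzb j ω)
      linarith
    · intro j ω
      have := sq_nonneg (zz G β a o R n v j ω)
      linarith
    · norm_num
    · intro j hj
      have hv : v ∈ bal G o (n j) := by
        rw [mem_bal hG.connected]; exact hj.trans (hs.hjn j)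
      have h1 := xr_polar (G := G) (β := β) (D := bal G o (n j)) ha0 ha hv (R j)
      rw [one_mul]
      exact h1.trans (hs.hR' j)
  -- increments
  have hinc : ∀ᵐ ω ∂iidLaw (V × ℕ),
      Tendsto (fun j => (zz G β a o R n v (j + 1) ω - zz G β a o R n v j ω) ^ 2) atTop (𝓝 0) := by
    apply ae_tendsto_zero (c := 4) (C := 2 + 2 * (1 / rho ^ (0 + G.dist o v))) (j0 := G.dist o v)
    · intro j; exact ((hzm (j + 1)).sub (hzm j)).pow_const 2
    · intro j ω; exact sq_nonneg _
    · intro j ω
      exact (le_abs_self _).trans (mag_sub_sq_le v)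
    · positivity
    · intro j hj
      have hvn : G.dist o v ≤ n j := hj.trans (hs.hjn j)
      have hv1 : v ∈ bal G o (n (j + 1)) := by
        rw [mem_bal hG.connected]
        exact hvn.trans (hs.hn (Nat.le_succ j))
      have h1 := xr_cauchy (G := G) (β := β) (D := bal G o (n (j + 1))) ha0 ha hv1
        (hs.hR (Nat.le_succ j))
      have h2 := compare_vol hG hreg hβ hp hs o v j 0 (bal G o (n (j + 1)))
        (fun x hx => by
          rw [mem_bal hG.connected]
          have := hs.hn (Nat.le_succ j)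
          simp only [Nat.succ_eq_add_one] at this
          omega) (by omega)
      have hwm : Measurable fun ω => mag G β (bal G o (n (j + 1)))
          (xr G β a (bal G o (n (j + 1))) (R j) ω) v := by
        have h := (measurable_mag (G := G) β (bal G o (n (j + 1))) v).comp
          (measurable_xr (G := G) β a (bal G o (n (j + 1))) (R j))
        exact h
      set W := fun ω => mag G β (bal G o (n (j + 1)))
          (xr G β a (bal G o (n (j + 1))) (R j) ω) v with hW
      have i1 : Integrable (fun ω => (zz G β a o R n v (j + 1) ω - W ω) ^ 2)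
          (iidLaw (V × ℕ)) :=
        integrable_of_meas_bdd (c := 4) (((hzm (j + 1)).sub hwm).pow_const 2)
          (fun ω => mag_sub_sq_le v)
      have i2 : Integrable (fun ω => (zz G β a o R n v j ω - W ω) ^ 2)
          (iidLaw (V × ℕ)) :=
        integrable_of_meas_bdd (c := 4) (((hzm j).sub hwm).pow_const 2)
          (fun ω => mag_sub_sq_le v)
      have i3 : Integrable (fun ω => (zz G β a o R n v (j + 1) ω - zz G β a o R n v j ω) ^ 2)
          (iidLaw (V × ℕ)) :=
        integrable_of_meas_bdd (c := 4) (((hzm (j + 1)).sub (hzm j)).pow_const 2)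
          (fun ω => mag_sub_sq_le v)
      have h3 : ∫ ω, (zz G β a o R n v (j + 1) ω - zz G β a o R n v j ω) ^ 2 ∂iidLaw (V × ℕ) ≤
          2 * ∫ ω, (zz G β a o R n v (j + 1) ω - W ω) ^ 2 ∂iidLaw (V × ℕ) +
          2 * ∫ ω, (zz G β a o R n v j ω - W ω) ^ 2 ∂iidLaw (V × ℕ) := by
        rw [← integral_const_mul, ← integral_const_mul,
          ← integral_add (i1.const_mul 2) (i2.const_mul 2)]
        apply integral_mono i3 ((i1.const_mul 2).add (i2.const_mul 2))
        intro ω
        show (zz G β a o R n v (j + 1) ω - zz G β a o R n v j ω) ^ 2 ≤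
          2 * (zz G β a o R n v (j + 1) ω - W ω) ^ 2 + 2 * (zz G β a o R n v j ω - W ω) ^ 2
        nlinarith [sq_nonneg ((zz G β a o R n v (j + 1) ω - W ω) +
          (zz G β a o R n v j ω - W ω))]
      have h1' : ∫ ω, (zz G β a o R n v (j + 1) ω - W ω) ^ 2 ∂iidLaw (V × ℕ) ≤ (1 / 4) ^ j :=
        h1.trans (hs.hR' j)
      calc _ ≤ _ := h3
        _ ≤ 2 * (1 / 4) ^ j + 2 * ((1 / rho ^ (0 + G.dist o v)) * (1 / 4) ^ j) := by
            gcongr
        _ = _ := by ring
  filter_upwards [hpol, hinc] with ω h1 h2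
  exact tendsto_sgnLim (fun j => hzb j ω) h1 h2

variable (G) in
/-- The factor map on the big label space. -/
noncomputable def bigF (β a : ℝ) (o : V) (R n : ℕ → ℕ) (ω : V × ℕ → unitInterval) : V → ℤˣ :=
  fun v => sgnLim (fun j => zz G β a o R n v j ω)

lemma measurable_bigF (β a : ℝ) (o : V) (R n : ℕ → ℕ) : Measurable (bigF G β a o R n) := by
  rw [measurable_pi_iff]
  intro v
  exact measurable_sgnLim (fun j => measurable_zz β a o R n v j)

lemma bigF_equivariant [Countable V] (hG : G.IsTree) (hreg : G.IsRegularOfDegree d)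
    (hβ : 0 ≤ β) (hp : Par d (Real.tanh β) lam rho eps c1 a) (hs : Sched a rho R n)
    (o : V) (e : G ≃g G) :
    ∀ᵐ ω ∂iidLaw (V × ℕ), ∀ v, bigF G β a o R n (shiftL e ω) v = bigF G β a o R n ω (e v) := by
  rw [ae_all_iff]
  intro v
  have h1 := zz_tendsto hG hreg hβ hp hs o (e v)
  have hrho0 := hp.hrho0
  set k := G.dist o (e o) with hk
  -- the process started from the shifted labels
  have heq : ∀ j ω, zz G β a o R n v j (shiftL e ω) =
      mag G β ((bal G o (n j)).map e.toEquiv.toEmbedding)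
        (xr G β a ((bal G o (n j)).map e.toEquiv.toEmbedding) (R j) ω) (e v) := by
    intro j ω
    exact mag_xr_map e β a (bal G o (n j)) (R j) ω v
  have hdist : ∀ x y, G.dist (e x) (e y) = G.dist x y := by
    intro x y
    apply le_antisymm
    · obtain ⟨p, hp⟩ := hG.connected.exists_walk_length_eq_dist x y
      rw [← hp, ← SimpleGraph.Walk.length_map e.toHom p]
      exact SimpleGraph.dist_le (p.map e.toHom)
    · obtain ⟨p, hp⟩ := hG.connected.exists_walk_length_eq_dist (e x) (e y)
      have h2 : G.dist (e.symm (e x)) (e.symm (e y)) ≤ G.dist (e x) (e y) := by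
        rw [← hp, ← SimpleGraph.Walk.length_map e.symm.toHom p]
        exact SimpleGraph.dist_le (p.map e.symm.toHom)
      rwa [e.symm_apply_apply, e.symm_apply_apply] at h2
  have hsub : ∀ j x, k + G.dist o x ≤ n j → x ∈ (bal G o (n j)).map e.toEquiv.toEmbedding := by
    intro j x hx
    rw [Finset.mem_map_equiv, mem_bal hG.connected]
    have h2 : G.dist o (e.toEquiv.symm x) = G.dist (e o) x := by
      rw [← hdist o (e.toEquiv.symm x)]
      have : e (e.toEquiv.symm x) = x := e.toEquiv.apply_symm_apply x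
      rw [this]
    rw [h2]
    have h3 := hG.connected.dist_triangle (u := e o) (v := o) (w := x)
    rw [G.dist_comm (u := e o) (v := o)] at h3
    omega
  have hdiff : ∀ᵐ ω ∂iidLaw (V × ℕ),
      Tendsto (fun j => (zz G β a o R n (e v) j ω - zz G β a o R n v j (shiftL e ω)) ^ 2)
        atTop (𝓝 0) := by
    simp only [heq]
    apply ae_tendsto_zero (c := 4) (C := 1 / rho ^ (k + G.dist o (e v)))
      (j0 := k + G.dist o (e v))
    · intro j
      have h := (measurable_mag (G := G) β ((bal G o (n j)).map e.toEquiv.toEmbedding) (e v)).comp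
          (measurable_xr (G := G) β a ((bal G o (n j)).map e.toEquiv.toEmbedding) (R j))
      exact ((measurable_zz β a o R n (e v) j).sub h).pow_const 2
    · intro j ω; exact sq_nonneg _
    · intro j ω; exact (le_abs_self _).trans (mag_sub_sq_le (e v))
    · positivity
    · intro j hj
      exact compare_vol hG hreg hβ hp hs o (e v) j k _ (hsub j) (hj.trans (hs.hjn j))
  filter_upwards [h1, hdiff] with ω hω1 hω2
  apply sgnLim_eq_of_tendsto
  have h3 : Tendsto (fun j => |zz G β a o R n (e v) j ω - zz G β a o R n v j (shiftL e ω)|)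
      atTop (𝓝 0) := by
    have h4 := hω2.sqrt
    rw [Real.sqrt_zero] at h4
    refine h4.congr (fun j => ?_)
    exact Real.sqrt_sq_eq_abs _
  have h5 := (tendsto_zero_iff_abs_tendsto_zero _).mpr h3
  have h6 := hω1.sub h5
  rw [sub_zero] at h6
  refine h6.congr (fun j => ?_)
  ring

lemma bigF_law [Countable V] (hG : G.IsTree) (hreg : G.IsRegularOfDegree d)
    (hβ : 0 ≤ β) (hp : Par d (Real.tanh β) lam rho eps c1 a) (hs : Sched a rho R n)
    (o : V) (D₀ : Finset V) (hD₀ : (G.induce (D₀ : Set V)).Connected) (η : V → ℤˣ) :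
    iidLaw (V × ℕ) {ω | ∀ v ∈ D₀, bigF G β a o R n ω v = η v} =
      ENNReal.ofReal (1 / 2 * ∏ e ∈ edgesIn G D₀,
        (1 + Real.tanh β * (((e.map η).mul : ℤˣ) : ℤ)) / 2) := by
  classical
  have ha0 := hp.ha0.le
  have ha := hp.ha
  set μ := 1 / 2 * ∏ e ∈ edgesIn G D₀,
        (1 + Real.tanh β * (((e.map η).mul : ℤˣ) : ℤ)) / 2 with hμ
  set A := {ω | ∀ v ∈ D₀, bigF G β a o R n ω v = η v} with hA
  have hAm : MeasurableSet A := by
    have : A = ⋂ v ∈ D₀, (fun ω => bigF G β a o R n ω v) ⁻¹' {η v} := by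
      ext ω; simp [hA]
    rw [this]
    apply Finset.measurableSet_biInter
    intro v _
    exact (measurable_pi_iff.mp (measurable_bigF β a o R n) v) (measurableSet_singleton_units _)
  -- root of `D₀`
  obtain ⟨⟨r, hr⟩⟩ := hD₀.nonempty
  have hr' : r ∈ D₀ := hr
  have hcl := closedTo_of_connected hG hD₀ hr'
  have hcard : D₀.card = (D₀.card - 1) + 1 := by
    have : 0 < D₀.card := Finset.card_pos.mpr ⟨r, hr'⟩
    omega
  set F : ℕ → (V × ℕ → unitInterval) → ℝ := fun j ω =>
    gx G β (bal G o (n j)) (xr G β a (bal G o (n j)) (R j) ω) (cyl D₀ (fun v => sv (η v))) with hF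
  have hFm : ∀ j, Measurable (F j) := by
    intro j
    have h := (measurable_gx (G := G) β (bal G o (n j)) (cyl D₀ (fun v => sv (η v)))).comp
      (measurable_xr (G := G) β a (bal G o (n j)) (R j))
    exact h
  have hFb : ∀ j ω, |F j ω| ≤ 1 := fun j ω => abs_gx_le fun S _ => abs_cyl_le D₀ η S
  -- expectations are eventually equal to `μ`
  obtain ⟨J, hJ⟩ : ∃ J, ∀ j, J ≤ j → D₀ ⊆ bal G o (n j) := by
    refine ⟨D₀.sup (fun x => G.dist o x), fun j hj x hx => ?_⟩
    rw [mem_bal hG.connected]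
    have h1 : G.dist o x ≤ D₀.sup (fun x => G.dist o x) :=
      Finset.le_sup (f := fun x => G.dist o x) hx
    exact (h1.trans hj).trans (hs.hjn j)
  have hFi : ∀ j, J ≤ j → ∫ ω, F j ω ∂iidLaw (V × ℕ) = μ := by
    intro j hj
    have h1 := xr_gx (G := G) (β := β) (D := bal G o (n j)) ha0 ha
      (cyl D₀ (fun v => sv (η v))) (R j)
    rw [hF]
    rw [h1]
    exact cyl_law hG β η r (D₀.card - 1) D₀ hcard (hJ j hj) hcl
  -- almost sure convergence
  have hz : ∀ᵐ ω ∂iidLaw (V × ℕ), ∀ v, Tendsto (fun j => zz G β a o R n v j ω) atTop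
      (𝓝 (sv (bigF G β a o R n ω v))) := by
    rw [ae_all_iff]
    intro v
    exact zz_tendsto hG hreg hβ hp hs o v
  have hconv : ∀ᵐ ω ∂iidLaw (V × ℕ), Tendsto (fun j => F j ω) atTop
      (𝓝 (A.indicator (fun _ => (1 : ℝ)) ω)) := by
    filter_upwards [hz] with ω hω
    have hind : A.indicator (fun _ => (1 : ℝ)) ω = cylP D₀ η (bigF G β a o R n ω) := by
      rw [cylP_eq]
      by_cases h : ∀ v ∈ D₀, bigF G β a o R n ω v = η v
      · rw [if_pos h]
        exact Set.indicator_of_mem (s := A) h _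
      · rw [if_neg h]
        exact Set.indicator_of_notMem (s := A) h _
    rw [hind]
    have hbound : ∀ j, |F j ω - cylP D₀ η (bigF G β a o R n ω)| ≤
        ∑ v ∈ D₀, (1 - sv (bigF G β a o R n ω v) * zz G β a o R n v j ω) / 2 :=
      fun j => abs_gx_cyl_sub_le D₀ η (bigF G β a o R n ω)
    have hlim : Tendsto (fun j => ∑ v ∈ D₀,
        (1 - sv (bigF G β a o R n ω v) * zz G β a o R n v j ω) / 2) atTop (𝓝 0) := by
      have h0 : (0 : ℝ) = ∑ v ∈ D₀, (0 : ℝ) := by simp
      rw [h0]
      apply tendsto_finsetSum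
      intro v _
      have h1 := ((tendsto_const_nhds (x := (1 : ℝ))).sub
        ((hω v).const_mul (sv (bigF G β a o R n ω v)))).div_const 2
      rw [sv_mul_self, sub_self, zero_div] at h1
      exact h1
    rw [tendsto_iff_norm_sub_tendsto_zero]
    exact squeeze_zero (fun j => norm_nonneg _) hbound hlim
  have hlimI : Tendsto (fun j => ∫ ω, F j ω ∂iidLaw (V × ℕ)) atTop
      (𝓝 (∫ ω, A.indicator (fun _ => (1 : ℝ)) ω ∂iidLaw (V × ℕ))) := by
    apply tendsto_integral_of_dominated_convergence (fun _ => (1 : ℝ))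
    · intro j; exact (hFm j).aestronglyMeasurable
    · exact integrable_const _
    · intro j; exact Eventually.of_forall fun ω => hFb j ω
    · exact hconv
  have hlimI' : Tendsto (fun j => ∫ ω, F j ω ∂iidLaw (V × ℕ)) atTop (𝓝 μ) := by
    apply tendsto_const_nhds.congr'
    filter_upwards [eventually_ge_atTop J] with j hj
    exact (hFi j hj).symm
  have hfin := tendsto_nhds_unique hlimI hlimI'
  rw [integral_indicator hAm, setIntegral_const, smul_eq_mul, mul_one] at hfin
  rw [← hfin]
  exact (ofReal_measureReal (measure_ne_top _ _)).symm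

end Vale.Agent.P161
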