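import Mathlib

/-!
Resampling lemmas for infinite products of uniform variables.
-/

open MeasureTheory Set

namespace Vale.Agent.P161

/-- The law of i.i.d. uniform labels indexed by `ι`. -/
noncomputable def iidLaw (ι : Type*) : Measure (ι → unitInterval) :=
  Measure.infinitePi fun _ : ι => (volume : Measure unitInterval)

instance (ι : Type*) : IsProbabilityMeasure (iidLaw ι) := by
  unfold iidLaw; infer_instance

variable {ι : Type*}

open Classical in
/-- Take coordinates in `A` from the first point and the others from the second. -/
noncomputable def merge {α : Type*} (A : Set ι) (p : (ι → α) × (ι → α)) : ι → α :=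
  fun i => if i ∈ A then p.1 i else p.2 i

lemma measurable_merge {α : Type*} [MeasurableSpace α] (A : Set ι) :
    Measurable (merge (α := α) A) := by
  rw [measurable_pi_iff]
  intro i
  unfold merge
  by_cases hi : i ∈ A
  · simp only [if_pos hi]; fun_prop
  · simp only [if_neg hi]; fun_prop

lemma measurePreserving_merge (A : Set ι) :
    MeasurePreserving (merge A) ((iidLaw ι).prod (iidLaw ι)) (iidLaw ι) := by
  classical
  refine ⟨measurable_merge A, ?_⟩
  unfold iidLaw
  apply Measure.eq_infinitePi
  intro s t ht
  have hbox : MeasurableSet (Set.pi (s : Set ι) t) :=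
    MeasurableSet.pi s.countable_toSet (fun i _ => ht i)
  rw [Measure.map_apply (measurable_merge A) hbox]
  have hpre : merge A ⁻¹' (Set.pi (s : Set ι) t) =
      (Set.pi ((s.filter (· ∈ A) : Finset ι) : Set ι) t) ×ˢ
        (Set.pi ((s.filter (· ∉ A) : Finset ι) : Set ι) t) := by
    ext p
    simp only [mem_preimage, Set.mem_pi, Finset.mem_coe, Finset.mem_filter, mem_prod, merge]
    constructor
    · intro h
      constructor
      · rintro i ⟨his, hiA⟩
        have := h i his
        rwa [if_pos hiA] at this
      · rintro i ⟨his, hiA⟩
        have := h i his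
        rwa [if_neg hiA] at this
    · rintro ⟨h1, h2⟩ i his
      by_cases hiA : i ∈ A
      · rw [if_pos hiA]; exact h1 i ⟨his, hiA⟩
      · rw [if_neg hiA]; exact h2 i ⟨his, hiA⟩
  rw [hpre, Measure.prod_prod, Measure.infinitePi_pi _ (fun i _ => ht i),
    Measure.infinitePi_pi _ (fun i _ => ht i)]
  exact Finset.prod_filter_mul_prod_filter_not s (· ∈ A) _

/-- Replace coordinate `i`. -/
noncomputable def resam [DecidableEq ι] (i : ι) (p : (ι → unitInterval) × unitInterval) :
    ι → unitInterval := Function.update p.1 i p.2

lemma measurable_resam [DecidableEq ι] (i : ι) : Measurable (resam i) := by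
  rw [measurable_pi_iff]
  intro j
  unfold resam
  by_cases hj : j = i
  · subst hj
    simp only [Function.update_self]; fun_prop
  · simp only [Function.update_of_ne hj]; fun_prop

lemma measurePreserving_resam [DecidableEq ι] (i : ι) :
    MeasurePreserving (resam i) ((iidLaw ι).prod volume) (iidLaw ι) := by
  have h1 := measurePreserving_merge (ι := ι) ({i}ᶜ : Set ι)
  have h2 : MeasurePreserving (Prod.map id (Function.eval i))
      ((iidLaw ι).prod (iidLaw ι)) ((iidLaw ι).prod (volume : Measure unitInterval)) := by
    apply MeasurePreserving.prod (MeasurePreserving.id _)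
    exact measurePreserving_eval_infinitePi (fun _ : ι => (volume : Measure unitInterval)) i
  have h3 : merge ({i}ᶜ : Set ι) = resam i ∘ Prod.map id (Function.eval i) := by
    ext p j
    simp only [merge, resam, Function.comp, Prod.map, id, Function.eval, mem_compl_iff,
      mem_singleton_iff]
    by_cases hj : j = i
    · subst hj; simp
    · simp [hj]
  refine ⟨measurable_resam i, ?_⟩
  rw [← h2.map_eq, Measure.map_map (measurable_resam i) h2.measurable, ← h3]
  exact h1.map_eq

/-- Fubini for one coordinate. -/
lemma integral_resam [DecidableEq ι] (i : ι) {E : Type*} [MeasurableSpace E]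
    {X : (ι → unitInterval) → E} (hX : Measurable X)
    (hdep : ∀ ω r, X (Function.update ω i r) = X ω) {F : E → unitInterval → ℝ}
    (hF : Measurable (Function.uncurry F)) {c : ℝ} (hc : ∀ e r, |F e r| ≤ c) :
    ∫ ω, F (X ω) (ω i) ∂iidLaw ι = ∫ ω, (∫ r : unitInterval, F (X ω) r) ∂iidLaw ι := by
  have hm : Measurable fun ω : ι → unitInterval => F (X ω) (ω i) := by
    have : (fun ω : ι → unitInterval => F (X ω) (ω i)) =
      Function.uncurry F ∘ (fun ω => (X ω, ω i)) := rfl
    rw [this]
    exact hF.comp (hX.prodMk (measurable_pi_apply i))
  have key : ∫ ω, F (X ω) (ω i) ∂iidLaw ι =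
      ∫ p, F (X (resam i p)) (resam i p i) ∂((iidLaw ι).prod volume) := by
    conv_lhs => rw [← (measurePreserving_resam i).map_eq]
    exact integral_map (measurable_resam i).aemeasurable hm.aestronglyMeasurable
  rw [key]
  have e : (fun p : (ι → unitInterval) × unitInterval => F (X (resam i p)) (resam i p i)) =
      fun p => F (X p.1) p.2 := by
    ext p
    unfold resam
    rw [hdep, Function.update_self]
  rw [e]
  rw [integral_prod]
  apply Integrable.of_bound (C := c)
  · have : (fun p : (ι → unitInterval) × unitInterval => F (X p.1) p.2) =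
      Function.uncurry F ∘ (fun p => (X p.1, p.2)) := rfl
    rw [this]
    exact (hF.comp ((hX.comp measurable_fst).prodMk measurable_snd)).aestronglyMeasurable
  · exact Filter.Eventually.of_forall fun p => hc _ _

lemma integral_unitInterval (f : ℝ → ℝ) :
    ∫ r : unitInterval, f r = ∫ r in (0 : ℝ)..1, f r := by
  rw [intervalIntegral.integral_of_le zero_le_one, ← integral_Icc_eq_integral_Ioc]
  exact integral_subtype_comap measurableSet_Icc f

end Vale.Agent.P161
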