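import Vale.Agent.Lib.P161.Round2

/-!
The sequential sampling process in a finite volume, its order-free form, and the stability
estimate over several rounds.
-/

open Finset MeasureTheory

namespace Vale.Agent.P161

variable {V : Type*} [DecidableEq V] {G : SimpleGraph V} [DecidableRel G.Adj]

/-! ### Rounds with random order -/

open Classical in
variable (G) in
/-- One round in volume `D`: the vertices of `D` are treated in the order of their labels. -/
noncomputable def roundF (β a : ℝ) (D : Finset V) (l ξ h : V → ℝ) : V → ℝ :=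
  ∑ L ∈ D.toList.permutations.toFinset,
    if L.Pairwise (fun x y => l x < l y) then run G β a D L ξ h else 0

lemma run_filter (β a : ℝ) (D : Finset V) (L : List V) (ξ h : V → ℝ) :
    run G β a D (L.filter (· ∈ D)) ξ h = run G β a D L ξ h := by
  induction L generalizing h with
  | nil => rfl
  | cons x L ih =>
    by_cases hx : x ∈ D
    · rw [List.filter_cons_of_pos (by simpa using hx)]
      unfold run at *
      rw [List.foldl_cons, List.foldl_cons]
      exact ih _
    · rw [List.filter_cons_of_neg (by simpa using hx), ih]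
      unfold run
      rw [List.foldl_cons, stepF_of_notMem hx]

omit [DecidableEq V] in
lemma exists_sorted [DecidableEq V] (l : V → ℝ) (F : Finset V)
    (hinj : Set.InjOn l (F : Set V)) :
    ∃ L : List V, L.Nodup ∧ L.toFinset = F ∧ L.Pairwise (fun x y => l x < l y) := by
  induction F using Finset.induction_on_max_value (f := l) with
  | empty => exact ⟨[], by simp, by simp, by simp⟩
  | insert x s hx hmax ih =>
    obtain ⟨L, h1, h2, h3⟩ := ih (hinj.mono (by simp))
    refine ⟨L ++ [x], ?_, ?_, ?_⟩
    · rw [List.nodup_append]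
      refine ⟨h1, by simp, ?_⟩
      intro y hy z hz
      rw [List.mem_singleton] at hz
      subst hz
      rintro rfl
      rw [← h2, List.mem_toFinset] at hx
      exact hx hy
    · ext y
      simp only [List.toFinset_append, mem_union, List.mem_toFinset, List.mem_singleton, mem_insert]
      rw [← h2, List.mem_toFinset]
      tauto
    · rw [List.pairwise_append]
      refine ⟨h3, by simp, ?_⟩
      intro y hy z hz
      rw [List.mem_singleton] at hz
      subst hz
      have hys : y ∈ s := by rw [← h2, List.mem_toFinset]; exact hy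
      have hle := hmax y hys
      have hne : l y ≠ l z := by
        intro heq
        have := hinj (by simp [hys]) (by simp) heq
        subst this
        exact hx hys
      exact lt_of_le_of_ne hle hne

lemma roundF_eq (β a : ℝ) {F D : Finset V} (hDF : D ⊆ F) {l : V → ℝ} (ξ h : V → ℝ) {L : List V}
    (hnd : L.Nodup) (hLF : L.toFinset = F) (hs : L.Pairwise (fun x y => l x < l y)) :
    roundF G β a D l ξ h = run G β a D L ξ h := by
  classical
  unfold roundF
  have hperm : (L.filter (· ∈ D)).Perm D.toList := by
    apply List.perm_of_nodup_nodup_toFinset_eq (hnd.filter _) D.nodup_toList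
    ext x
    simp only [List.mem_toFinset, List.mem_filter, decide_eq_true_eq, Finset.mem_toList]
    constructor
    · rintro ⟨_, h⟩; exact h
    · intro hx
      refine ⟨?_, hx⟩
      rw [← List.mem_toFinset, hLF]; exact hDF hx
  have hsf : (L.filter (· ∈ D)).Pairwise (fun x y => l x < l y) := hs.filter _
  rw [Finset.sum_eq_single (L.filter (· ∈ D))]
  · rw [if_pos hsf]
    exact run_filter β a D L ξ h
  · intro L' hL' hne
    rw [if_neg]
    intro hs'
    apply hne
    rw [List.mem_toFinset, List.mem_permutations] at hL'
    exact List.Perm.eq_of_pairwise (le := fun x y => l x < l y)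
      (fun x y _ _ h1 h2 => absurd h1 (not_lt.mpr h2.le)) hs' hsf (hL'.trans hperm.symm)
  · intro hcon
    exfalso
    apply hcon
    rw [List.mem_toFinset, List.mem_permutations]
    exact hperm

variable (G) in
/-- The state after `k` rounds in volume `D`, as a function of all labels. -/
noncomputable def xr (β a : ℝ) (D : Finset V) : ℕ → (V × ℕ → unitInterval) → V → ℝ
  | 0, _ => 0
  | k + 1, ω => roundF G β a D (label k ω) (noise k ω) (xr β a D k ω)

variable (G) in
/-- The state after `k` rounds, when the order of treatment is prescribed. -/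
noncomputable def xf (β a : ℝ) (D : Finset V) (ℒ : ℕ → List V) :
    ℕ → (V × ℕ → unitInterval) → V → ℝ
  | 0, _ => 0
  | k + 1, ω => run G β a D (ℒ k) (noise k ω) (xf β a D ℒ k ω)

omit [DecidableEq V] in
lemma measurableSet_pairwise (L : List V) :
    MeasurableSet {l : V → ℝ | L.Pairwise (fun x y => l x < l y)} := by
  induction L with
  | nil => simp
  | cons x L ih =>
    have h1 : {l : V → ℝ | (x :: L).Pairwise (fun x y => l x < l y)} =
        (⋂ y ∈ {y | y ∈ L}, {l : V → ℝ | l x < l y}) ∩
          {l : V → ℝ | L.Pairwise (fun x y => l x < l y)} := by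
      ext l
      simp [List.pairwise_cons]
    rw [h1]
    apply MeasurableSet.inter _ ih
    apply MeasurableSet.biInter
    · exact (List.finite_toSet L).countable
    · intro y _
      exact measurableSet_lt (measurable_pi_apply x) (measurable_pi_apply y)

lemma measurable_roundF (β a : ℝ) (D : Finset V) :
    Measurable fun p : (V → ℝ) × (V → ℝ) × (V → ℝ) => roundF G β a D p.1 p.2.1 p.2.2 := by
  classical
  unfold roundF
  apply Finset.measurable_sum
  intro L _
  apply Measurable.ite
  · exact measurable_fst (measurableSet_pairwise L)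
  · have h1 := measurable_run (G := G) β a D L
    have h0 : Measurable fun p : (V → ℝ) × (V → ℝ) × (V → ℝ) => p.2 := measurable_snd
    have h2 := h1.comp h0
    exact h2
  · exact measurable_const

lemma measurable_xr (β a : ℝ) (D : Finset V) (k : ℕ) : Measurable (xr G β a D k) := by
  induction k with
  | zero => exact measurable_const
  | succ k ih =>
    have h1 : Measurable fun ω => (label (V := V) k ω, noise k ω, xr G β a D k ω) :=
      (measurable_label k).prodMk ((measurable_noise k).prodMk ih)
    have h2 := (measurable_roundF (G := G) β a D).comp h1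
    exact h2

lemma measurable_xf (β a : ℝ) (D : Finset V) (ℒ : ℕ → List V) (k : ℕ) :
    Measurable (xf G β a D ℒ k) := by
  induction k with
  | zero => exact measurable_const
  | succ k ih =>
    have h1 := measurable_run_comp (G := G) (β := β) (a := a) (k := k) (ℒ k) D ih
    exact h1

lemma xf_dep (β a : ℝ) (D : Finset V) (ℒ : ℕ → List V) {j k : ℕ} (hjk : j ≤ k) (u : V)
    (ω : V × ℕ → unitInterval) (r : unitInterval) :
    xf G β a D ℒ j (Function.update ω (u, 2 * k + 1) r) = xf G β a D ℒ j ω := by
  induction j with
  | zero => rfl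
  | succ j ih =>
    have hj : j ≤ k := by omega
    change run G β a D (ℒ j) (noise j (Function.update ω (u, 2 * k + 1) r))
      (xf G β a D ℒ j (Function.update ω (u, 2 * k + 1) r)) =
      run G β a D (ℒ j) (noise j ω) (xf G β a D ℒ j ω)
    rw [ih hj]
    apply run_congr_noise
    intro v _
    unfold noise
    have h : ((v, 2 * j + 1) : V × ℕ) ≠ (u, 2 * k + 1) := by
      intro heq
      have := (Prod.mk.inj heq).2
      omega
    rw [Function.update_of_ne h]

/-! ### Zero field -/

lemma sp_sdiff {D S : Finset V} {v : V} (hv : v ∈ D) : sp (D \ S) v = -sp S v := by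
  unfold sp
  by_cases h : v ∈ S
  · simp [h]
  · simp [h, hv]

lemma en_sdiff (β : ℝ) {D S : Finset V} : en G β D (0 : V → ℝ) (D \ S) = en G β D 0 S := by
  unfold en
  congr 1
  · simp
  · congr 1
    apply Finset.sum_congr rfl
    intro x hx
    apply Finset.sum_congr rfl
    intro y hy
    rw [sp_sdiff hx, sp_sdiff hy]
    split_ifs <;> ring

lemma gs_flip (β : ℝ) (D : Finset V) (f : Finset V → ℝ) :
    gs G β D (0 : V → ℝ) f = gs G β D 0 (fun S => f (D \ S)) := by
  unfold gs
  refine Finset.sum_nbij' (fun S => D \ S) (fun S => D \ S) ?_ ?_ ?_ ?_ ?_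
  · intro S _; simp
  · intro S _; simp
  · intro S hS
    rw [mem_powerset] at hS
    exact Finset.sdiff_sdiff_eq_self hS
  · intro S hS
    rw [mem_powerset] at hS
    exact Finset.sdiff_sdiff_eq_self hS
  · intro S hS
    rw [mem_powerset] at hS
    simp only
    rw [en_sdiff, Finset.sdiff_sdiff_eq_self hS]

lemma mag_zero (β : ℝ) {D : Finset V} {v : V} (hv : v ∈ D) : mag G β D (0 : V → ℝ) v = 0 := by
  have h1 : gs G β D (0 : V → ℝ) (fun S => sp S v) = -gs G β D 0 (fun S => sp S v) := by
    conv_lhs => rw [gs_flip]
    rw [gs_congr (g := fun S => (-1) * sp S v), gs_mul_left]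
    · ring
    · intro S _
      rw [sp_sdiff hv]; ring
  have h2 : gs G β D (0 : V → ℝ) (fun S => sp S v) = 0 := by linarith
  unfold mag gx
  rw [h2, zero_div]

/-! ### Stability over several rounds -/

variable {d : ℕ} {β lam rho eps c1 a : ℝ} {D D' : Finset V} {δ : V → ℕ}

lemma xf_bound [G.LocallyFinite] (hG : G.IsTree) (hreg : G.IsRegularOfDegree d) (hβ : 0 ≤ β)
    (hp : Par d (Real.tanh β) lam rho eps c1 a)
    (hδ : ∀ v w, G.Adj v w → δ v ≤ δ w + 1) (hδ0 : ∀ v, v ∉ D ∨ v ∉ D' → δ v = 0)
    (ℒ : ℕ → List V) (hℒ : ∀ k, (ℒ k).Nodup) (k : ℕ) (v : V) :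
    ∫ ω, (mag G β D (xf G β a D ℒ k ω) v - mag G β D' (xf G β a D' ℒ k ω) v) ^ 2
      ∂iidLaw (V × ℕ) ≤ 4 * 2 ^ k * rho ^ δ v := by
  induction k generalizing v with
  | zero =>
    simp only [xf]
    rw [integral_const]
    simp only [probReal_univ, one_smul, pow_zero, mul_one]
    by_cases hv : v ∈ D ∧ v ∈ D'
    · rw [mag_zero β hv.1, mag_zero β hv.2]
      have := hp.hrho0
      simp only [sub_self, ne_eq, OfNat.ofNat_ne_zero, not_false_eq_true, zero_pow]
      positivity
    · rw [hδ0 v (by tauto), pow_zero, mul_one]
      exact (le_abs_self _).trans (mag_sub_sq_le v)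
  | succ k ih =>
    have h := round_bound hG hreg hβ hp hδ hδ0 (measurable_xf (G := G) β a D ℒ k)
      (measurable_xf (G := G) β a D' ℒ k) (k := k)
      (fun u ω r => xf_dep β a D ℒ le_rfl u ω r) (fun u ω r => xf_dep β a D' ℒ le_rfl u ω r)
      (K := 4 * 2 ^ k) (by
        have : (1 : ℝ) ≤ 2 ^ k := one_le_pow₀ (by norm_num)
        linarith) ih (ℒ k) (hℒ k) v
    have e : 2 * (4 * 2 ^ k) * rho ^ δ v = 4 * 2 ^ (k + 1) * rho ^ δ v := by ring
    rw [← e]
    exact h

end Vale.Agent.P161
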