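import Vale.Agent.Lib.P161.Process

/-!
Martingale identities and polarization of the magnetizations, for the process with a
prescribed order.
-/

open Finset MeasureTheory

namespace Vale.Agent.P161

variable {V : Type*} [DecidableEq V] {G : SimpleGraph V} [DecidableRel G.Adj]
variable {β a : ℝ} {D : Finset V}

lemma intervalIntegrable_of_bdd {f : ℝ → ℝ} (hf : Measurable f) {c : ℝ} (hc : ∀ r, |f r| ≤ c) :
    IntervalIntegrable f volume 0 1 := by
  rw [intervalIntegrable_iff, Set.uIoc_of_le zero_le_one]
  exact Measure.integrableOn_of_bounded (by simp) hf.aestronglyMeasurable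
    (Filter.Eventually.of_forall hc)

lemma integral_step {E : Type*} [MeasurableSpace E] {Y : (V × ℕ → unitInterval) → V → ℝ}
    {Z : (V × ℕ → unitInterval) → E} (hY : Measurable Y) (hZ : Measurable Z) {k : ℕ} {u : V}
    (hdep : ∀ ω r, Y (Function.update ω (u, 2 * k + 1) r) = Y ω)
    (hdepZ : ∀ ω r, Z (Function.update ω (u, 2 * k + 1) r) = Z ω)
    {F : (V → ℝ) → E → ℝ} (hF : Measurable (Function.uncurry F)) {c : ℝ}
    (hc : ∀ h e, |F h e| ≤ c) :
    ∫ ω, F (stepF G β a D u (noise k ω u) (Y ω)) (Z ω) ∂iidLaw (V × ℕ) =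
      ∫ ω, (∫ r in (0 : ℝ)..1, F (stepF G β a D u r (Y ω)) (Z ω)) ∂iidLaw (V × ℕ) := by
  set H : (V → ℝ) × E → unitInterval → ℝ := fun e r => F (stepF G β a D u r e.1) e.2 with hH
  have hHm : Measurable (Function.uncurry H) := by
    have h0 : Measurable fun p : ((V → ℝ) × E) × unitInterval => ((p.2 : ℝ), p.1.1) :=
      (measurable_subtype_coe.comp measurable_snd).prodMk (measurable_fst.comp measurable_fst)
    have h1 := (measurable_stepF (G := G) β a D u).comp h0
    have h2 : Measurable fun p : ((V → ℝ) × E) × unitInterval =>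
        (stepF G β a D u p.2 p.1.1, p.1.2) :=
      h1.prodMk (measurable_snd.comp measurable_fst)
    have h3 := hF.comp h2
    exact h3
  have hX : Measurable fun ω => (Y ω, Z ω) := hY.prodMk hZ
  have key := integral_resam (ι := V × ℕ) (u, 2 * k + 1) hX
    (fun ω r => by rw [hdep ω r, hdepZ ω r]) hHm (c := c) (fun e r => hc _ _)
  have e1 : ∫ ω, F (stepF G β a D u (noise k ω u) (Y ω)) (Z ω) ∂iidLaw (V × ℕ) =
      ∫ ω, H (Y ω, Z ω) (ω (u, 2 * k + 1)) ∂iidLaw (V × ℕ) := rfl
  rw [e1, key]
  congr 1
  ext ω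
  exact integral_unitInterval (fun r => F (stepF G β a D u r (Y ω)) (Z ω))

/-- Martingale property along a list. -/
lemma integral_gx_run (ha0 : 0 ≤ a) (ha : a ≤ 1 / 2) (f : Finset V → ℝ)
    {X : (V × ℕ → unitInterval) → V → ℝ} (hX : Measurable X) {k : ℕ}
    (hdep : ∀ u ω r, X (Function.update ω (u, 2 * k + 1) r) = X ω) (L : List V) (hL : L.Nodup) :
    ∫ ω, gx G β D (run G β a D L (noise k ω) (X ω)) f ∂iidLaw (V × ℕ) =
      ∫ ω, gx G β D (X ω) f ∂iidLaw (V × ℕ) := by
  induction L using List.reverseRecOn with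
  | nil => rfl
  | append_singleton L u ih =>
    have hnd' := List.nodup_append.mp hL
    have huL : u ∉ L := by
      intro hmem
      exact hnd'.2.2 u hmem u (by simp) rfl
    simp only [run_append]
    obtain ⟨c, hc⟩ : ∃ c : ℝ, ∀ S ⊆ D, |f S| ≤ c := by
      refine ⟨∑ S ∈ D.powerset, |f S|, fun S hS => ?_⟩
      exact Finset.single_le_sum (f := fun S => |f S|) (fun i _ => abs_nonneg _)
        (mem_powerset.mpr hS)
    have h1 := integral_step (G := G) (β := β) (a := a) (D := D) (E := Unit)
      (measurable_run_comp (G := G) (β := β) (a := a) (k := k) L D hX)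
      (Z := fun _ => ()) measurable_const (k := k) (u := u) (run_dep huL D (hdep u))
      (fun _ _ => rfl) (F := fun h _ => gx G β D h f)
      ((measurable_gx β D f).comp measurable_fst) (c := c) (fun h _ => abs_gx_le hc)
    rw [h1, ← ih hnd'.1]
    congr 1
    ext ω
    exact integral_gx_step ha0 ha u f

lemma integral_gx_xf (ha0 : 0 ≤ a) (ha : a ≤ 1 / 2) (f : Finset V → ℝ) (ℒ : ℕ → List V)
    (hℒ : ∀ k, (ℒ k).Nodup) (k : ℕ) :
    ∫ ω, gx G β D (xf G β a D ℒ k ω) f ∂iidLaw (V × ℕ) = gx G β D 0 f := by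
  induction k with
  | zero => simp [xf]
  | succ k ih =>
    rw [← ih]
    exact integral_gx_run ha0 ha f (measurable_xf β a D ℒ k)
      (fun u ω r => xf_dep β a D ℒ le_rfl u ω r) (ℒ k) (hℒ k)

/-- Difference of second moments along a list. -/
lemma integral_sub_sq_run (ha0 : 0 ≤ a) (ha : a ≤ 1 / 2) (v : V)
    {X : (V × ℕ → unitInterval) → V → ℝ} (hX : Measurable X)
    {Z : (V × ℕ → unitInterval) → ℝ} (hZ : Measurable Z) (hZb : ∀ ω, |Z ω| ≤ 1) {k : ℕ}
    (hdep : ∀ u ω r, X (Function.update ω (u, 2 * k + 1) r) = X ω)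
    (hdepZ : ∀ u ω r, Z (Function.update ω (u, 2 * k + 1) r) = Z ω) (L : List V)
    (hL : L.Nodup) :
    ∫ ω, ((mag G β D (run G β a D L (noise k ω) (X ω)) v - Z ω) ^ 2 -
        mag G β D (run G β a D L (noise k ω) (X ω)) v ^ 2) ∂iidLaw (V × ℕ) =
      ∫ ω, ((mag G β D (X ω) v - Z ω) ^ 2 - mag G β D (X ω) v ^ 2) ∂iidLaw (V × ℕ) := by
  induction L using List.reverseRecOn with
  | nil => rfl
  | append_singleton L u ih =>
    have hnd' := List.nodup_append.mp hL
    have huL : u ∉ L := by
      intro hmem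
      exact hnd'.2.2 u hmem u (by simp) rfl
    simp only [run_append]
    -- truncate `Z` so that the functional is bounded
    set T : ℝ → ℝ := fun z => max (-1) (min 1 z) with hT
    have hTm : Measurable T := by rw [hT]; fun_prop
    have hTZ : ∀ ω, T (Z ω) = Z ω := by
      intro ω
      have := abs_le.mp (hZb ω)
      simp only [hT]
      rw [min_eq_right this.2, max_eq_right this.1]
    have hTb : ∀ z, |T z| ≤ 1 := by
      intro z
      rw [abs_le]
      refine ⟨le_max_left _ _, max_le (by norm_num) (min_le_left _ _)⟩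
    have h1 := integral_step (G := G) (β := β) (a := a) (D := D) (E := ℝ)
      (measurable_run_comp (G := G) (β := β) (a := a) (k := k) L D hX)
      hZ (k := k) (u := u) (run_dep huL D (hdep u)) (hdepZ u)
      (F := fun h z => (mag G β D h v - T z) ^ 2 - mag G β D h v ^ 2)
      (by
        have m1 : Measurable fun p : (V → ℝ) × ℝ => mag G β D p.1 v :=
          (measurable_mag β D v).comp measurable_fst
        have m2 : Measurable fun p : (V → ℝ) × ℝ => T p.2 := hTm.comp measurable_snd
        have m3 : Measurable fun p : (V → ℝ) × ℝ =>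
            (mag G β D p.1 v - T p.2) ^ 2 - mag G β D p.1 v ^ 2 :=
          ((m1.sub m2).pow_const 2).sub (m1.pow_const 2)
        exact m3) (c := 5) (by
        intro h z
        have b1 := abs_le.mp (abs_mag_le (G := G) (β := β) (D := D) (h := h) v)
        have b2 := abs_le.mp (hTb z)
        rw [abs_le]
        constructor <;> nlinarith)
    simp only [hTZ] at h1
    rw [h1, ← ih hnd'.1]
    congr 1
    ext ω
    have e1 := integral_mag_step_sub_sq (G := G) (β := β) (D := D)
      (h := run G β a D L (noise k ω) (X ω)) ha0 ha v u (Z ω)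
    have e2 := integral_mag_step_sub_sq (G := G) (β := β) (D := D)
      (h := run G β a D L (noise k ω) (X ω)) ha0 ha v u 0
    have i1 : ∀ c : ℝ, IntervalIntegrable (fun r => (mag G β D (stepF G β a D u r
        (run G β a D L (noise k ω) (X ω))) v - c) ^ 2) volume 0 1 := by
      intro c
      have hm : Measurable fun r : ℝ => (mag G β D (stepF G β a D u r
        (run G β a D L (noise k ω) (X ω))) v - c) ^ 2 := by
        have h0 : Measurable fun r : ℝ => (r, run G β a D L (noise k ω) (X ω)) :=
          measurable_id.prodMk measurable_const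
        have h2 := (measurable_mag (G := G) β D v).comp
          ((measurable_stepF (G := G) β a D u).comp h0)
        exact (h2.sub_const c).pow_const 2
      apply intervalIntegrable_of_bdd hm (c := (1 + |c|) ^ 2)
      intro r
      rw [abs_of_nonneg (sq_nonneg _), ← sq_abs]
      apply pow_le_pow_left₀ (abs_nonneg _)
      calc _ ≤ |mag G β D (stepF G β a D u r (run G β a D L (noise k ω) (X ω))) v| + |c| :=
            abs_sub _ _
        _ ≤ 1 + |c| := by
            have := abs_mag_le (G := G) (β := β) (D := D)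
              (h := stepF G β a D u r (run G β a D L (noise k ω) (X ω))) v
            linarith
    rw [intervalIntegral.integral_sub (i1 _) (by simpa using i1 0), e1]
    simp only [sub_zero] at e2
    rw [e2]
    ring

lemma integrable_mag_sq {Y : (V × ℕ → unitInterval) → V → ℝ} (hY : Measurable Y) (v : V) :
    Integrable (fun ω => mag G β D (Y ω) v ^ 2) (iidLaw (V × ℕ)) := by
  apply integrable_of_meas_bdd (c := 1) (((measurable_mag β D v).comp hY).pow_const 2)
  intro ω
  rw [abs_of_nonneg (sq_nonneg _)]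
  exact sq_le_one_of_abs (abs_mag_le v)

/-- One observation step and the second moment. -/
lemma integral_sq_step_ge (ha0 : 0 ≤ a) (ha : a ≤ 1 / 2) (v u : V)
    {Y : (V × ℕ → unitInterval) → V → ℝ} (hY : Measurable Y) {k : ℕ}
    (hdep : ∀ ω r, Y (Function.update ω (u, 2 * k + 1) r) = Y ω) :
    ∫ ω, mag G β D (Y ω) v ^ 2 ∂iidLaw (V × ℕ) +
      (if u = v ∧ v ∈ D then a ^ 2 / 6 * (1 - ∫ ω, mag G β D (Y ω) v ^ 2 ∂iidLaw (V × ℕ)) ^ 2
        else 0) ≤
      ∫ ω, mag G β D (stepF G β a D u (noise k ω u) (Y ω)) v ^ 2 ∂iidLaw (V × ℕ) := by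
  have h1 := integral_step (G := G) (β := β) (a := a) (D := D) (E := Unit) hY
      (Z := fun _ => ()) measurable_const (k := k) (u := u) hdep
      (fun _ _ => rfl) (F := fun h _ => mag G β D h v ^ 2)
      (((measurable_mag β D v).comp measurable_fst).pow_const 2) (c := 1) (fun h _ => by
        rw [abs_of_nonneg (sq_nonneg _)]
        exact sq_le_one_of_abs (abs_mag_le v))
  rw [h1]
  have e2 : ∀ ω, ∫ r in (0 : ℝ)..1, mag G β D (stepF G β a D u r (Y ω)) v ^ 2 =
      mag G β D (Y ω) v ^ 2 + qinc G β a D (Y ω) v u := by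
    intro ω
    have := integral_mag_step_sub_sq (G := G) (β := β) (D := D) (h := Y ω) ha0 ha v u 0
    simpa using this
  simp only [e2]
  have iM := integrable_mag_sq (G := G) (β := β) (D := D) hY v
  have hqm : Measurable fun ω => qinc G β a D (Y ω) v u := by
    have : (fun ω => qinc G β a D (Y ω) v u) = fun ω =>
        (∫ r in (0 : ℝ)..1, mag G β D (stepF G β a D u r (Y ω)) v ^ 2) -
          mag G β D (Y ω) v ^ 2 := by
      ext ω; rw [e2]; ring
    rw [this]
    apply Measurable.sub _ (((measurable_mag β D v).comp hY).pow_const 2)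
    have hm : Measurable fun p : (V → ℝ) × ℝ => mag G β D (stepF G β a D u p.2 p.1) v ^ 2 := by
      have h0 : Measurable fun p : (V → ℝ) × ℝ => (p.2, p.1) :=
        measurable_snd.prodMk measurable_fst
      have h2 := (measurable_mag (G := G) β D v).comp
          ((measurable_stepF (G := G) β a D u).comp h0)
      exact h2.pow_const 2
    have hint : Measurable fun h : V → ℝ =>
        ∫ r in (0 : ℝ)..1, mag G β D (stepF G β a D u r h) v ^ 2 := by
      simp only [intervalIntegral.integral_of_le zero_le_one]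
      exact (hm.stronglyMeasurable.integral_prod_right').measurable
    exact hint.comp hY
  have hqb : ∀ ω, |qinc G β a D (Y ω) v u| ≤ 1 := by
    intro ω
    rw [abs_of_nonneg (qinc_nonneg v u)]
    have h3 : ∫ r in (0 : ℝ)..1, mag G β D (stepF G β a D u r (Y ω)) v ^ 2 ≤ 1 := by
      have : ∫ r in (0 : ℝ)..1, mag G β D (stepF G β a D u r (Y ω)) v ^ 2 ≤
          ∫ _r in (0 : ℝ)..1, (1 : ℝ) := by
        apply intervalIntegral.integral_mono_on zero_le_one
        · have hm : Measurable fun r : ℝ => mag G β D (stepF G β a D u r (Y ω)) v ^ 2 := by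
            have h0 : Measurable fun r : ℝ => (r, Y ω) := measurable_id.prodMk measurable_const
            have h2 := (measurable_mag (G := G) β D v).comp
              ((measurable_stepF (G := G) β a D u).comp h0)
            exact h2.pow_const 2
          apply intervalIntegrable_of_bdd hm (c := 1)
          intro r
          rw [abs_of_nonneg (sq_nonneg _)]
          exact sq_le_one_of_abs (abs_mag_le v)
        · exact _root_.intervalIntegrable_const
        · intro r _
          exact sq_le_one_of_abs (abs_mag_le v)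
      simpa using this
    have := e2 ω
    have hsq : 0 ≤ mag G β D (Y ω) v ^ 2 := sq_nonneg _
    linarith
  have iq : Integrable (fun ω => qinc G β a D (Y ω) v u) (iidLaw (V × ℕ)) :=
    integrable_of_meas_bdd hqm hqb
  rw [integral_add iM iq]
  gcongr
  split_ifs with huv
  · obtain ⟨rfl, hv⟩ := huv
    have iM2 : Integrable (fun ω => (1 - mag G β D (Y ω) u ^ 2) ^ 2) (iidLaw (V × ℕ)) := by
      apply integrable_of_meas_bdd (c := 1)
      · exact ((((measurable_mag β D u).comp hY).pow_const 2).const_sub 1).pow_const 2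
      · intro ω
        have h4 := sq_le_one_of_abs (abs_mag_le (G := G) (β := β) (D := D) (h := Y ω) u)
        have h5 := sq_nonneg (mag G β D (Y ω) u)
        rw [abs_of_nonneg (sq_nonneg _)]
        nlinarith
    calc a ^ 2 / 6 * (1 - ∫ ω, mag G β D (Y ω) u ^ 2 ∂iidLaw (V × ℕ)) ^ 2
        ≤ a ^ 2 / 6 * ∫ ω, (1 - mag G β D (Y ω) u ^ 2) ^ 2 ∂iidLaw (V × ℕ) := by
          gcongr
          -- Jensen
          set e := ∫ ω, mag G β D (Y ω) u ^ 2 ∂iidLaw (V × ℕ) with he
          have h6 : 0 ≤ ∫ ω, ((1 - mag G β D (Y ω) u ^ 2) - (1 - e)) ^ 2 ∂iidLaw (V × ℕ) :=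
            integral_nonneg fun ω => sq_nonneg _
          have h7 : ∫ ω, ((1 - mag G β D (Y ω) u ^ 2) - (1 - e)) ^ 2 ∂iidLaw (V × ℕ) =
              ∫ ω, (1 * (1 - mag G β D (Y ω) u ^ 2) ^ 2 +
                ((2 * (1 - e)) * mag G β D (Y ω) u ^ 2 + ((1 - e) ^ 2 - 2 * (1 - e)) * 1))
                ∂iidLaw (V × ℕ) := by
            congr 1; ext ω; ring
          have h8 := integral_lin3 iM2 iM (integrable_const (μ := iidLaw (V × ℕ)) (1 : ℝ))
            1 (2 * (1 - e)) ((1 - e) ^ 2 - 2 * (1 - e))
          rw [h7, h8, ← he, integral_const] at h6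
          simp only [probReal_univ, one_smul] at h6
          nlinarith
      _ = ∫ ω, a ^ 2 / 6 * (1 - mag G β D (Y ω) u ^ 2) ^ 2 ∂iidLaw (V × ℕ) :=
          (integral_const_mul _ _).symm
      _ ≤ ∫ ω, qinc G β a D (Y ω) u u ∂iidLaw (V × ℕ) := by
          apply integral_mono (iM2.const_mul _) iq
          intro ω
          exact qinc_self_ge ha0 ha hv
  · exact integral_nonneg fun ω => qinc_nonneg v u

end Vale.Agent.P161
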