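import Vale.Agent.Lib.P161.Process2

/-!
Polarization, comparison across rounds, and transfer to the process with random order.
-/

open Finset MeasureTheory

namespace Vale.Agent.P161

variable {V : Type*} [DecidableEq V] {G : SimpleGraph V} [DecidableRel G.Adj]
variable {β a : ℝ} {D : Finset V}

lemma mono_aux {c x y : ℝ} (hc0 : 0 ≤ c) (hc : c ≤ 1 / 2) (hx0 : 0 ≤ x) (hxy : x ≤ y) (hy : y ≤ 1) :
    x - c * x ^ 2 ≤ y - c * y ^ 2 := by
  have h1 : 0 ≤ (y - x) * (1 - c * (x + y)) := by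
    apply mul_nonneg (by linarith)
    nlinarith
  nlinarith

lemma integral_mag_sq_le_one {Y : (V × ℕ → unitInterval) → V → ℝ} (hY : Measurable Y) (v : V) :
    ∫ ω, mag G β D (Y ω) v ^ 2 ∂iidLaw (V × ℕ) ≤ 1 := by
  calc ∫ ω, mag G β D (Y ω) v ^ 2 ∂iidLaw (V × ℕ) ≤ ∫ _ω, (1 : ℝ) ∂iidLaw (V × ℕ) := by
        apply integral_mono (integrable_mag_sq hY v) (integrable_const _)
        intro ω
        exact sq_le_one_of_abs (abs_mag_le v)
    _ = 1 := by simp

lemma integral_mag_sq_nonneg {Y : (V × ℕ → unitInterval) → V → ℝ} (v : V) :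
    0 ≤ ∫ ω, mag G β D (Y ω) v ^ 2 ∂iidLaw (V × ℕ) :=
  integral_nonneg fun ω => sq_nonneg _

lemma run_polar (ha0 : 0 ≤ a) (ha : a ≤ 1 / 2) {v : V} (hv : v ∈ D)
    {X : (V × ℕ → unitInterval) → V → ℝ} (hX : Measurable X) {k : ℕ}
    (hdep : ∀ u ω r, X (Function.update ω (u, 2 * k + 1) r) = X ω) (L : List V) (hL : L.Nodup) :
    1 - ∫ ω, mag G β D (run G β a D L (noise k ω) (X ω)) v ^ 2 ∂iidLaw (V × ℕ) ≤
      1 - ∫ ω, mag G β D (X ω) v ^ 2 ∂iidLaw (V × ℕ) ∧
    (v ∈ L → 1 - ∫ ω, mag G β D (run G β a D L (noise k ω) (X ω)) v ^ 2 ∂iidLaw (V × ℕ) ≤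
      (1 - ∫ ω, mag G β D (X ω) v ^ 2 ∂iidLaw (V × ℕ)) -
        a ^ 2 / 6 * (1 - ∫ ω, mag G β D (X ω) v ^ 2 ∂iidLaw (V × ℕ)) ^ 2) := by
  have hc0 : 0 ≤ a ^ 2 / 6 := by positivity
  have hc : a ^ 2 / 6 ≤ 1 / 2 := by nlinarith
  have hX0 := integral_mag_sq_nonneg (G := G) (β := β) (D := D) (Y := X) v
  set e0 := 1 - ∫ ω, mag G β D (X ω) v ^ 2 ∂iidLaw (V × ℕ) with he0
  have he1 : e0 ≤ 1 := by linarith
  induction L using List.reverseRecOn with
  | nil => exact ⟨le_rfl, fun h => absurd h (by simp)⟩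
  | append_singleton L u ih =>
    have hnd' := List.nodup_append.mp hL
    have huL : u ∉ L := by
      intro hmem
      exact hnd'.2.2 u hmem u (by simp) rfl
    have ih' := ih hnd'.1
    simp only [run_append]
    have hm := measurable_run_comp (G := G) (β := β) (a := a) (k := k) L D hX
    have h1 := integral_sq_step_ge (G := G) (β := β) (D := D) ha0 ha v u hm (k := k)
      (run_dep huL D (hdep u))
    have hM1 := integral_mag_sq_le_one (G := G) (β := β) (D := D) hm v
    set M := ∫ ω, mag G β D (run G β a D L (noise k ω) (X ω)) v ^ 2 ∂iidLaw (V × ℕ) with hM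
    by_cases huv : u = v
    · have hif : (if u = v ∧ v ∈ D then a ^ 2 / 6 * (1 - M) ^ 2 else 0) =
          a ^ 2 / 6 * (1 - M) ^ 2 := if_pos ⟨huv, hv⟩
      rw [hif] at h1
      have hmono := mono_aux hc0 hc (by linarith : 0 ≤ 1 - M) ih'.1 he1
      have hnn : 0 ≤ a ^ 2 / 6 * (1 - M) ^ 2 := by positivity
      constructor
      · linarith [ih'.1]
      · intro _
        linarith
    · have hif : (if u = v ∧ v ∈ D then a ^ 2 / 6 * (1 - M) ^ 2 else 0) = 0 :=
        if_neg (fun h => huv h.1)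
      rw [hif] at h1
      constructor
      · linarith [ih'.1]
      · intro hvL
        rw [List.mem_append, List.mem_singleton] at hvL
        rcases hvL with h | h
        · linarith [ih'.2 h]
        · exact absurd h.symm huv

lemma xf_polar (ha0 : 0 ≤ a) (ha : a ≤ 1 / 2) {v : V} (hv : v ∈ D) (ℒ : ℕ → List V)
    (hℒ : ∀ k, (ℒ k).Nodup) (hvℒ : ∀ k, v ∈ ℒ k) (k : ℕ) :
    1 - ∫ ω, mag G β D (xf G β a D ℒ k ω) v ^ 2 ∂iidLaw (V × ℕ) ≤ 1 / (1 + a ^ 2 / 6 * k) := by
  have hc0 : 0 ≤ a ^ 2 / 6 := by positivity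
  have hc : a ^ 2 / 6 ≤ 1 / 2 := by nlinarith
  set c := a ^ 2 / 6 with hcdef
  induction k with
  | zero =>
    have := integral_mag_sq_nonneg (G := G) (β := β) (D := D) (Y := xf G β a D ℒ 0) v
    simp only [CharP.cast_eq_zero, mul_zero, add_zero, div_one]
    linarith
  | succ k ih =>
    have hm := measurable_xf (G := G) β a D ℒ k
    have h1 := (run_polar (G := G) (β := β) (D := D) ha0 ha hv hm (k := k)
      (fun u ω r => xf_dep β a D ℒ le_rfl u ω r) (ℒ k) (hℒ k)).2 (hvℒ k)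
    have hM1 := integral_mag_sq_le_one (G := G) (β := β) (D := D) hm v
    have hd : (0 : ℝ) < 1 + c * k := by positivity
    have hb1 : 1 / (1 + c * (k : ℝ)) ≤ 1 := by
      rw [div_le_one hd]
      have : 0 ≤ c * (k : ℝ) := by positivity
      linarith
    have hmono := mono_aux hc0 hc (by linarith :
      0 ≤ 1 - ∫ ω, mag G β D (xf G β a D ℒ k ω) v ^ 2 ∂iidLaw (V × ℕ)) ih hb1
    have hfin : 1 / (1 + c * (k : ℝ)) - c * (1 / (1 + c * (k : ℝ))) ^ 2 ≤
        1 / (1 + c * ((k + 1 : ℕ) : ℝ)) := by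
      have hd2 : (0 : ℝ) < 1 + c * ((k + 1 : ℕ) : ℝ) := by positivity
      have e1 : 1 / (1 + c * (k : ℝ)) - c * (1 / (1 + c * (k : ℝ))) ^ 2 =
          (1 + c * k - c) / (1 + c * k) ^ 2 := by
        field_simp
      rw [e1, div_le_div_iff₀ (by positivity) hd2]
      push_cast
      nlinarith [sq_nonneg c]
    calc 1 - ∫ ω, mag G β D (xf G β a D ℒ (k + 1) ω) v ^ 2 ∂iidLaw (V × ℕ) ≤ _ := h1
      _ ≤ _ := hmono
      _ ≤ _ := hfin

lemma xf_cauchy (ha0 : 0 ≤ a) (ha : a ≤ 1 / 2) (v : V) (ℒ : ℕ → List V)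
    (hℒ : ∀ k, (ℒ k).Nodup) {j k : ℕ} (hjk : j ≤ k) :
    ∫ ω, (mag G β D (xf G β a D ℒ k ω) v - mag G β D (xf G β a D ℒ j ω) v) ^ 2
      ∂iidLaw (V × ℕ) ≤
      1 - ∫ ω, mag G β D (xf G β a D ℒ j ω) v ^ 2 ∂iidLaw (V × ℕ) := by
  have hmj := measurable_xf (G := G) β a D ℒ j
  have hZ : Measurable fun ω => mag G β D (xf G β a D ℒ j ω) v := (measurable_mag β D v).comp hmj
  have key : ∀ k, j ≤ k →
      ∫ ω, ((mag G β D (xf G β a D ℒ k ω) v - mag G β D (xf G β a D ℒ j ω) v) ^ 2 -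
        mag G β D (xf G β a D ℒ k ω) v ^ 2) ∂iidLaw (V × ℕ) =
      -∫ ω, mag G β D (xf G β a D ℒ j ω) v ^ 2 ∂iidLaw (V × ℕ) := by
    intro k hk
    induction k, hk using Nat.le_induction with
    | base =>
      rw [← integral_neg]
      congr 1
      ext ω
      ring
    | succ k hk ih =>
      rw [← ih]
      exact integral_sub_sq_run ha0 ha v (measurable_xf (G := G) β a D ℒ k) hZ
        (fun ω => abs_mag_le v) (fun u ω r => xf_dep β a D ℒ le_rfl u ω r)
        (fun u ω r => by rw [xf_dep β a D ℒ hk u ω r]) (ℒ k) (hℒ k)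
  have hk := key k hjk
  have hmk := measurable_xf (G := G) β a D ℒ k
  have i1 : Integrable (fun ω => (mag G β D (xf G β a D ℒ k ω) v -
      mag G β D (xf G β a D ℒ j ω) v) ^ 2) (iidLaw (V × ℕ)) := by
    apply integrable_of_meas_bdd (c := 4)
    · exact (((measurable_mag β D v).comp hmk).sub hZ).pow_const 2
    · intro ω; exact mag_sub_sq_le v
  have i2 := integrable_mag_sq (G := G) (β := β) (D := D) hmk v
  rw [integral_sub i1 i2] at hk
  have := integral_mag_sq_le_one (G := G) (β := β) (D := D) hmk v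
  linarith

/-! ### Random order -/

/-- The coordinates carrying order labels. -/
def labSet (V : Type*) : Set (V × ℕ) := {p | p.2 % 2 = 0}

omit [DecidableEq V] in
lemma label_merge (k : ℕ) (p : (V × ℕ → unitInterval) × (V × ℕ → unitInterval)) :
    label k (merge (labSet V) p) = label k p.1 := by
  ext v
  unfold label merge
  have : ((v, 2 * k) : V × ℕ) ∈ labSet V := by simp [labSet]
  rw [if_pos this]

omit [DecidableEq V] in
lemma noise_merge (k : ℕ) (p : (V × ℕ → unitInterval) × (V × ℕ → unitInterval)) :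
    noise k (merge (labSet V) p) = noise k p.2 := by
  ext v
  unfold noise merge
  have : ((v, 2 * k + 1) : V × ℕ) ∉ labSet V := by
    simp [labSet, Nat.add_mod]
  rw [if_neg this]

lemma xr_merge (β a : ℝ) {F D : Finset V} (hDF : D ⊆ F) (ℒ : ℕ → List V)
    (h1 : ∀ k, (ℒ k).Nodup) (h2 : ∀ k, (ℒ k).toFinset = F)
    {p : (V × ℕ → unitInterval) × (V × ℕ → unitInterval)}
    (h3 : ∀ k, (ℒ k).Pairwise (fun x y => label k p.1 x < label k p.1 y)) (k : ℕ) :
    xr G β a D k (merge (labSet V) p) = xf G β a D ℒ k p.2 := by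
  induction k with
  | zero => rfl
  | succ k ih =>
    change roundF G β a D (label k (merge (labSet V) p)) (noise k (merge (labSet V) p))
      (xr G β a D k (merge (labSet V) p)) = run G β a D (ℒ k) (noise k p.2) (xf G β a D ℒ k p.2)
    rw [ih, label_merge, noise_merge]
    exact roundF_eq β a hDF _ _ (h1 k) (h2 k) (h3 k)

lemma volume_singleton_I (x : unitInterval) : (volume : Measure unitInterval) {x} = 0 := by
  simp

omit [DecidableEq V] in
lemma ae_injective [Countable V] :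
    ∀ᵐ ω ∂iidLaw (V × ℕ), ∀ k, Function.Injective (label (V := V) k ω) := by
  rw [ae_all_iff]
  intro k
  have h : ∀ u v : V, u ≠ v → ∀ᵐ ω ∂iidLaw (V × ℕ), label k ω u ≠ label k ω v := by
    intro u v huv
    have hne : ((u, 2 * k) : V × ℕ) ≠ (v, 2 * k) := fun h => huv (Prod.mk.inj h).1
    have hmap := Measure.infinitePi_map_eval_prod (P := fun _ : V × ℕ =>
      (volume : Measure unitInterval)) hne
    have hdiag : MeasurableSet {p : unitInterval × unitInterval | p.1 = p.2} :=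
      measurableSet_eq_fun measurable_fst measurable_snd
    have hz : ((volume : Measure unitInterval).prod (volume : Measure unitInterval))
        {p : unitInterval × unitInterval | p.1 = p.2} = 0 := by
      rw [Measure.measure_prod_null hdiag]
      apply Filter.Eventually.of_forall
      intro x
      have : Prod.mk x ⁻¹' {p : unitInterval × unitInterval | p.1 = p.2} = {x} := by
        ext y; simp [eq_comm]
      simp only [this, Pi.zero_apply]
      exact volume_singleton_I x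
    rw [← hmap, Measure.map_apply (by fun_prop) hdiag] at hz
    rw [ae_iff]
    have hsub : {ω : V × ℕ → unitInterval | ¬ label k ω u ≠ label k ω v} ⊆
        (fun ω : V × ℕ → unitInterval => (ω (u, 2 * k), ω (v, 2 * k))) ⁻¹'
          {p : unitInterval × unitInterval | p.1 = p.2} := by
      intro ω hω
      simp only [Set.mem_setOf_eq, ne_eq, not_not, label] at hω
      simp only [Set.mem_preimage, Set.mem_setOf_eq]
      exact Subtype.ext hω
    exact measure_mono_null hsub hz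
  have h' : ∀ᵐ ω ∂iidLaw (V × ℕ), ∀ u v : V, u ≠ v → label k ω u ≠ label k ω v := by
    rw [ae_all_iff]; intro u
    rw [ae_all_iff]; intro v
    by_cases huv : u = v
    · exact Filter.Eventually.of_forall fun _ h => absurd huv h
    · filter_upwards [h u v huv] with ω hω _ using hω
  filter_upwards [h'] with ω hω u v huv
  by_contra hne
  exact hω u v hne huv

lemma integral_merge {ι : Type*} (A : Set ι) {H : (ι → unitInterval) → ℝ} (hH : Measurable H)
    {c : ℝ} (hb : ∀ ω, |H ω| ≤ c) :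
    ∫ ω, H ω ∂iidLaw ι = ∫ ω, (∫ ω', H (merge A (ω, ω')) ∂iidLaw ι) ∂iidLaw ι := by
  have key : ∫ ω, H ω ∂iidLaw ι = ∫ p, H (merge A p) ∂((iidLaw ι).prod (iidLaw ι)) := by
    conv_lhs => rw [← (measurePreserving_merge A).map_eq]
    exact integral_map (measurable_merge A).aemeasurable hH.aestronglyMeasurable
  rw [key, integral_prod]
  apply Integrable.of_bound (C := c)
  · exact (hH.comp (measurable_merge A)).aestronglyMeasurable
  · exact Filter.Eventually.of_forall fun p => hb _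

lemma abs_inner_le {ι : Type*} {A : Set ι} {H : (ι → unitInterval) → ℝ} {c : ℝ}
    (hb : ∀ ω, |H ω| ≤ c) (ω : ι → unitInterval) :
    |∫ ω', H (merge A (ω, ω')) ∂iidLaw ι| ≤ c := by
  have hb' : ∀ ω', ‖H (merge A (ω, ω'))‖ ≤ c := fun ω' => hb _
  have := norm_integral_le_of_norm_le_const (μ := iidLaw ι) (Filter.Eventually.of_forall hb')
  simpa using this

lemma measurable_inner {ι : Type*} (A : Set ι) {H : (ι → unitInterval) → ℝ} (hH : Measurable H) :
    Measurable fun ω => ∫ ω', H (merge A (ω, ω')) ∂iidLaw ι := by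
  have h1 : Measurable fun p : (ι → unitInterval) × (ι → unitInterval) => H (merge A p) :=
    hH.comp (measurable_merge A)
  exact (h1.stronglyMeasurable.integral_prod_right').measurable

lemma integral_le_of_merge {ι : Type*} (A : Set ι) {H : (ι → unitInterval) → ℝ}
    (hH : Measurable H) {c : ℝ} (hb : ∀ ω, |H ω| ≤ c) {C : ℝ}
    (h : ∀ᵐ ω ∂iidLaw ι, ∫ ω', H (merge A (ω, ω')) ∂iidLaw ι ≤ C) :
    ∫ ω, H ω ∂iidLaw ι ≤ C := by
  rw [integral_merge A hH hb]
  calc ∫ ω, (∫ ω', H (merge A (ω, ω')) ∂iidLaw ι) ∂iidLaw ι ≤ ∫ _ω, C ∂iidLaw ι := by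
        apply integral_mono_ae _ (integrable_const _) h
        exact integrable_of_meas_bdd (measurable_inner A hH) (abs_inner_le hb)
    _ = C := by simp

lemma integral_eq_of_merge {ι : Type*} (A : Set ι) {H : (ι → unitInterval) → ℝ}
    (hH : Measurable H) {c : ℝ} (hb : ∀ ω, |H ω| ≤ c) {C : ℝ}
    (h : ∀ᵐ ω ∂iidLaw ι, ∫ ω', H (merge A (ω, ω')) ∂iidLaw ι = C) :
    ∫ ω, H ω ∂iidLaw ι = C := by
  rw [integral_merge A hH hb, integral_congr_ae h]
  simp

/-- Choose sorted lists in every round. -/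
lemma exists_lists (F : Finset V) {ω : V × ℕ → unitInterval}
    (hinj : ∀ k, Function.Injective (label (V := V) k ω)) :
    ∃ ℒ : ℕ → List V, (∀ k, (ℒ k).Nodup) ∧ (∀ k, (ℒ k).toFinset = F) ∧
      ∀ k, (ℒ k).Pairwise (fun x y => label k ω x < label k ω y) := by
  have h : ∀ k, ∃ L : List V, L.Nodup ∧ L.toFinset = F ∧
      L.Pairwise (fun x y => label k ω x < label k ω y) :=
    fun k => exists_sorted (label k ω) F (hinj k).injOn
  choose ℒ hℒ using h
  exact ⟨ℒ, fun k => (hℒ k).1, fun k => (hℒ k).2.1, fun k => (hℒ k).2.2⟩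

section Transfer

variable {d : ℕ} {lam rho eps c1 : ℝ} {D' : Finset V} {δ : V → ℕ}

lemma xr_bound [Countable V] [G.LocallyFinite] (hG : G.IsTree) (hreg : G.IsRegularOfDegree d)
    (hβ : 0 ≤ β) (hp : Par d (Real.tanh β) lam rho eps c1 a)
    (hδ : ∀ v w, G.Adj v w → δ v ≤ δ w + 1) (hδ0 : ∀ v, v ∉ D ∨ v ∉ D' → δ v = 0)
    (k : ℕ) (v : V) :
    ∫ ω, (mag G β D (xr G β a D k ω) v - mag G β D' (xr G β a D' k ω) v) ^ 2
      ∂iidLaw (V × ℕ) ≤ 4 * 2 ^ k * rho ^ δ v := by
  apply integral_le_of_merge (labSet V) (c := 4)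
  · exact (((measurable_mag β D v).comp (measurable_xr β a D k)).sub
      ((measurable_mag β D' v).comp (measurable_xr β a D' k))).pow_const 2
  · intro ω; exact mag_sub_sq_le v
  · filter_upwards [ae_injective (V := V)] with ω hω
    obtain ⟨ℒ, h1, h2, h3⟩ := exists_lists (D ∪ D') hω
    have e1 : ∀ ω', xr G β a D k (merge (labSet V) (ω, ω')) = xf G β a D ℒ k ω' :=
      fun ω' => xr_merge β a subset_union_left ℒ h1 h2 (p := (ω, ω')) h3 k
    have e2 : ∀ ω', xr G β a D' k (merge (labSet V) (ω, ω')) = xf G β a D' ℒ k ω' :=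
      fun ω' => xr_merge β a subset_union_right ℒ h1 h2 (p := (ω, ω')) h3 k
    simp only [e1, e2]
    exact xf_bound hG hreg hβ hp hδ hδ0 ℒ h1 k v

lemma xr_gx [Countable V] (ha0 : 0 ≤ a) (ha : a ≤ 1 / 2) (f : Finset V → ℝ) (k : ℕ) :
    ∫ ω, gx G β D (xr G β a D k ω) f ∂iidLaw (V × ℕ) = gx G β D 0 f := by
  obtain ⟨c, hc⟩ : ∃ c : ℝ, ∀ S ⊆ D, |f S| ≤ c := by
    refine ⟨∑ S ∈ D.powerset, |f S|, fun S hS => ?_⟩
    exact Finset.single_le_sum (f := fun S => |f S|) (fun i _ => abs_nonneg _)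
      (mem_powerset.mpr hS)
  apply integral_eq_of_merge (labSet V) (c := c)
  · exact (measurable_gx β D f).comp (measurable_xr β a D k)
  · intro ω; exact abs_gx_le hc
  · filter_upwards [ae_injective (V := V)] with ω hω
    obtain ⟨ℒ, h1, h2, h3⟩ := exists_lists D hω
    have e1 : ∀ ω', xr G β a D k (merge (labSet V) (ω, ω')) = xf G β a D ℒ k ω' :=
      fun ω' => xr_merge β a (Finset.Subset.refl D) ℒ h1 h2 (p := (ω, ω')) h3 k
    simp only [e1]
    exact integral_gx_xf ha0 ha f ℒ h1 k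

lemma xr_polar [Countable V] (ha0 : 0 ≤ a) (ha : a ≤ 1 / 2) {v : V} (hv : v ∈ D) (k : ℕ) :
    ∫ ω, (1 - mag G β D (xr G β a D k ω) v ^ 2) ∂iidLaw (V × ℕ) ≤ 1 / (1 + a ^ 2 / 6 * k) := by
  apply integral_le_of_merge (labSet V) (c := 1)
  · exact (((measurable_mag β D v).comp (measurable_xr β a D k)).pow_const 2).const_sub 1
  · intro ω
    have h4 := sq_le_one_of_abs (abs_mag_le (G := G) (β := β) (D := D) (h := xr G β a D k ω) v)
    have h5 := sq_nonneg (mag G β D (xr G β a D k ω) v)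
    rw [abs_le]; constructor <;> linarith
  · filter_upwards [ae_injective (V := V)] with ω hω
    obtain ⟨ℒ, h1, h2, h3⟩ := exists_lists D hω
    have e1 : ∀ ω', xr G β a D k (merge (labSet V) (ω, ω')) = xf G β a D ℒ k ω' :=
      fun ω' => xr_merge β a (Finset.Subset.refl D) ℒ h1 h2 (p := (ω, ω')) h3 k
    simp only [e1]
    have h := xf_polar (G := G) (β := β) ha0 ha hv ℒ h1
      (fun k => by rw [← List.mem_toFinset, h2]; exact hv) k
    rw [integral_sub (integrable_const _)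
      (integrable_mag_sq (G := G) (β := β) (D := D) (measurable_xf β a D ℒ k) v)]
    simpa using h

lemma xr_cauchy [Countable V] (ha0 : 0 ≤ a) (ha : a ≤ 1 / 2) {v : V} (hv : v ∈ D) {j k : ℕ}
    (hjk : j ≤ k) :
    ∫ ω, (mag G β D (xr G β a D k ω) v - mag G β D (xr G β a D j ω) v) ^ 2
      ∂iidLaw (V × ℕ) ≤ 1 / (1 + a ^ 2 / 6 * j) := by
  apply integral_le_of_merge (labSet V) (c := 4)
  · exact (((measurable_mag β D v).comp (measurable_xr β a D k)).sub
      ((measurable_mag β D v).comp (measurable_xr β a D j))).pow_const 2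
  · intro ω; exact mag_sub_sq_le v
  · filter_upwards [ae_injective (V := V)] with ω hω
    obtain ⟨ℒ, h1, h2, h3⟩ := exists_lists D hω
    have e1 : ∀ k, ∀ ω', xr G β a D k (merge (labSet V) (ω, ω')) = xf G β a D ℒ k ω' :=
      fun k ω' => xr_merge β a (Finset.Subset.refl D) ℒ h1 h2 (p := (ω, ω')) h3 k
    simp only [e1]
    have h := xf_polar (G := G) (β := β) ha0 ha hv ℒ h1
      (fun k => by rw [← List.mem_toFinset, h2]; exact hv) j
    exact (xf_cauchy ha0 ha v ℒ h1 hjk).trans h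

end Transfer

end Vale.Agent.P161
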