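import Mathlib

/-!
Counting vertices at a given distance in a regular graph.
-/

open Finset

namespace Vale.Agent.P161

variable {V : Type*} [DecidableEq V] {G : SimpleGraph V} [G.LocallyFinite]

/-- The sphere of radius `n` about `v`, as a finite set. -/
noncomputable def sph (G : SimpleGraph V) [G.LocallyFinite] (v : V) : ℕ → Finset V
  | 0 => {v}
  | n + 1 => {u ∈ (sph G v n).biUnion (fun x => G.neighborFinset x) | G.dist v u = n + 1}

lemma mem_sph (hG : G.Connected) {v u : V} {n : ℕ} : u ∈ sph G v n ↔ G.dist v u = n := by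
  induction n generalizing u with
  | zero =>
    simp only [sph, mem_singleton]
    rw [hG.dist_eq_zero_iff, eq_comm]
  | succ n ih =>
    simp only [sph, mem_filter, mem_biUnion, SimpleGraph.mem_neighborFinset]
    constructor
    · rintro ⟨_, h⟩; exact h
    · intro h
      refine ⟨?_, h⟩
      have hne : u ≠ v := by
        rintro rfl; rw [SimpleGraph.dist_self] at h; omega
      obtain ⟨p, hp⟩ := hG.exists_walk_length_eq_dist u v
      cases p with
      | nil => exact absurd rfl hne
      | cons hadj q =>
        rename_i w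
        refine ⟨w, ?_, hadj.symm⟩
        rw [ih]
        rw [SimpleGraph.Walk.length_cons] at hp
        have h1 : G.dist w v ≤ q.length := SimpleGraph.dist_le q
        have h2 : G.dist u v ≤ G.dist w v + 1 := by
          have := hG.dist_triangle (u := u) (v := w) (w := v)
          rw [SimpleGraph.dist_eq_one_iff_adj.mpr hadj] at this
          omega
        rw [G.dist_comm] at h ⊢
        omega

lemma card_sph_one_le {d : ℕ} (hd : G.IsRegularOfDegree d) (v : V) :
    (sph G v 1).card ≤ d := by
  have : sph G v 1 ⊆ G.neighborFinset v := by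
    intro u hu
    simp only [sph, mem_filter, mem_biUnion, mem_singleton] at hu
    obtain ⟨⟨x, rfl, hx⟩, _⟩ := hu
    exact hx
  calc (sph G v 1).card ≤ (G.neighborFinset v).card := card_le_card this
    _ = d := hd v

lemma card_sph_succ_le (hG : G.Connected) {d : ℕ} (hd : G.IsRegularOfDegree d) (v : V) (n : ℕ) :
    (sph G v (n + 2)).card ≤ (sph G v (n + 1)).card * (d - 1) := by
  have hsub : sph G v (n + 2) ⊆ (sph G v (n + 1)).biUnion
      (fun x => {u ∈ G.neighborFinset x | G.dist v u = n + 2}) := by
    intro u hu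
    have hu' := hu
    simp only [sph, mem_filter, mem_biUnion] at hu
    obtain ⟨⟨x, hx, hux⟩, hd'⟩ := hu
    simp only [mem_biUnion, mem_filter]
    refine ⟨x, ?_, hux, hd'⟩
    simp only [sph, mem_filter, mem_biUnion]
    exact hx
  calc (sph G v (n + 2)).card ≤ _ := card_le_card hsub
    _ ≤ (sph G v (n + 1)).card * (d - 1) := by
      apply Finset.card_biUnion_le_card_mul
      intro x hx
      rw [mem_sph hG] at hx
      -- x has a neighbour closer to v
      have hxv : x ∈ sph G v (n + 1) := (mem_sph hG).mpr hx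
      simp only [sph, mem_filter, mem_biUnion, SimpleGraph.mem_neighborFinset] at hxv
      obtain ⟨⟨y, hy, hyx⟩, _⟩ := hxv
      rw [mem_sph hG] at hy
      have hss : ({u ∈ G.neighborFinset x | G.dist v u = n + 2} : Finset V) ⊆
          (G.neighborFinset x).erase y := by
        intro u hu
        rw [mem_filter] at hu
        rw [mem_erase]
        refine ⟨?_, hu.1⟩
        rintro rfl
        omega
      have hymem : y ∈ G.neighborFinset x := by
        rw [SimpleGraph.mem_neighborFinset]; exact hyx.symm
      calc _ ≤ ((G.neighborFinset x).erase y).card := card_le_card hss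
        _ = (G.neighborFinset x).card - 1 := card_erase_of_mem hymem
        _ = d - 1 := by rw [SimpleGraph.card_neighborFinset_eq_degree, hd x]

lemma card_sph_le (hG : G.Connected) {d : ℕ} (hd2 : 2 ≤ d) (hd : G.IsRegularOfDegree d) (v : V)
    (n : ℕ) : ((sph G v n).card : ℝ) ≤ 2 * ((d : ℝ) - 1) ^ n := by
  have hd1 : (1 : ℝ) ≤ (d : ℝ) - 1 := by
    have : (2 : ℝ) ≤ d := by exact_mod_cast hd2
    linarith
  match n with
  | 0 => simp [sph]
  | 1 =>
    have h : ((sph G v 1).card : ℝ) ≤ d := by exact_mod_cast card_sph_one_le hd v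
    rw [pow_one]
    linarith
  | n + 2 =>
    have ih := card_sph_le hG hd2 hd v (n + 1)
    have h : ((sph G v (n + 2)).card : ℝ) ≤ (sph G v (n + 1)).card * ((d : ℝ) - 1) := by
      have h1 := card_sph_succ_le hG hd v n
      have h2 : ((d - 1 : ℕ) : ℝ) = (d : ℝ) - 1 := by
        rw [Nat.cast_sub (by omega)]; simp
      rw [← h2]
      exact_mod_cast h1
    calc ((sph G v (n + 2)).card : ℝ) ≤ (sph G v (n + 1)).card * ((d : ℝ) - 1) := h
      _ ≤ (2 * ((d : ℝ) - 1) ^ (n + 1)) * ((d : ℝ) - 1) := by gcongr
      _ = _ := by ring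

/-- Weighted sums over finite sets of vertices. -/
lemma sum_pow_dist_le (hG : G.Connected) {d : ℕ} (hd2 : 2 ≤ d) (hd : G.IsRegularOfDegree d)
    {lam : ℝ} (h0 : 0 ≤ lam) (h1 : ((d : ℝ) - 1) * lam < 1) (v : V) (L : Finset V) :
    ∑ u ∈ L, lam ^ G.dist v u ≤ 2 / (1 - ((d : ℝ) - 1) * lam) := by
  have hd1 : (1 : ℝ) ≤ (d : ℝ) - 1 := by
    have : (2 : ℝ) ≤ d := by exact_mod_cast hd2
    linarith
  set N := L.sup (fun u => G.dist v u) with hN
  have hsub : L ⊆ (range (N + 1)).biUnion (fun n => sph G v n) := by
    intro u hu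
    rw [mem_biUnion]
    refine ⟨G.dist v u, ?_, (mem_sph hG).mpr rfl⟩
    rw [mem_range]
    have : G.dist v u ≤ N := Finset.le_sup (f := fun u => G.dist v u) hu
    omega
  calc ∑ u ∈ L, lam ^ G.dist v u ≤ ∑ u ∈ (range (N + 1)).biUnion (fun n => sph G v n),
        lam ^ G.dist v u := by
        apply Finset.sum_le_sum_of_subset_of_nonneg hsub
        intro i _ _; positivity
    _ ≤ ∑ n ∈ range (N + 1), ∑ u ∈ sph G v n, lam ^ G.dist v u := by
        apply le_of_eq
        apply Finset.sum_biUnion
        intro i _ j _ hij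
        rw [Function.onFun, Finset.disjoint_left]
        intro x hx hx'
        rw [mem_sph hG] at hx hx'
        exact hij (hx.symm.trans hx')
    _ ≤ ∑ n ∈ range (N + 1), 2 * (((d : ℝ) - 1) * lam) ^ n := by
        apply Finset.sum_le_sum
        intro n _
        have : ∑ u ∈ sph G v n, lam ^ G.dist v u = (sph G v n).card * lam ^ n := by
          rw [Finset.sum_congr rfl (g := fun _ => lam ^ n)
            (fun u hu => by rw [(mem_sph hG).mp hu])]
          rw [Finset.sum_const, nsmul_eq_mul]
        rw [this, mul_pow, ← mul_assoc]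
        have := card_sph_le hG hd2 hd v n
        gcongr
    _ = 2 * ∑ n ∈ range (N + 1), (((d : ℝ) - 1) * lam) ^ n := by rw [Finset.mul_sum]
    _ ≤ 2 * (1 / (1 - ((d : ℝ) - 1) * lam)) := by
        have hq : 0 ≤ ((d : ℝ) - 1) * lam := by positivity
        have := (summable_geometric_of_lt_one hq h1).sum_le_tsum (range (N + 1))
          (fun i _ => by positivity)
        rw [tsum_geometric_of_lt_one hq h1] at this
        rw [one_div]
        gcongr
    _ = _ := by ring

/-- A connected locally finite graph is countable. -/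
lemma countable_of_connected (hG : G.Connected) : Countable V := by
  obtain ⟨v⟩ := hG.nonempty
  have : (Set.univ : Set V) = ⋃ n : ℕ, (sph G v n : Set V) := by
    ext u
    simp only [Set.mem_univ, Set.mem_iUnion, true_iff]
    exact ⟨G.dist v u, by rw [Finset.mem_coe, mem_sph hG]⟩
  rw [← Set.countable_univ_iff, this]
  exact Set.countable_iUnion fun n => (sph G v n).countable_toSet

/-- The ball of radius `n` about `o`. -/
noncomputable def bal (G : SimpleGraph V) [G.LocallyFinite] (o : V) (n : ℕ) : Finset V :=
  (range (n + 1)).biUnion (fun k => sph G o k)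

lemma mem_bal (hG : G.Connected) {o v : V} {n : ℕ} : v ∈ bal G o n ↔ G.dist o v ≤ n := by
  unfold bal
  rw [mem_biUnion]
  constructor
  · rintro ⟨k, hk, hv⟩
    rw [mem_range] at hk
    rw [mem_sph hG] at hv
    omega
  · intro h
    exact ⟨G.dist o v, by rw [mem_range]; omega, (mem_sph hG).mpr rfl⟩

end Vale.Agent.P161
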