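import Vale.Agent.Lib.P161.Step
import Vale.Agent.Lib.P161.Sphere
import Vale.Agent.Lib.P161.Prob

/-!
One round of observations in two volumes: `L²` stability.
-/

open Finset MeasureTheory

namespace Vale.Agent.P161

variable {V : Type*} [DecidableEq V] {G : SimpleGraph V} [DecidableRel G.Adj]

/-! ### Measurability -/

lemma measurable_gx (β : ℝ) (D : Finset V) (f : Finset V → ℝ) :
    Measurable fun h : V → ℝ => gx G β D h f := by
  unfold gx gs en
  fun_prop

lemma measurable_mag (β : ℝ) (D : Finset V) (v : V) :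
    Measurable fun h : V → ℝ => mag G β D h v := measurable_gx β D _

lemma measurable_cov (β : ℝ) (D : Finset V) (v u : V) :
    Measurable fun h : V → ℝ => cov G β D h v u := by
  unfold cov
  exact (measurable_gx β D _).sub ((measurable_mag β D v).mul (measurable_mag β D u))

lemma measurable_artanh : Measurable Real.artanh := by
  have : Real.artanh = fun x => Real.log √((1 + x) / (1 - x)) := by
    ext x; rfl
  rw [this]
  fun_prop

lemma measurable_stepF (β a : ℝ) (D : Finset V) (v : V) :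
    Measurable fun p : ℝ × (V → ℝ) => stepF G β a D v p.1 p.2 := by
  by_cases hv : v ∈ D
  · unfold stepF
    simp only [if_pos hv]
    rw [measurable_pi_iff]
    intro w
    by_cases hw : w = v
    · subst hw
      simp only [Function.update_self]
      have h1 : Measurable fun p : ℝ × (V → ℝ) => qf (a * mag G β D p.2 w) p.1 := by
        have : (fun p : ℝ × (V → ℝ) => qf (a * mag G β D p.2 w) p.1) =
          (fun q : ℝ × ℝ => qf q.1 q.2) ∘ (fun p => (a * mag G β D p.2 w, p.1)) := rfl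
        rw [this]
        apply qf_measurable.comp
        exact (((measurable_mag β D w).comp measurable_snd).const_mul a).prodMk measurable_fst
      have h2 : Measurable fun p : ℝ × (V → ℝ) => Real.artanh (a * qf (a * mag G β D p.2 w) p.1) :=
        measurable_artanh.comp (h1.const_mul a)
      exact ((measurable_pi_apply w).comp measurable_snd).add h2
    · simp only [Function.update_of_ne hw]
      exact (measurable_pi_apply w).comp measurable_snd
  · simp only [stepF_of_notMem hv]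
    exact measurable_snd

variable (G) in
/-- Run through a list of observations. -/
noncomputable def run (β a : ℝ) (D : Finset V) (L : List V) (ξ : V → ℝ) (h : V → ℝ) : V → ℝ :=
  L.foldl (fun h v => stepF G β a D v (ξ v) h) h

lemma run_append (β a : ℝ) (D : Finset V) (L : List V) (u : V) (ξ h : V → ℝ) :
    run G β a D (L ++ [u]) ξ h = stepF G β a D u (ξ u) (run G β a D L ξ h) := by
  unfold run
  rw [List.foldl_append]
  rfl

lemma measurable_run (β a : ℝ) (D : Finset V) (L : List V) :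
    Measurable fun p : (V → ℝ) × (V → ℝ) => run G β a D L p.1 p.2 := by
  induction L using List.reverseRecOn with
  | nil => exact measurable_snd
  | append_singleton L u ih =>
    simp only [run_append]
    have : (fun p : (V → ℝ) × (V → ℝ) => stepF G β a D u (p.1 u) (run G β a D L p.1 p.2)) =
        (fun q : ℝ × (V → ℝ) => stepF G β a D u q.1 q.2) ∘
          (fun p => (p.1 u, run G β a D L p.1 p.2)) := rfl
    rw [this]
    apply (measurable_stepF β a D u).comp
    exact ((measurable_pi_apply u).comp measurable_fst).prodMk ih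

lemma run_congr_noise (β a : ℝ) (D : Finset V) (L : List V) {ξ ξ' : V → ℝ} (h : V → ℝ)
    (hξ : ∀ v ∈ L, ξ v = ξ' v) : run G β a D L ξ h = run G β a D L ξ' h := by
  induction L using List.reverseRecOn with
  | nil => rfl
  | append_singleton L u ih =>
    rw [run_append, run_append, ih (fun v hv => hξ v (by simp [hv])), hξ u (by simp)]

/-- Noise used in round `k`. -/
def noise (k : ℕ) (ω : V × ℕ → unitInterval) : V → ℝ := fun v => (ω (v, 2 * k + 1) : ℝ)

/-- Order labels used in round `k`. -/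
def label (k : ℕ) (ω : V × ℕ → unitInterval) : V → ℝ := fun v => (ω (v, 2 * k) : ℝ)

omit [DecidableEq V] in
lemma measurable_noise (k : ℕ) : Measurable (noise (V := V) k) := by
  unfold noise
  rw [measurable_pi_iff]
  intro v
  exact measurable_subtype_coe.comp (measurable_pi_apply _)

omit [DecidableEq V] in
lemma measurable_label (k : ℕ) : Measurable (label (V := V) k) := by
  unfold label
  rw [measurable_pi_iff]
  intro v
  exact measurable_subtype_coe.comp (measurable_pi_apply _)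

/-! ### Parameters -/

/-- The relations between the constants used in the stability estimate. -/
structure Par (d : ℕ) (θ lam rho eps c1 a : ℝ) : Prop where
  hθ0 : 0 ≤ θ
  hθ1 : θ < 1
  hlam : 0 < lam
  hrho0 : 0 < rho
  hrho1 : rho < 1
  hd2 : 2 ≤ d
  hd : ((d : ℝ) - 1) * lam < 1
  heps : 0 < eps
  hprod : (1 + eps) * θ ^ 2 < lam * rho
  hc1 : 4 ≤ c1
  hc1' : (1 + eps) * θ ^ 2 * c1 + 2 * (2 * (1 + 1 / eps) * (2 / (1 - θ) ^ 2) ^ 2) ≤
    c1 * (lam * rho)
  ha0 : 0 < a
  ha : a ≤ 1 / 2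
  ha' : (8 * c1 + 132) * a ^ 2 * (2 / (1 - ((d : ℝ) - 1) * lam)) ≤ 1 / 2

lemma Par.lam_le_one {d : ℕ} {θ lam rho eps c1 a : ℝ} (hp : Par d θ lam rho eps c1 a) :
    lam ≤ 1 := by
  have h1 := hp.hd
  have h2 := hp.hlam
  have h3 : (2 : ℝ) ≤ d := by exact_mod_cast hp.hd2
  nlinarith

lemma Par.theta_sq_le {d : ℕ} {θ lam rho eps c1 a : ℝ} (hp : Par d θ lam rho eps c1 a) :
    θ ^ 2 ≤ lam * rho := by
  have h1 := hp.hprod
  have h2 := hp.heps
  nlinarith [sq_nonneg θ]

lemma Par.theta_pow_le {d : ℕ} {θ lam rho eps c1 a : ℝ} (hp : Par d θ lam rho eps c1 a) (n : ℕ) :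
    (θ ^ n) ^ 2 ≤ lam ^ n * rho ^ n := by
  rw [← mul_pow, ← pow_mul, mul_comm n 2, pow_mul]
  exact pow_le_pow_left₀ (sq_nonneg θ) hp.theta_sq_le n

lemma exists_par {d : ℕ} (hd2 : 2 ≤ d) {θ : ℝ} (h0 : 0 ≤ θ) (h1 : ((d : ℝ) - 1) * θ ^ 2 < 1) :
    ∃ lam rho eps c1 a : ℝ, Par d θ lam rho eps c1 a := by
  have hd1 : (1 : ℝ) ≤ (d : ℝ) - 1 := by
    have : (2 : ℝ) ≤ d := by exact_mod_cast hd2
    linarith
  have hθ1 : θ < 1 := by
    by_contra hcon
    push Not at hcon
    nlinarith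
  set t := θ ^ 2 with ht
  have ht0 : 0 ≤ t := sq_nonneg θ
  have ht1 : t < 1 / ((d : ℝ) - 1) := by
    rw [lt_div_iff₀ (by linarith)]; linarith
  set lam := (t + 1 / ((d : ℝ) - 1)) / 2 with hlam
  have hlamt : t < lam := by rw [hlam]; linarith
  have hlam0 : 0 < lam := lt_of_le_of_lt ht0 hlamt
  have hlam1 : ((d : ℝ) - 1) * lam < 1 := by
    have : lam < 1 / ((d : ℝ) - 1) := by rw [hlam]; linarith
    rw [lt_div_iff₀ (by linarith)] at this
    linarith
  set rho := (1 + t / lam) / 2 with hrho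
  have htl : t / lam < 1 := by rw [div_lt_one hlam0]; exact hlamt
  have htl0 : 0 ≤ t / lam := div_nonneg ht0 hlam0.le
  have hrho0 : 0 < rho := by rw [hrho]; linarith
  have hrho1 : rho < 1 := by rw [hrho]; linarith
  have hlr : lam * rho = (lam + t) / 2 := by
    rw [hrho]; field_simp
  have hlrt : t < lam * rho := by rw [hlr]; linarith
  have ht1' : t ≤ 1 := by nlinarith
  set eps := (lam * rho - t) / 2 with heps
  have heps0 : 0 < eps := by rw [heps]; linarith
  have hprod : (1 + eps) * t < lam * rho := by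
    have : eps * t ≤ eps := by nlinarith
    have : (1 + eps) * t ≤ t + eps := by nlinarith
    rw [heps] at this ⊢
    linarith
  set ce := 2 * (1 + 1 / eps) * (2 / (1 - θ) ^ 2) ^ 2 with hce
  have hce0 : 0 ≤ ce := by rw [hce]; positivity
  set gap := lam * rho - (1 + eps) * t with hgap
  have hgap0 : 0 < gap := by rw [hgap]; linarith
  set c1 := max 4 (2 * ce / gap) with hc1
  have hc14 : 4 ≤ c1 := le_max_left _ _
  have hc1' : 2 * ce ≤ c1 * gap := by
    have : 2 * ce / gap ≤ c1 := le_max_right _ _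
    rwa [div_le_iff₀ hgap0] at this
  set Sg := 2 / (1 - ((d : ℝ) - 1) * lam) with hSg
  have hSg0 : 0 < Sg := div_pos (by norm_num) (by linarith)
  set q := 1 / (2 * (8 * c1 + 132) * Sg) with hq
  have hq0 : 0 < q := by rw [hq]; positivity
  refine ⟨lam, rho, eps, c1, min (1 / 2) (√q), ?_⟩
  refine ⟨h0, hθ1, hlam0, hrho0, hrho1, hd2, hlam1, heps0, hprod, hc14, ?_, ?_, min_le_left _ _, ?_⟩
  · have : c1 * (lam * rho) = c1 * gap + (1 + eps) * t * c1 := by rw [hgap]; ring
    rw [this]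
    linarith
  · exact lt_min (by norm_num) (Real.sqrt_pos.mpr hq0)
  · have hsq : (min (1 / 2) (√q)) ^ 2 ≤ q := by
      calc (min (1 / 2) (√q)) ^ 2 ≤ (√q) ^ 2 := by
            apply pow_le_pow_left₀ (le_min (by norm_num) (Real.sqrt_nonneg q)) (min_le_right _ _)
        _ = q := Real.sq_sqrt hq0.le
    calc (8 * c1 + 132) * (min (1 / 2) (√q)) ^ 2 * Sg ≤ (8 * c1 + 132) * q * Sg := by gcongr
      _ = 1 / 2 := by
        rw [hq]
        have h2 : (8 * c1 + 132) ≠ 0 := by linarith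
        field_simp

/-! ### Comparison of covariances in mean square -/

lemma integrable_of_meas_bdd {Ω : Type*} [MeasurableSpace Ω] {P : Measure Ω}
    [IsProbabilityMeasure P] {f : Ω → ℝ} (hf : Measurable f) {c : ℝ} (hc : ∀ ω, |f ω| ≤ c) :
    Integrable f P :=
  Integrable.of_bound hf.aestronglyMeasurable c (Filter.Eventually.of_forall hc)

lemma mag_sub_sq_le {β : ℝ} {D D' : Finset V} {h h' : V → ℝ} (v : V) :
    |(mag G β D h v - mag G β D' h' v) ^ 2| ≤ 4 := by
  have h1 := abs_mag_le (G := G) (β := β) (D := D) (h := h) v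
  have h2 := abs_mag_le (G := G) (β := β) (D := D') (h := h') v
  rw [abs_of_nonneg (sq_nonneg _)]
  have h3 := abs_le.mp h1
  have h4 := abs_le.mp h2
  nlinarith

lemma cov_sub_sq_le (hG : G.IsTree) {β : ℝ} (hβ : 0 ≤ β) {D D' : Finset V} {h h' : V → ℝ}
    (v u : V) :
    |(cov G β D h v u - cov G β D' h' v u) ^ 2| ≤ 4 * (Real.tanh β ^ G.dist v u) ^ 2 := by
  have h1 := abs_cov_le (D := D) (h := h) hG hβ v u
  have h2 := abs_cov_le (D := D') (h := h') hG hβ v u
  rw [abs_of_nonneg (sq_nonneg _), ← sq_abs]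
  have h3 : |cov G β D h v u - cov G β D' h' v u| ≤ 2 * Real.tanh β ^ G.dist v u := by
    calc _ ≤ |cov G β D h v u| + |cov G β D' h' v u| := abs_sub _ _
      _ ≤ _ := by linarith
  calc |cov G β D h v u - cov G β D' h' v u| ^ 2 ≤ (2 * Real.tanh β ^ G.dist v u) ^ 2 := by gcongr
    _ = _ := by ring

section Compare

variable {d : ℕ} {β lam rho eps c1 a : ℝ} {D D' : Finset V} {δ : V → ℕ}

omit [DecidableEq V] [DecidableRel G.Adj] in
lemma profile_dist (hG : G.Connected) (hδ : ∀ v w, G.Adj v w → δ v ≤ δ w + 1) (v u : V) :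
    δ v ≤ δ u + G.dist v u := by
  induction hn : G.dist v u generalizing v with
  | zero =>
    rw [(hG.dist_eq_zero_iff).mp hn]; omega
  | succ n ih =>
    have hvu : v ≠ u := by
      rintro rfl
      rw [SimpleGraph.dist_self] at hn
      omega
    obtain ⟨w, hvw, hd⟩ := exists_adj_closer hG hvu
    have h1 := ih w (by omega)
    have h2 := hδ v w hvw
    omega

lemma integral_lin3 {Ω : Type*} [MeasurableSpace Ω] {P : Measure Ω} {f g k : Ω → ℝ}
    (hf : Integrable f P) (hg : Integrable g P) (hk : Integrable k P) (x y z : ℝ) :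
    ∫ ω, (x * f ω + (y * g ω + z * k ω)) ∂P =
      x * ∫ ω, f ω ∂P + (y * ∫ ω, g ω ∂P + z * ∫ ω, k ω ∂P) := by
  have h1 : Integrable (fun ω => y * g ω + z * k ω) P := (hg.const_mul y).add (hk.const_mul z)
  rw [integral_add (hf.const_mul x) h1, integral_add (hg.const_mul y) (hk.const_mul z),
    integral_const_mul, integral_const_mul, integral_const_mul]

lemma young_sq {eps x y : ℝ} (heps : 0 < eps) :
    (x + y) ^ 2 ≤ (1 + eps) * x ^ 2 + (1 + 1 / eps) * y ^ 2 := by
  have h3 : 0 ≤ (eps * x - y) ^ 2 / eps := by positivity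
  have e1 : (eps * x - y) ^ 2 / eps = eps * x ^ 2 - 2 * x * y + 1 / eps * y ^ 2 := by
    field_simp
    ring
  rw [e1] at h3
  nlinarith

lemma sq_bound_aux {eps θ A B C T Lc n : ℝ} (heps : 0 < eps)
    (h : |T| ≤ θ * A + Lc * n * (B + C)) :
    T ^ 2 ≤ (1 + eps) * θ ^ 2 * A ^ 2 +
      (2 * (1 + 1 / eps) * Lc ^ 2 * n ^ 2 * B ^ 2 +
        2 * (1 + 1 / eps) * Lc ^ 2 * n ^ 2 * C ^ 2) := by
  set x := θ * A with hx
  set y := Lc * n * (B + C) with hy
  have h5 : (B + C) ^ 2 ≤ 2 * (B ^ 2 + C ^ 2) := by nlinarith [sq_nonneg (B - C)]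
  have h6 : y ^ 2 ≤ Lc ^ 2 * n ^ 2 * (2 * (B ^ 2 + C ^ 2)) := by
    rw [hy]
    calc (Lc * n * (B + C)) ^ 2 = Lc ^ 2 * n ^ 2 * (B + C) ^ 2 := by ring
      _ ≤ _ := by gcongr
  calc T ^ 2 = |T| ^ 2 := (sq_abs _).symm
    _ ≤ (x + y) ^ 2 := by
        apply pow_le_pow_left₀ (abs_nonneg _) h
    _ ≤ (1 + eps) * x ^ 2 + (1 + 1 / eps) * y ^ 2 := young_sq heps
    _ ≤ (1 + eps) * x ^ 2 + (1 + 1 / eps) * (Lc ^ 2 * n ^ 2 * (2 * (B ^ 2 + C ^ 2))) := by gcongr
    _ = _ := by rw [hx]; ring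

lemma cov_diff_sq (hG : G.IsTree) (hβ : 0 ≤ β) {h h' : V → ℝ} {v w u : V}
    (hvw : G.Adj v w) (hv : v ∈ D) (hw : w ∈ D) (hv' : v ∈ D') (hw' : w ∈ D')
    (hu : G.dist v u = G.dist w u + 1) (heps : 0 < eps) {n : ℕ} (hn : G.dist w u = n) :
    (cov G β D h v u - cov G β D' h' v u) ^ 2 ≤
      (1 + eps) * Real.tanh β ^ 2 * (cov G β D h w u - cov G β D' h' w u) ^ 2 +
      ((2 * (1 + 1 / eps) * (2 / (1 - Real.tanh β) ^ 2) ^ 2) * (Real.tanh β ^ n) ^ 2 *
          (mag G β D h v - mag G β D' h' v) ^ 2 +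
       (2 * (1 + 1 / eps) * (2 / (1 - Real.tanh β) ^ 2) ^ 2) * (Real.tanh β ^ n) ^ 2 *
          (mag G β D h w - mag G β D' h' w) ^ 2) := by
  have h1 := cov_diff_step (h := h) (h' := h') hG hβ hvw hv hw hv' hw' hu
  rw [hn] at h1
  have h2 := sq_bound_aux heps h1
  simp only [sq_abs] at h2
  exact h2

lemma cov_bound_algebra {θ K : ℝ} {n dv dw : ℕ} (hp : Par d θ lam rho eps c1 a) (hK4 : 4 ≤ K)
    (hδw : dv ≤ dw + 1) :
    (1 + eps) * θ ^ 2 * (c1 * K * lam ^ n * rho ^ dw) +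
      ((2 * (1 + 1 / eps) * (2 / (1 - θ) ^ 2) ^ 2) * (θ ^ n) ^ 2 * (K * rho ^ dv) +
       (2 * (1 + 1 / eps) * (2 / (1 - θ) ^ 2) ^ 2) * (θ ^ n) ^ 2 * (K * rho ^ dw)) ≤
      c1 * K * lam ^ (n + 1) * rho ^ dv := by
  have hrho0 := hp.hrho0
  have hrho1 := hp.hrho1
  have hlam0 := hp.hlam
  have hc14 := hp.hc1
  have heps := hp.heps
  have hθ0 := hp.hθ0
  set ce := 2 * (1 + 1 / eps) * (2 / (1 - θ) ^ 2) ^ 2 with hce
  have hce0 : 0 ≤ ce := by rw [hce]; positivity
  have hc1' : (1 + eps) * θ ^ 2 * c1 + 2 * ce ≤ c1 * (lam * rho) := hp.hc1'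
  have hK0 : 0 ≤ K := by linarith
  have hrw : rho * rho ^ dw ≤ rho ^ dv := by
    rw [← pow_succ']
    exact pow_le_pow_of_le_one hrho0.le hrho1.le hδw
  have hrv : rho * rho ^ dv ≤ rho ^ dv := by
    have : 0 ≤ rho ^ dv := by positivity
    nlinarith
  have hθn : (θ ^ n) ^ 2 ≤ lam ^ n := by
    calc (θ ^ n) ^ 2 ≤ lam ^ n * rho ^ n := hp.theta_pow_le n
      _ ≤ lam ^ n * 1 := by
          gcongr
          exact pow_le_one₀ hrho0.le hrho1.le
      _ = lam ^ n := mul_one _
  have hcpos : 0 ≤ c1 := by linarith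
  apply le_of_mul_le_mul_left _ hrho0
  calc rho * ((1 + eps) * θ ^ 2 * (c1 * K * lam ^ n * rho ^ dw) +
      (ce * (θ ^ n) ^ 2 * (K * rho ^ dv) + ce * (θ ^ n) ^ 2 * (K * rho ^ dw)))
      = (1 + eps) * θ ^ 2 * c1 * K * lam ^ n * (rho * rho ^ dw) +
        (ce * (θ ^ n) ^ 2 * K * (rho * rho ^ dv) +
          ce * (θ ^ n) ^ 2 * K * (rho * rho ^ dw)) := by ring
    _ ≤ (1 + eps) * θ ^ 2 * c1 * K * lam ^ n * rho ^ dv +
        (ce * lam ^ n * K * rho ^ dv + ce * lam ^ n * K * rho ^ dv) := by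
        gcongr
    _ = ((1 + eps) * θ ^ 2 * c1 + 2 * ce) * (K * lam ^ n * rho ^ dv) := by ring
    _ ≤ (c1 * (lam * rho)) * (K * lam ^ n * rho ^ dv) := by
        gcongr
    _ = rho * (c1 * K * lam ^ (n + 1) * rho ^ dv) := by ring

lemma cov_bound (hG : G.IsTree) (hβ : 0 ≤ β) (hp : Par d (Real.tanh β) lam rho eps c1 a)
    (hδ : ∀ v w, G.Adj v w → δ v ≤ δ w + 1) (hδ0 : ∀ v, v ∉ D ∨ v ∉ D' → δ v = 0)
    {Ω : Type*} [MeasurableSpace Ω] {P : Measure Ω} [IsProbabilityMeasure P]
    {Y Y' : Ω → V → ℝ} (hY : Measurable Y) (hY' : Measurable Y') {K : ℝ} (hK4 : 4 ≤ K)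
    (hK : ∀ w, ∫ ω, (mag G β D (Y ω) w - mag G β D' (Y' ω) w) ^ 2 ∂P ≤ K * rho ^ δ w)
    (v u : V) :
    ∫ ω, (cov G β D (Y ω) v u - cov G β D' (Y' ω) v u) ^ 2 ∂P ≤
      c1 * K * lam ^ G.dist v u * rho ^ δ v := by
  have hθ0 := hp.hθ0
  have hrho0 := hp.hrho0
  have hrho1 := hp.hrho1
  have hlam0 := hp.hlam
  have hc14 := hp.hc1
  have heps := hp.heps
  have imag : ∀ w, Integrable (fun ω => (mag G β D (Y ω) w - mag G β D' (Y' ω) w) ^ 2) P :=
    fun w => integrable_of_meas_bdd ((((measurable_mag β D w).comp hY).sub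
      ((measurable_mag β D' w).comp hY')).pow_const 2) (fun ω => mag_sub_sq_le w)
  have icov : ∀ v u, Integrable
      (fun ω => (cov G β D (Y ω) v u - cov G β D' (Y' ω) v u) ^ 2) P :=
    fun v u => integrable_of_meas_bdd ((((measurable_cov β D v u).comp hY).sub
      ((measurable_cov β D' v u).comp hY')).pow_const 2) (fun ω => cov_sub_sq_le hG hβ v u)
  induction hn : G.dist v u generalizing v with
  | zero =>
    have hvu : v = u := (hG.connected.dist_eq_zero_iff).mp hn
    subst hvu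
    have hpt : ∀ ω, (cov G β D (Y ω) v v - cov G β D' (Y' ω) v v) ^ 2 ≤
        4 * (mag G β D (Y ω) v - mag G β D' (Y' ω) v) ^ 2 := by
      intro ω
      rw [cov_self, cov_self]
      have h1 := abs_le.mp (abs_mag_le (G := G) (β := β) (D := D) (h := Y ω) v)
      have h2 := abs_le.mp (abs_mag_le (G := G) (β := β) (D := D') (h := Y' ω) v)
      set x := mag G β D (Y ω) v
      set y := mag G β D' (Y' ω) v
      have e : (1 - x ^ 2 - (1 - y ^ 2)) ^ 2 = (x + y) ^ 2 * (x - y) ^ 2 := by ring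
      rw [e]
      have : (x + y) ^ 2 ≤ 4 := by nlinarith
      nlinarith [sq_nonneg (x - y)]
    calc ∫ ω, (cov G β D (Y ω) v v - cov G β D' (Y' ω) v v) ^ 2 ∂P
        ≤ ∫ ω, 4 * (mag G β D (Y ω) v - mag G β D' (Y' ω) v) ^ 2 ∂P :=
          integral_mono (icov v v) ((imag v).const_mul 4) hpt
      _ = 4 * ∫ ω, (mag G β D (Y ω) v - mag G β D' (Y' ω) v) ^ 2 ∂P := integral_const_mul _ _
      _ ≤ 4 * (K * rho ^ δ v) := by gcongr; exact hK v
      _ ≤ c1 * K * lam ^ 0 * rho ^ δ v := by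
          rw [pow_zero, mul_one, ← mul_assoc]
          gcongr
  | succ n ih =>
    have hvu : v ≠ u := by
      rintro rfl
      rw [SimpleGraph.dist_self] at hn
      omega
    obtain ⟨w, hvw, hd⟩ := exists_adj_closer hG.connected hvu
    have hwn : G.dist w u = n := by omega
    by_cases hδv : δ v ≤ n + 1
    · have hpt : ∀ ω, (cov G β D (Y ω) v u - cov G β D' (Y' ω) v u) ^ 2 ≤
          c1 * K * lam ^ (n + 1) * rho ^ δ v := by
        intro ω
        have h1 := cov_sub_sq_le hG hβ (D := D) (D' := D') (h := Y ω) (h' := Y' ω) v u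
        rw [hn] at h1
        have h2 := hp.theta_pow_le (n + 1)
        have h3 : rho ^ (n + 1) ≤ rho ^ δ v := pow_le_pow_of_le_one hrho0.le hrho1.le hδv
        calc _ ≤ |(cov G β D (Y ω) v u - cov G β D' (Y' ω) v u) ^ 2| := le_abs_self _
          _ ≤ 4 * (Real.tanh β ^ (n + 1)) ^ 2 := h1
          _ ≤ 4 * (lam ^ (n + 1) * rho ^ (n + 1)) := by gcongr
          _ ≤ 4 * (lam ^ (n + 1) * rho ^ δ v) := by gcongr
          _ = 4 * 1 * lam ^ (n + 1) * rho ^ δ v := by ring
          _ ≤ c1 * K * lam ^ (n + 1) * rho ^ δ v := by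
              gcongr
              linarith
      calc ∫ ω, (cov G β D (Y ω) v u - cov G β D' (Y' ω) v u) ^ 2 ∂P ≤
          ∫ _ω, c1 * K * lam ^ (n + 1) * rho ^ δ v ∂P :=
            integral_mono (icov v u) (integrable_const _) hpt
        _ = _ := by simp
    · push Not at hδv
      have hδw : δ v ≤ δ w + 1 := hδ v w hvw
      have hv : v ∈ D ∧ v ∈ D' := by
        by_contra hcon
        have := hδ0 v (by tauto)
        omega
      have hw : w ∈ D ∧ w ∈ D' := by
        by_contra hcon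
        have := hδ0 w (by tauto)
        omega
      have hpt := fun ω => cov_diff_sq (h := Y ω) (h' := Y' ω) hG hβ hvw hv.1 hw.1 hv.2 hw.2
        hd heps hwn
      refine (integral_mono (icov v u) (((icov w u).const_mul _).add
        (((imag v).const_mul _).add ((imag w).const_mul _))) hpt).trans ?_
      have heq := integral_lin3 (icov w u) (imag v) (imag w)
        ((1 + eps) * Real.tanh β ^ 2)
        ((2 * (1 + 1 / eps) * (2 / (1 - Real.tanh β) ^ 2) ^ 2) * (Real.tanh β ^ n) ^ 2)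
        ((2 * (1 + 1 / eps) * (2 / (1 - Real.tanh β) ^ 2) ^ 2) * (Real.tanh β ^ n) ^ 2)
      refine (le_of_eq heq).trans (le_trans ?_ (cov_bound_algebra (n := n) hp hK4 hδw))
      have i1 := ih w hwn
      have i2 := hK v
      have i3 := hK w
      gcongr

end Compare

end Vale.Agent.P161
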