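import Vale.Agent.Lib.P161.Round

/-!
One round of observations in two volumes: the `L²` stability estimate.
-/

open Finset MeasureTheory

namespace Vale.Agent.P161

variable {V : Type*} [DecidableEq V] {G : SimpleGraph V} [DecidableRel G.Adj]
variable {d : ℕ} {β lam rho eps c1 a : ℝ} {D D' : Finset V} {δ : V → ℕ}

/-- The one-step functional. -/
noncomputable def stepDiff (G : SimpleGraph V) [DecidableRel G.Adj] (β a : ℝ) (D D' : Finset V)
    (u v : V) (e : (V → ℝ) × (V → ℝ)) (r : unitInterval) : ℝ :=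
  (mag G β D (stepF G β a D u r e.1) v - mag G β D' (stepF G β a D' u r e.2) v) ^ 2

lemma measurable_stepDiff (u v : V) :
    Measurable (Function.uncurry (stepDiff G β a D D' u v)) := by
  unfold stepDiff Function.uncurry
  have h1 : Measurable fun p : ((V → ℝ) × (V → ℝ)) × unitInterval =>
      mag G β D (stepF G β a D u p.2 p.1.1) v := by
    apply (measurable_mag β D v).comp
    exact (measurable_stepF β a D u).comp
      ((measurable_subtype_coe.comp measurable_snd).prodMk (measurable_fst.comp measurable_fst))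
  have h2 : Measurable fun p : ((V → ℝ) × (V → ℝ)) × unitInterval =>
      mag G β D' (stepF G β a D' u p.2 p.1.2) v := by
    apply (measurable_mag β D' v).comp
    exact (measurable_stepF β a D' u).comp
      ((measurable_subtype_coe.comp measurable_snd).prodMk (measurable_snd.comp measurable_fst))
  exact (h1.sub h2).pow_const 2

lemma inner_bound (hG : G.IsTree) (hβ : 0 ≤ β) (hp : Par d (Real.tanh β) lam rho eps c1 a)
    (hδ : ∀ v w, G.Adj v w → δ v ≤ δ w + 1) (hδ0 : ∀ v, v ∉ D ∨ v ∉ D' → δ v = 0)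
    (u v : V) (e : (V → ℝ) × (V → ℝ)) :
    ∫ r : unitInterval, stepDiff G β a D D' u v e r ≤
      (mag G β D e.1 v - mag G β D' e.2 v) ^ 2 +
      (8 * a ^ 2 * (cov G β D e.1 v u - cov G β D' e.2 v u) ^ 2 +
        (128 * a ^ 4 * (Real.tanh β ^ G.dist v u) ^ 2 *
          (mag G β D e.1 u - mag G β D' e.2 u) ^ 2 +
        4 * a ^ 2 * lam ^ G.dist v u * rho ^ δ v)) := by
  have ha0 := hp.ha0
  have ha := hp.ha
  have hlam := hp.hlam
  have hrho0 := hp.hrho0
  have hrho1 := hp.hrho1
  have e1 : ∫ r : unitInterval, stepDiff G β a D D' u v e r =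
      ∫ r in (0 : ℝ)..1, (mag G β D (stepF G β a D u r e.1) v -
        mag G β D' (stepF G β a D' u r e.2) v) ^ 2 :=
    integral_unitInterval (fun r => (mag G β D (stepF G β a D u r e.1) v -
        mag G β D' (stepF G β a D' u r e.2) v) ^ 2)
  rw [e1]
  have hnn1 : 0 ≤ 8 * a ^ 2 * (cov G β D e.1 v u - cov G β D' e.2 v u) ^ 2 := by positivity
  have hnn2 : 0 ≤ 128 * a ^ 4 * (Real.tanh β ^ G.dist v u) ^ 2 *
          (mag G β D e.1 u - mag G β D' e.2 u) ^ 2 := by positivity
  have hnn3 : 0 ≤ 4 * a ^ 2 * lam ^ G.dist v u * rho ^ δ v := by positivity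
  have houter : u ∉ D ∨ u ∉ D' →
      4 * a ^ 2 * (Real.tanh β ^ G.dist v u) ^ 2 ≤ 4 * a ^ 2 * lam ^ G.dist v u * rho ^ δ v := by
    intro hu
    have h1 := hδ0 u hu
    have h2 := profile_dist hG.connected hδ v u
    have h3 : rho ^ G.dist v u ≤ rho ^ δ v :=
      pow_le_pow_of_le_one hrho0.le hrho1.le (by omega)
    calc 4 * a ^ 2 * (Real.tanh β ^ G.dist v u) ^ 2 ≤
        4 * a ^ 2 * (lam ^ G.dist v u * rho ^ G.dist v u) := by
          gcongr; exact hp.theta_pow_le _
      _ ≤ 4 * a ^ 2 * (lam ^ G.dist v u * rho ^ δ v) := by gcongr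
      _ = _ := by ring
  by_cases hu : u ∈ D
  · by_cases hu' : u ∈ D'
    · have h1 := two_step (h := e.1) (h' := e.2) (G := G) (β := β) ha0.le ha v u hu hu'
      have h2 : 128 * a ^ 4 * cov G β D' e.2 v u ^ 2 *
          (mag G β D e.1 u - mag G β D' e.2 u) ^ 2 ≤
          128 * a ^ 4 * (Real.tanh β ^ G.dist v u) ^ 2 *
          (mag G β D e.1 u - mag G β D' e.2 u) ^ 2 := by
        have h3 := abs_cov_le (D := D') (h := e.2) hG hβ v u
        have h4 : cov G β D' e.2 v u ^ 2 ≤ (Real.tanh β ^ G.dist v u) ^ 2 := by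
          rw [← sq_abs]; gcongr
        gcongr
      linarith
    · have h1 := integral_mag_step_sub_sq (h := e.1) (G := G) (β := β) (D := D) ha0.le ha v u
        (mag G β D' e.2 v)
      simp only [stepF_of_notMem hu']
      rw [h1]
      have h2 := qinc_le (h := e.1) (G := G) (β := β) (D := D) ha0.le ha v u
      have h3 := abs_cov_le (D := D) (h := e.1) hG hβ v u
      have h4 : 4 * a ^ 2 * cov G β D e.1 v u ^ 2 ≤
          4 * a ^ 2 * (Real.tanh β ^ G.dist v u) ^ 2 := by
        have : cov G β D e.1 v u ^ 2 ≤ (Real.tanh β ^ G.dist v u) ^ 2 := by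
          rw [← sq_abs]; gcongr
        gcongr
      have h5 := houter (Or.inr hu')
      linarith
  · by_cases hu' : u ∈ D'
    · have h1 := integral_mag_step_sub_sq (h := e.2) (G := G) (β := β) (D := D') ha0.le ha v u
        (mag G β D e.1 v)
      simp only [stepF_of_notMem hu]
      have h0 : ∫ r in (0 : ℝ)..1, (mag G β D e.1 v - mag G β D' (stepF G β a D' u r e.2) v) ^ 2 =
          ∫ r in (0 : ℝ)..1, (mag G β D' (stepF G β a D' u r e.2) v - mag G β D e.1 v) ^ 2 := by
        apply intervalIntegral.integral_congr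
        intro r _
        ring
      rw [h0, h1]
      have h2 := qinc_le (h := e.2) (G := G) (β := β) (D := D') ha0.le ha v u
      have h3 := abs_cov_le (D := D') (h := e.2) hG hβ v u
      have h4 : 4 * a ^ 2 * cov G β D' e.2 v u ^ 2 ≤
          4 * a ^ 2 * (Real.tanh β ^ G.dist v u) ^ 2 := by
        have : cov G β D' e.2 v u ^ 2 ≤ (Real.tanh β ^ G.dist v u) ^ 2 := by
          rw [← sq_abs]; gcongr
        gcongr
      have h5 := houter (Or.inl hu)
      have h6 : (mag G β D' e.2 v - mag G β D e.1 v) ^ 2 =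
        (mag G β D e.1 v - mag G β D' e.2 v) ^ 2 := by ring
      rw [h6]
      linarith
    · simp only [stepF_of_notMem hu, stepF_of_notMem hu']
      simp only [intervalIntegral.integral_const, sub_zero, one_smul]
      linarith

/-- One step of the comparison, in expectation. -/
lemma one_step (hG : G.IsTree) (hβ : 0 ≤ β) (hp : Par d (Real.tanh β) lam rho eps c1 a)
    (hδ : ∀ v w, G.Adj v w → δ v ≤ δ w + 1) (hδ0 : ∀ v, v ∉ D ∨ v ∉ D' → δ v = 0)
    {Y Y' : (V × ℕ → unitInterval) → V → ℝ} (hY : Measurable Y) (hY' : Measurable Y')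
    {k : ℕ} {u : V} (hdep : ∀ ω r, Y (Function.update ω (u, 2 * k + 1) r) = Y ω)
    (hdep' : ∀ ω r, Y' (Function.update ω (u, 2 * k + 1) r) = Y' ω) {K : ℝ} (hK4 : 4 ≤ K)
    (hK : ∀ w, ∫ ω, (mag G β D (Y ω) w - mag G β D' (Y' ω) w) ^ 2 ∂iidLaw (V × ℕ) ≤
      K * rho ^ δ w) (v : V) :
    ∫ ω, (mag G β D (stepF G β a D u (noise k ω u) (Y ω)) v -
        mag G β D' (stepF G β a D' u (noise k ω u) (Y' ω)) v) ^ 2 ∂iidLaw (V × ℕ) ≤
      ∫ ω, (mag G β D (Y ω) v - mag G β D' (Y' ω) v) ^ 2 ∂iidLaw (V × ℕ) +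
        (8 * c1 + 132) * a ^ 2 * K * lam ^ G.dist v u * rho ^ δ v := by
  classical
  have ha0 := hp.ha0
  have ha := hp.ha
  have hlam := hp.hlam
  have hrho0 := hp.hrho0
  have hrho1 := hp.hrho1
  have hX : Measurable fun ω => (Y ω, Y' ω) := hY.prodMk hY'
  have key := integral_resam (ι := V × ℕ) (u, 2 * k + 1) hX
    (fun ω r => by rw [hdep ω r, hdep' ω r]) (measurable_stepDiff (G := G) (β := β) (a := a)
      (D := D) (D' := D') u v) (c := 4) (fun e r => mag_sub_sq_le v)
  have e1 : ∫ ω, (mag G β D (stepF G β a D u (noise k ω u) (Y ω)) v -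
        mag G β D' (stepF G β a D' u (noise k ω u) (Y' ω)) v) ^ 2 ∂iidLaw (V × ℕ) =
      ∫ ω, stepDiff G β a D D' u v (Y ω, Y' ω) (ω (u, 2 * k + 1)) ∂iidLaw (V × ℕ) := rfl
  rw [e1, key]
  have imag : ∀ w, Integrable (fun ω => (mag G β D (Y ω) w - mag G β D' (Y' ω) w) ^ 2)
      (iidLaw (V × ℕ)) :=
    fun w => integrable_of_meas_bdd ((((measurable_mag β D w).comp hY).sub
      ((measurable_mag β D' w).comp hY')).pow_const 2) (fun ω => mag_sub_sq_le w)
  have icov : ∀ v u, Integrable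
      (fun ω => (cov G β D (Y ω) v u - cov G β D' (Y' ω) v u) ^ 2) (iidLaw (V × ℕ)) :=
    fun v u => integrable_of_meas_bdd ((((measurable_cov β D v u).comp hY).sub
      ((measurable_cov β D' v u).comp hY')).pow_const 2) (fun ω => cov_sub_sq_le hG hβ v u)
  have hpt := fun ω => inner_bound hG hβ hp hδ hδ0 u v (Y ω, Y' ω)
  have iL : Integrable (fun ω => ∫ r : unitInterval, stepDiff G β a D D' u v (Y ω, Y' ω) r)
      (iidLaw (V × ℕ)) := by
    apply integrable_of_meas_bdd (c := 4)
    · have h1 : Measurable fun e : (V → ℝ) × (V → ℝ) =>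
          ∫ r : unitInterval, stepDiff G β a D D' u v e r := by
        exact ((measurable_stepDiff (G := G) (β := β) (a := a)
          (D := D) (D' := D') u v).stronglyMeasurable.integral_prod_right').measurable
      exact h1.comp hX
    · intro ω
      have hb : ∀ r : unitInterval, ‖stepDiff G β a D D' u v (Y ω, Y' ω) r‖ ≤ 4 :=
        fun r => mag_sub_sq_le v
      have := norm_integral_le_of_norm_le_const (μ := (volume : Measure unitInterval))
        (Filter.Eventually.of_forall hb)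
      simpa using this
  set A1 := 8 * a ^ 2 with hA1
  set A2 := 128 * a ^ 4 * (Real.tanh β ^ G.dist v u) ^ 2 with hA2
  set A3 := 4 * a ^ 2 * lam ^ G.dist v u * rho ^ δ v with hA3
  have iR : Integrable (fun ω => (mag G β D (Y ω) v - mag G β D' (Y' ω) v) ^ 2 +
      (A1 * (cov G β D (Y ω) v u - cov G β D' (Y' ω) v u) ^ 2 +
        (A2 * (mag G β D (Y ω) u - mag G β D' (Y' ω) u) ^ 2 + A3))) (iidLaw (V × ℕ)) :=
    (imag v).add (((icov v u).const_mul _).add (((imag u).const_mul _).add (integrable_const _)))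
  have h1 : ∫ ω, ((mag G β D (Y ω) v - mag G β D' (Y' ω) v) ^ 2 +
      (A1 * (cov G β D (Y ω) v u - cov G β D' (Y' ω) v u) ^ 2 +
        (A2 * (mag G β D (Y ω) u - mag G β D' (Y' ω) u) ^ 2 + A3))) ∂iidLaw (V × ℕ) =
      ∫ ω, (mag G β D (Y ω) v - mag G β D' (Y' ω) v) ^ 2 ∂iidLaw (V × ℕ) +
      (A1 * ∫ ω, (cov G β D (Y ω) v u - cov G β D' (Y' ω) v u) ^ 2 ∂iidLaw (V × ℕ) +
        (A2 * ∫ ω, (mag G β D (Y ω) u - mag G β D' (Y' ω) u) ^ 2 ∂iidLaw (V × ℕ) + A3)) := by
    have j1 : Integrable (fun ω => A2 * (mag G β D (Y ω) u - mag G β D' (Y' ω) u) ^ 2 + A3)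
      (iidLaw (V × ℕ)) := ((imag u).const_mul _).add (integrable_const _)
    have j2 : Integrable (fun ω => A1 * (cov G β D (Y ω) v u - cov G β D' (Y' ω) v u) ^ 2 +
        (A2 * (mag G β D (Y ω) u - mag G β D' (Y' ω) u) ^ 2 + A3)) (iidLaw (V × ℕ)) :=
      ((icov v u).const_mul _).add j1
    rw [integral_add (imag v) j2, integral_add ((icov v u).const_mul _) j1,
      integral_add ((imag u).const_mul _) (integrable_const _), integral_const_mul,
      integral_const_mul]
    simp
  refine (integral_mono iL iR hpt).trans ?_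
  rw [h1]
  have hc := cov_bound hG hβ hp hδ hδ0 hY hY' hK4 hK v u
  have hm := hK u
  have b1 : A1 * ∫ ω, (cov G β D (Y ω) v u - cov G β D' (Y' ω) v u) ^ 2 ∂iidLaw (V × ℕ) ≤
      8 * a ^ 2 * (c1 * K * lam ^ G.dist v u * rho ^ δ v) := by
    rw [hA1]; gcongr
  have b2 : A2 * ∫ ω, (mag G β D (Y ω) u - mag G β D' (Y' ω) u) ^ 2 ∂iidLaw (V × ℕ) ≤
      128 * a ^ 2 * K * lam ^ G.dist v u * rho ^ δ v := by
    have hdd := profile_dist hG.connected hδ v u
    have h3 : rho ^ G.dist v u * rho ^ δ u ≤ rho ^ δ v := by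
      rw [← pow_add]
      exact pow_le_pow_of_le_one hrho0.le hrho1.le (by omega)
    have h4 : a ^ 4 ≤ a ^ 2 := by
      have : a ^ 2 ≤ 1 := by nlinarith
      nlinarith [sq_nonneg a]
    have hK0 : 0 ≤ K := by linarith
    calc A2 * ∫ ω, (mag G β D (Y ω) u - mag G β D' (Y' ω) u) ^ 2 ∂iidLaw (V × ℕ)
        ≤ A2 * (K * rho ^ δ u) := by
          have : 0 ≤ A2 := by rw [hA2]; positivity
          gcongr
      _ ≤ (128 * a ^ 2 * (lam ^ G.dist v u * rho ^ G.dist v u)) * (K * rho ^ δ u) := by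
          rw [hA2]
          have := hp.theta_pow_le (G.dist v u)
          gcongr
      _ = 128 * a ^ 2 * lam ^ G.dist v u * K * (rho ^ G.dist v u * rho ^ δ u) := by ring
      _ ≤ 128 * a ^ 2 * lam ^ G.dist v u * K * rho ^ δ v := by gcongr
      _ = _ := by ring
  have b3 : A3 ≤ 4 * a ^ 2 * K * lam ^ G.dist v u * rho ^ δ v := by
    rw [hA3]
    have : 4 * a ^ 2 * lam ^ G.dist v u * rho ^ δ v =
      4 * a ^ 2 * 1 * lam ^ G.dist v u * rho ^ δ v := by ring
    rw [this]
    gcongr
    linarith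
  have hsum : 8 * a ^ 2 * (c1 * K * lam ^ G.dist v u * rho ^ δ v) +
      (128 * a ^ 2 * K * lam ^ G.dist v u * rho ^ δ v +
       4 * a ^ 2 * K * lam ^ G.dist v u * rho ^ δ v) =
      (8 * c1 + 132) * a ^ 2 * K * lam ^ G.dist v u * rho ^ δ v := by ring
  linarith

lemma noise_update_ne {k : ℕ} {u w : V} (hwu : w ≠ u) (ω : V × ℕ → unitInterval)
    (r : unitInterval) :
    noise k (Function.update ω (u, 2 * k + 1) r) w = noise k ω w := by
  unfold noise
  have h : ((w, 2 * k + 1) : V × ℕ) ≠ (u, 2 * k + 1) := fun heq => hwu (Prod.mk.inj heq).1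
  rw [Function.update_of_ne h]

lemma run_dep {k : ℕ} {u : V} {L : List V} (huL : u ∉ L) (D : Finset V)
    {X : (V × ℕ → unitInterval) → V → ℝ}
    (hdep : ∀ ω r, X (Function.update ω (u, 2 * k + 1) r) = X ω) (ω : V × ℕ → unitInterval)
    (r : unitInterval) :
    run G β a D L (noise k (Function.update ω (u, 2 * k + 1) r))
      (X (Function.update ω (u, 2 * k + 1) r)) = run G β a D L (noise k ω) (X ω) := by
  rw [hdep]
  apply run_congr_noise
  intro w hw
  refine noise_update_ne ?_ ω r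
  rintro rfl
  exact huL hw

lemma measurable_run_comp {k : ℕ} (L : List V) (D : Finset V)
    {X : (V × ℕ → unitInterval) → V → ℝ} (hX : Measurable X) :
    Measurable fun ω => run G β a D L (noise k ω) (X ω) := by
  have h1 : Measurable fun ω => (noise k ω, X ω) := (measurable_noise k).prodMk hX
  have h2 := measurable_run (G := G) β a D L
  have h3 := h2.comp h1
  exact h3

/-- One whole round: the mean-square discrepancy at most doubles. -/
lemma round_bound [G.LocallyFinite] (hG : G.IsTree) (hreg : G.IsRegularOfDegree d) (hβ : 0 ≤ β)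
    (hp : Par d (Real.tanh β) lam rho eps c1 a)
    (hδ : ∀ v w, G.Adj v w → δ v ≤ δ w + 1) (hδ0 : ∀ v, v ∉ D ∨ v ∉ D' → δ v = 0)
    {X X' : (V × ℕ → unitInterval) → V → ℝ} (hX : Measurable X) (hX' : Measurable X')
    {k : ℕ} (hdep : ∀ u ω r, X (Function.update ω (u, 2 * k + 1) r) = X ω)
    (hdep' : ∀ u ω r, X' (Function.update ω (u, 2 * k + 1) r) = X' ω) {K : ℝ} (hK4 : 4 ≤ K)
    (hK : ∀ w, ∫ ω, (mag G β D (X ω) w - mag G β D' (X' ω) w) ^ 2 ∂iidLaw (V × ℕ) ≤
      K * rho ^ δ w) (L : List V) (hL : L.Nodup) (v : V) :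
    ∫ ω, (mag G β D (run G β a D L (noise k ω) (X ω)) v -
        mag G β D' (run G β a D' L (noise k ω) (X' ω)) v) ^ 2 ∂iidLaw (V × ℕ) ≤
      2 * K * rho ^ δ v := by
  have hlam := hp.hlam
  have hrho0 := hp.hrho0
  have hc1 := hp.hc1
  have ha0 := hp.ha0
  set κ := (8 * c1 + 132) * a ^ 2 with hκ
  have hκ0 : 0 ≤ κ := by rw [hκ]; positivity
  have hsum : ∀ (F : Finset V) (v : V), κ * ∑ u ∈ F, lam ^ G.dist v u ≤ 1 / 2 := by
    intro F v
    calc κ * ∑ u ∈ F, lam ^ G.dist v u ≤ κ * (2 / (1 - ((d : ℝ) - 1) * lam)) := by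
          gcongr
          exact sum_pow_dist_le hG.connected hp.hd2 hreg hlam.le hp.hd v F
      _ ≤ 1 / 2 := hp.ha'
  -- stronger claim
  have claim : ∀ L : List V, L.Nodup → ∀ v,
      ∫ ω, (mag G β D (run G β a D L (noise k ω) (X ω)) v -
        mag G β D' (run G β a D' L (noise k ω) (X' ω)) v) ^ 2 ∂iidLaw (V × ℕ) ≤
      (K + κ * (∑ u ∈ L.toFinset, lam ^ G.dist v u) * (2 * K)) * rho ^ δ v := by
    intro L
    induction L using List.reverseRecOn with
    | nil =>
      intro _ v
      simpa [run] using hK v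
    | append_singleton L u ih =>
      intro hnd v
      have hnd' := List.nodup_append.mp hnd
      have hndL : L.Nodup := hnd'.1
      have huL : u ∉ L := by
        intro hmem
        exact hnd'.2.2 u hmem u (by simp) rfl
      have ih' := ih hndL
      have hKL : ∀ w, ∫ ω, (mag G β D (run G β a D L (noise k ω) (X ω)) w -
          mag G β D' (run G β a D' L (noise k ω) (X' ω)) w) ^ 2 ∂iidLaw (V × ℕ) ≤
          (2 * K) * rho ^ δ w := by
        intro w
        refine (ih' w).trans ?_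
        have h1 := hsum L.toFinset w
        have hK0 : 0 ≤ K := by linarith
        have : K + κ * (∑ u ∈ L.toFinset, lam ^ G.dist w u) * (2 * K) ≤ 2 * K := by nlinarith
        gcongr
      have hstep := one_step hG hβ hp hδ hδ0 (measurable_run_comp (G := G) (β := β) (a := a)
        (k := k) L D hX) (measurable_run_comp (G := G) (β := β) (a := a) (k := k) L D' hX')
        (k := k) (u := u) (run_dep huL D (hdep u)) (run_dep huL D' (hdep' u)) (K := 2 * K)
        (by linarith) hKL v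
      simp only [run_append]
      refine hstep.trans ?_
      have h2 := ih' v
      have htf : (L ++ [u]).toFinset = insert u L.toFinset := by
        ext x; simp
      rw [htf, Finset.sum_insert (by simpa using huL)]
      have h3 : (K + κ * (lam ^ G.dist v u + ∑ u ∈ L.toFinset, lam ^ G.dist v u) * (2 * K)) *
          rho ^ δ v = (K + κ * (∑ u ∈ L.toFinset, lam ^ G.dist v u) * (2 * K)) * rho ^ δ v +
            κ * (2 * K) * lam ^ G.dist v u * rho ^ δ v := by ring
      rw [h3]
      linarith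
  refine (claim L hL v).trans ?_
  have h1 := hsum L.toFinset v
  have hK0 : 0 ≤ K := by linarith
  have : K + κ * (∑ u ∈ L.toFinset, lam ^ G.dist v u) * (2 * K) ≤ 2 * K := by nlinarith
  gcongr

end Vale.Agent.P161
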