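import Vale.Agent.Lib.P161.Estimates

/-!
The effect of one observation: martingale property and second-moment bounds.
-/

open Finset MeasureTheory

namespace Vale.Agent.P161

section Jump

/-- The jump of a magnetization caused by the observation `y`. -/
noncomputable def jf (a C m y : ℝ) : ℝ := a * y * C / (1 + a * y * m)

lemma den_ge {a m y : ℝ} (ha0 : 0 ≤ a) (ha : a ≤ 1 / 2) (hm : |m| ≤ 1) (hy : |y| ≤ 1) :
    1 / 2 ≤ 1 + a * y * m := by
  have : |a * y * m| ≤ 1 / 2 := by
    rw [abs_mul, abs_mul, abs_of_nonneg ha0]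
    calc a * |y| * |m| ≤ (1 / 2) * 1 * 1 := by gcongr
      _ = 1 / 2 := by norm_num
  have := (abs_le.mp this).1
  linarith

lemma den_le {a m y : ℝ} (ha0 : 0 ≤ a) (ha : a ≤ 1 / 2) (hm : |m| ≤ 1) (hy : |y| ≤ 1) :
    1 + a * y * m ≤ 2 := by
  have : |a * y * m| ≤ 1 / 2 := by
    rw [abs_mul, abs_mul, abs_of_nonneg ha0]
    calc a * |y| * |m| ≤ (1 / 2) * 1 * 1 := by gcongr
      _ = 1 / 2 := by norm_num
  have := (abs_le.mp this).2
  linarith

lemma abs_am_le {a m : ℝ} (ha0 : 0 ≤ a) (ha : a ≤ 1 / 2) (hm : |m| ≤ 1) : |a * m| ≤ 1 / 2 := by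
  rw [abs_mul, abs_of_nonneg ha0]
  calc a * |m| ≤ (1 / 2) * 1 := by gcongr
    _ = 1 / 2 := by norm_num

lemma jf_continuousOn {a C m : ℝ} (ha0 : 0 ≤ a) (ha : a ≤ 1 / 2) (hm : |m| ≤ 1) :
    ContinuousOn (jf a C m) (Set.Icc (-1) 1) := by
  unfold jf
  apply ContinuousOn.div
  · fun_prop
  · fun_prop
  · intro y hy
    have := den_ge ha0 ha hm (abs_le.mpr hy)
    linarith

lemma jf_comp_continuousOn {a C m : ℝ} (ha0 : 0 ≤ a) (ha : a ≤ 1 / 2) (hm : |m| ≤ 1) :
    ContinuousOn (fun r => jf a C m (qf (a * m) r)) (Set.Icc 0 1) := by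
  apply (jf_continuousOn ha0 ha hm).comp qf_continuousOn.continuousOn
  intro r hr
  exact abs_le.mp (qf_mem (by have := abs_am_le ha0 ha hm; linarith) hr)

lemma jf_comp_intervalIntegrable {a C m : ℝ} (ha0 : 0 ≤ a) (ha : a ≤ 1 / 2) (hm : |m| ≤ 1) :
    IntervalIntegrable (fun r => jf a C m (qf (a * m) r)) volume 0 1 := by
  apply ContinuousOn.intervalIntegrable
  rw [Set.uIcc_of_le zero_le_one]
  exact jf_comp_continuousOn ha0 ha hm

lemma integral_jf {a C m : ℝ} (ha0 : 0 ≤ a) (ha : a ≤ 1 / 2) (hm : |m| ≤ 1) :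
    ∫ r in (0 : ℝ)..1, jf a C m (qf (a * m) r) = 0 := by
  have hc : |a * m| < 1 := by have := abs_am_le ha0 ha hm; linarith
  rw [integral_qf hc (jf_continuousOn ha0 ha hm)]
  have : ∀ y ∈ Set.uIcc (-1 : ℝ) 1, jf a C m y * ((1 + a * m * y) / 2) = a * C / 2 * y := by
    intro y hy
    rw [Set.uIcc_of_le (by norm_num)] at hy
    have := den_ge ha0 ha hm (abs_le.mpr hy)
    have h1 : (1 + a * y * m) ≠ 0 := by linarith
    unfold jf
    rw [div_mul_eq_mul_div, div_eq_iff h1]
    ring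
  rw [intervalIntegral.integral_congr this, intervalIntegral.integral_const_mul, integral_id]
  norm_num

lemma integral_jf_sq_ge {a C m : ℝ} (ha0 : 0 ≤ a) (ha : a ≤ 1 / 2) (hm : |m| ≤ 1) :
    a ^ 2 / 6 * C ^ 2 ≤ ∫ r in (0 : ℝ)..1, jf a C m (qf (a * m) r) ^ 2 := by
  have hc : |a * m| < 1 := by have := abs_am_le ha0 ha hm; linarith
  have hcont : ContinuousOn (fun y => jf a C m y ^ 2) (Set.Icc (-1) 1) :=
    (jf_continuousOn ha0 ha hm).pow 2
  rw [integral_qf (f := fun y => jf a C m y ^ 2) hc hcont]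
  have h1 : a ^ 2 / 6 * C ^ 2 = ∫ y in (-1 : ℝ)..1, (a ^ 2 * C ^ 2 / 4) * y ^ 2 := by
    rw [intervalIntegral.integral_const_mul, integral_pow]
    norm_num
    ring
  rw [h1]
  apply intervalIntegral.integral_mono_on (by norm_num)
  · apply Continuous.intervalIntegrable; fun_prop
  · apply ContinuousOn.intervalIntegrable
    rw [Set.uIcc_of_le (by norm_num)]
    apply hcont.mul
    fun_prop
  · intro y hy
    have hya : |y| ≤ 1 := abs_le.mpr hy
    have h2 := den_ge ha0 ha hm hya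
    have h3 := den_le ha0 ha hm hya
    have h4 : (1 + a * y * m) ≠ 0 := by linarith
    have e : jf a C m y ^ 2 * ((1 + a * m * y) / 2) =
        (a ^ 2 * C ^ 2 * y ^ 2) * (1 / (2 * (1 + a * y * m))) := by
      unfold jf
      field_simp
    rw [e]
    have h5 : 1 / 4 ≤ 1 / (2 * (1 + a * y * m)) := by
      apply one_div_le_one_div_of_le <;> linarith
    have h6 : 0 ≤ a ^ 2 * C ^ 2 * y ^ 2 := by positivity
    nlinarith

lemma abs_jf_le {a C m y : ℝ} (ha0 : 0 ≤ a) (ha : a ≤ 1 / 2) (hm : |m| ≤ 1) (hy : |y| ≤ 1) :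
    |jf a C m y| ≤ 2 * a * |C| := by
  have h2 := den_ge ha0 ha hm hy
  unfold jf
  rw [abs_div, abs_of_pos (by linarith : 0 < 1 + a * y * m), div_le_iff₀ (by linarith),
    abs_mul, abs_mul, abs_of_nonneg ha0]
  calc a * |y| * |C| ≤ a * 1 * |C| := by gcongr
    _ = 2 * a * |C| * (1 / 2) := by ring
    _ ≤ 2 * a * |C| * (1 + a * y * m) := by gcongr

lemma jf_diff {a C C' m m' y y' : ℝ} (ha0 : 0 ≤ a) (ha : a ≤ 1 / 2) (hm : |m| ≤ 1)
    (hm' : |m'| ≤ 1) (hy : |y| ≤ 1) (hy' : |y'| ≤ 1) (hyy : |y - y'| ≤ a * |m - m'|) :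
    |jf a C m y - jf a C' m' y'| ≤ 2 * a * |C - C'| + 8 * a ^ 2 * |C'| * |m - m'| := by
  have p := den_ge ha0 ha hm hy
  have p' := den_ge ha0 ha hm' hy'
  have n1 : (1 + a * y * m) ≠ 0 := by linarith
  have n2 : (1 + a * y' * m') ≠ 0 := by linarith
  have e : jf a C m y - jf a C' m' y' = jf a (C - C') m y +
      C' * ((a * (y - y') + a ^ 2 * (y * y') * (m' - m)) /
        ((1 + a * y * m) * (1 + a * y' * m'))) := by
    unfold jf
    field_simp
    ring
  rw [e]
  have hA := abs_jf_le (C := C - C') ha0 ha hm hy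
  have hnum : |a * (y - y') + a ^ 2 * (y * y') * (m' - m)| ≤ 2 * a ^ 2 * |m - m'| := by
    calc |a * (y - y') + a ^ 2 * (y * y') * (m' - m)|
        ≤ |a * (y - y')| + |a ^ 2 * (y * y') * (m' - m)| := abs_add_le _ _
      _ = a * |y - y'| + a ^ 2 * (|y| * |y'|) * |m - m'| := by
          rw [abs_mul, abs_of_nonneg ha0, abs_mul, abs_mul, abs_mul,
            abs_of_nonneg (sq_nonneg a), abs_sub_comm m' m]
      _ ≤ a * (a * |m - m'|) + a ^ 2 * (1 * 1) * |m - m'| := by gcongr
      _ = 2 * a ^ 2 * |m - m'| := by ring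
  have hden : 1 / 4 ≤ (1 + a * y * m) * (1 + a * y' * m') := by nlinarith
  have hB : |C' * ((a * (y - y') + a ^ 2 * (y * y') * (m' - m)) /
        ((1 + a * y * m) * (1 + a * y' * m')))| ≤ 8 * a ^ 2 * |C'| * |m - m'| := by
    rw [abs_mul, abs_div, abs_of_pos (by linarith : 0 < (1 + a * y * m) * (1 + a * y' * m'))]
    have : |a * (y - y') + a ^ 2 * (y * y') * (m' - m)| /
        ((1 + a * y * m) * (1 + a * y' * m')) ≤ 8 * a ^ 2 * |m - m'| := by
      rw [div_le_iff₀ (by linarith)]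
      calc _ ≤ 2 * a ^ 2 * |m - m'| := hnum
        _ = 8 * a ^ 2 * |m - m'| * (1 / 4) := by ring
        _ ≤ _ := by gcongr
    calc |C'| * (|a * (y - y') + a ^ 2 * (y * y') * (m' - m)| /
        ((1 + a * y * m) * (1 + a * y' * m'))) ≤ |C'| * (8 * a ^ 2 * |m - m'|) := by gcongr
      _ = _ := by ring
  calc |jf a (C - C') m y + C' * ((a * (y - y') + a ^ 2 * (y * y') * (m' - m)) /
        ((1 + a * y * m) * (1 + a * y' * m')))| ≤ |jf a (C - C') m y| + _ := abs_add_le _ _
    _ ≤ _ := by linarith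

end Jump

section Step

variable {V : Type*} [DecidableEq V] (G : SimpleGraph V) [DecidableRel G.Adj]

/-- One observation at `v` in volume `D`, driven by the uniform variable `r`. -/
noncomputable def stepF (β a : ℝ) (D : Finset V) (v : V) (r : ℝ) (h : V → ℝ) : V → ℝ :=
  if v ∈ D then Function.update h v (h v + Real.artanh (a * qf (a * mag G β D h v) r)) else h

variable {G} {β a : ℝ} {D : Finset V} {h : V → ℝ}

lemma stepF_of_notMem {v : V} (hv : v ∉ D) (r : ℝ) : stepF G β a D v r h = h := by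
  unfold stepF; rw [if_neg hv]

lemma abs_obs_lt {v : V} {r : ℝ} (ha0 : 0 ≤ a) (ha : a ≤ 1 / 2) (hr : r ∈ Set.Icc (0 : ℝ) 1) :
    |a * qf (a * mag G β D h v) r| < 1 := by
  have hm := abs_mag_le (G := G) (β := β) (D := D) (h := h) v
  have hq : |qf (a * mag G β D h v) r| ≤ 1 :=
    qf_mem (by have := abs_am_le ha0 ha hm; linarith) hr
  rw [abs_mul, abs_of_nonneg ha0]
  nlinarith [abs_nonneg (qf (a * mag G β D h v) r)]

lemma gx_step {v : V} (hv : v ∈ D) {r : ℝ} (ha0 : 0 ≤ a) (ha : a ≤ 1 / 2)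
    (hr : r ∈ Set.Icc (0 : ℝ) 1) (f : Finset V → ℝ) :
    gx G β D (stepF G β a D v r h) f =
      (gx G β D h f + a * qf (a * mag G β D h v) r * gx G β D h (fun S => f S * sp S v)) /
        (1 + a * qf (a * mag G β D h v) r * mag G β D h v) := by
  unfold stepF
  rw [if_pos hv]
  exact gx_update hv (abs_obs_lt ha0 ha hr) f

lemma mag_step {v : V} (hv : v ∈ D) {r : ℝ} (ha0 : 0 ≤ a) (ha : a ≤ 1 / 2)
    (hr : r ∈ Set.Icc (0 : ℝ) 1) (x : V) :
    mag G β D (stepF G β a D v r h) x =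
      mag G β D h x + jf a (cov G β D h x v) (mag G β D h v) (qf (a * mag G β D h v) r) := by
  unfold stepF
  rw [if_pos hv]
  exact mag_update hv (abs_obs_lt ha0 ha hr) x

/-- Gibbs expectations are martingales under an observation step. -/
lemma integral_gx_step (ha0 : 0 ≤ a) (ha : a ≤ 1 / 2) (v : V) (f : Finset V → ℝ) :
    ∫ r in (0 : ℝ)..1, gx G β D (stepF G β a D v r h) f = gx G β D h f := by
  by_cases hv : v ∈ D
  · set m := mag G β D h v with hm
    have hm1 : |m| ≤ 1 := abs_mag_le v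
    have hc : |a * m| < 1 := by have := abs_am_le ha0 ha hm1; linarith
    set F0 := gx G β D h f
    set F1 := gx G β D h (fun S => f S * sp S v)
    have e1 : ∫ r in (0 : ℝ)..1, gx G β D (stepF G β a D v r h) f =
        ∫ r in (0 : ℝ)..1, (fun y => (F0 + a * y * F1) / (1 + a * y * m)) (qf (a * m) r) := by
      apply intervalIntegral.integral_congr
      intro r hr
      rw [Set.uIcc_of_le zero_le_one] at hr
      exact gx_step hv ha0 ha hr f
    have hcont : ContinuousOn (fun y => (F0 + a * y * F1) / (1 + a * y * m)) (Set.Icc (-1) 1) := by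
      apply ContinuousOn.div
      · fun_prop
      · fun_prop
      · intro y hy
        have := den_ge ha0 ha hm1 (abs_le.mpr hy)
        linarith
    rw [e1, integral_qf hc hcont]
    have e2 : ∀ y ∈ Set.uIcc (-1 : ℝ) 1,
        (fun y => (F0 + a * y * F1) / (1 + a * y * m)) y * ((1 + a * m * y) / 2) =
        F0 / 2 + a * F1 / 2 * y := by
      intro y hy
      rw [Set.uIcc_of_le (by norm_num)] at hy
      have := den_ge ha0 ha hm1 (abs_le.mpr hy)
      have h1 : (1 + a * y * m) ≠ 0 := by linarith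
      simp only
      rw [div_mul_eq_mul_div, div_eq_iff h1]
      ring
    rw [intervalIntegral.integral_congr e2, intervalIntegral.integral_add,
      intervalIntegral.integral_const_mul, integral_id, intervalIntegral.integral_const]
    · norm_num
      ring
    · exact _root_.intervalIntegrable_const
    · apply Continuous.intervalIntegrable; fun_prop
  · simp only [stepF_of_notMem hv]
    simp

/-- The quadratic increment at `x` of an observation at `v`. -/
noncomputable def qinc (G : SimpleGraph V) [DecidableRel G.Adj] (β a : ℝ) (D : Finset V)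
    (h : V → ℝ) (x v : V) : ℝ :=
  if v ∈ D then
    ∫ r in (0 : ℝ)..1, jf a (cov G β D h x v) (mag G β D h v) (qf (a * mag G β D h v) r) ^ 2
  else 0

lemma qinc_nonneg (x v : V) : 0 ≤ qinc G β a D h x v := by
  unfold qinc
  split_ifs
  · apply intervalIntegral.integral_nonneg zero_le_one
    intro r _; positivity
  · exact le_rfl

lemma qinc_self_ge (ha0 : 0 ≤ a) (ha : a ≤ 1 / 2) {v : V} (hv : v ∈ D) :
    a ^ 2 / 6 * (1 - mag G β D h v ^ 2) ^ 2 ≤ qinc G β a D h v v := by
  unfold qinc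
  rw [if_pos hv, ← cov_self]
  exact integral_jf_sq_ge ha0 ha (abs_mag_le v)

lemma integral_mag_step_sub_sq (ha0 : 0 ≤ a) (ha : a ≤ 1 / 2) (x v : V) (c : ℝ) :
    ∫ r in (0 : ℝ)..1, (mag G β D (stepF G β a D v r h) x - c) ^ 2 =
      (mag G β D h x - c) ^ 2 + qinc G β a D h x v := by
  by_cases hv : v ∈ D
  · unfold qinc
    rw [if_pos hv]
    set m := mag G β D h v with hm
    set C := cov G β D h x v
    set Δ := mag G β D h x - c with hΔ
    have hm1 : |m| ≤ 1 := abs_mag_le v
    have e1 : ∀ r ∈ Set.uIcc (0 : ℝ) 1, (mag G β D (stepF G β a D v r h) x - c) ^ 2 =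
        Δ ^ 2 + (2 * Δ * jf a C m (qf (a * m) r) + jf a C m (qf (a * m) r) ^ 2) := by
      intro r hr
      rw [Set.uIcc_of_le zero_le_one] at hr
      rw [mag_step hv ha0 ha hr x]
      ring
    have i1 := jf_comp_intervalIntegrable (C := C) ha0 ha hm1
    have i2 : IntervalIntegrable (fun r => jf a C m (qf (a * m) r) ^ 2) volume 0 1 := by
      apply ContinuousOn.intervalIntegrable
      rw [Set.uIcc_of_le zero_le_one]
      exact (jf_comp_continuousOn ha0 ha hm1).pow 2
    rw [intervalIntegral.integral_congr e1, intervalIntegral.integral_add _root_.intervalIntegrable_const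
      ((i1.const_mul _).add i2), intervalIntegral.integral_add (i1.const_mul _) i2,
      intervalIntegral.integral_const_mul, integral_jf ha0 ha hm1, intervalIntegral.integral_const]
    simp
  · unfold qinc
    rw [if_neg hv]
    simp only [stepF_of_notMem hv]
    simp

lemma qinc_le (ha0 : 0 ≤ a) (ha : a ≤ 1 / 2) (x v : V) :
    qinc G β a D h x v ≤ 4 * a ^ 2 * cov G β D h x v ^ 2 := by
  unfold qinc
  split_ifs with hv
  · have hm1 : |mag G β D h v| ≤ 1 := abs_mag_le v
    have hb : ∀ r ∈ Set.Icc (0 : ℝ) 1,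
        jf a (cov G β D h x v) (mag G β D h v) (qf (a * mag G β D h v) r) ^ 2 ≤
          4 * a ^ 2 * cov G β D h x v ^ 2 := by
      intro r hr
      have hq := qf_mem (c := a * mag G β D h v)
        (by have := abs_am_le ha0 ha hm1; linarith) hr
      have := abs_jf_le (C := cov G β D h x v) ha0 ha hm1 hq
      calc _ = |jf a (cov G β D h x v) (mag G β D h v) (qf (a * mag G β D h v) r)| ^ 2 :=
            (sq_abs _).symm
        _ ≤ (2 * a * |cov G β D h x v|) ^ 2 := by gcongr
        _ = 4 * a ^ 2 * |cov G β D h x v| ^ 2 := by ring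
        _ = _ := by rw [sq_abs]
    calc ∫ r in (0 : ℝ)..1, _ ≤ ∫ r in (0 : ℝ)..1, (4 * a ^ 2 * cov G β D h x v ^ 2) := by
          apply intervalIntegral.integral_mono_on zero_le_one
          · apply ContinuousOn.intervalIntegrable
            rw [Set.uIcc_of_le zero_le_one]
            exact (jf_comp_continuousOn ha0 ha hm1).pow 2
          · exact _root_.intervalIntegrable_const
          · exact hb
      _ = _ := by simp
  · positivity

/-- Two volumes: the main one-step inequality. -/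
lemma two_step (ha0 : 0 ≤ a) (ha : a ≤ 1 / 2) {D' : Finset V} {h' : V → ℝ} (x v : V)
    (hv : v ∈ D) (hv' : v ∈ D') :
    ∫ r in (0 : ℝ)..1, (mag G β D (stepF G β a D v r h) x -
        mag G β D' (stepF G β a D' v r h') x) ^ 2 ≤
      (mag G β D h x - mag G β D' h' x) ^ 2 +
      8 * a ^ 2 * (cov G β D h x v - cov G β D' h' x v) ^ 2 +
      128 * a ^ 4 * cov G β D' h' x v ^ 2 * (mag G β D h v - mag G β D' h' v) ^ 2 := by
  set m := mag G β D h v with hm
  set m' := mag G β D' h' v with hm'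
  set C := cov G β D h x v
  set C' := cov G β D' h' x v
  set Δ := mag G β D h x - mag G β D' h' x with hΔ
  have hm1 : |m| ≤ 1 := abs_mag_le v
  have hm1' : |m'| ≤ 1 := abs_mag_le v
  set J := fun r => jf a C m (qf (a * m) r) with hJ
  set J' := fun r => jf a C' m' (qf (a * m') r) with hJ'
  have e1 : ∀ r ∈ Set.uIcc (0 : ℝ) 1, (mag G β D (stepF G β a D v r h) x -
        mag G β D' (stepF G β a D' v r h') x) ^ 2 =
      Δ ^ 2 + (2 * Δ * (J r - J' r) + (J r - J' r) ^ 2) := by
    intro r hr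
    rw [Set.uIcc_of_le zero_le_one] at hr
    rw [mag_step hv ha0 ha hr x, mag_step hv' ha0 ha hr x]
    ring
  have i1 := jf_comp_intervalIntegrable (C := C) ha0 ha hm1
  have i1' := jf_comp_intervalIntegrable (C := C') ha0 ha hm1'
  have c1 : ContinuousOn (fun r => (J r - J' r) ^ 2) (Set.Icc 0 1) :=
    ((jf_comp_continuousOn ha0 ha hm1).sub (jf_comp_continuousOn ha0 ha hm1')).pow 2
  have i2 : IntervalIntegrable (fun r => (J r - J' r) ^ 2) volume 0 1 := by
    apply ContinuousOn.intervalIntegrable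
    rw [Set.uIcc_of_le zero_le_one]
    exact c1
  have hzero : ∫ r in (0 : ℝ)..1, (J r - J' r) = 0 := by
    rw [intervalIntegral.integral_sub i1 i1', integral_jf ha0 ha hm1, integral_jf ha0 ha hm1']
    ring
  have hb : ∀ r ∈ Set.Icc (0 : ℝ) 1, (J r - J' r) ^ 2 ≤
      8 * a ^ 2 * (C - C') ^ 2 + 128 * a ^ 4 * C' ^ 2 * (m - m') ^ 2 := by
    intro r hr
    have q1 := qf_mem (c := a * m) (by have := abs_am_le ha0 ha hm1; linarith) hr
    have q2 := qf_mem (c := a * m') (by have := abs_am_le ha0 ha hm1'; linarith) hr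
    have q3 : |qf (a * m) r - qf (a * m') r| ≤ a * |m - m'| := by
      have := qf_lipschitz (abs_am_le ha0 ha hm1) (abs_am_le ha0 ha hm1') hr
      rwa [← mul_sub, abs_mul, abs_of_nonneg ha0] at this
    have hd := jf_diff (C := C) (C' := C') ha0 ha hm1 hm1' q1 q2 q3
    calc (J r - J' r) ^ 2 = |J r - J' r| ^ 2 := (sq_abs _).symm
      _ ≤ (2 * a * |C - C'| + 8 * a ^ 2 * |C'| * |m - m'|) ^ 2 := by gcongr
      _ ≤ 2 * (2 * a * |C - C'|) ^ 2 + 2 * (8 * a ^ 2 * |C'| * |m - m'|) ^ 2 := by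
          nlinarith [sq_nonneg (2 * a * |C - C'| - 8 * a ^ 2 * |C'| * |m - m'|)]
      _ = 8 * a ^ 2 * |C - C'| ^ 2 + 128 * a ^ 4 * |C'| ^ 2 * |m - m'| ^ 2 := by ring
      _ = _ := by simp only [sq_abs]
  rw [intervalIntegral.integral_congr e1, intervalIntegral.integral_add _root_.intervalIntegrable_const
      (((i1.sub i1').const_mul _).add i2), intervalIntegral.integral_add ((i1.sub i1').const_mul _) i2,
      intervalIntegral.integral_const_mul, hzero, intervalIntegral.integral_const]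
  have : ∫ r in (0 : ℝ)..1, (J r - J' r) ^ 2 ≤
      8 * a ^ 2 * (C - C') ^ 2 + 128 * a ^ 4 * C' ^ 2 * (m - m') ^ 2 := by
    calc ∫ r in (0 : ℝ)..1, (J r - J' r) ^ 2 ≤
        ∫ r in (0 : ℝ)..1, (8 * a ^ 2 * (C - C') ^ 2 + 128 * a ^ 4 * C' ^ 2 * (m - m') ^ 2) := by
          apply intervalIntegral.integral_mono_on zero_le_one i2 _root_.intervalIntegrable_const hb
      _ = _ := by simp
  simp only [sub_zero, one_smul, mul_zero, zero_add]
  linarith

end Step

end Vale.Agent.P161
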