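import Vale.Agent.Lib.P161.Gibbs

/-!
Tree geometry and the Markov property of the finite-volume Ising model on a tree.
-/

open Finset

namespace Vale.Agent.P161

section Geometry

variable {V : Type*} {G : SimpleGraph V}

lemma dist_succ_cases (hG : G.IsTree) (u : V) {v w : V} (hadj : G.Adj v w) :
    G.dist v u = G.dist w u + 1 ∨ G.dist w u = G.dist v u + 1 := by
  rw [G.dist_comm (u := v), G.dist_comm (u := w)]
  exact hG.dist_eq_dist_add_one_of_adj u hadj

/-- In a connected graph, every `v ≠ u` has a neighbour one step closer to `u`. -/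
lemma exists_adj_closer (hG : G.Connected) {v u : V} (hvu : v ≠ u) :
    ∃ w, G.Adj v w ∧ G.dist v u = G.dist w u + 1 := by
  obtain ⟨p, hp⟩ := hG.exists_walk_length_eq_dist v u
  cases p with
  | nil => exact absurd rfl hvu
  | cons hadj q =>
    rename_i w
    refine ⟨w, hadj, ?_⟩
    rw [SimpleGraph.Walk.length_cons] at hp
    have h1 : G.dist w u ≤ q.length := SimpleGraph.dist_le q
    have h2 : G.dist v u ≤ G.dist w u + 1 := by
      have := hG.dist_triangle (u := v) (v := w) (w := u)
      rw [SimpleGraph.dist_eq_one_iff_adj.mpr hadj] at this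
      omega
    omega

/-- In a tree the neighbour of `x` closer to `w` is unique. -/
lemma closer_unique (hG : G.IsTree) {x w z z' : V} (hz : G.Adj x z) (hz' : G.Adj x z')
    (h1 : G.dist z w < G.dist x w) (h2 : G.dist z' w < G.dist x w) : z = z' := by
  have e1 : G.dist x w = G.dist z w + 1 := by
    rcases dist_succ_cases hG w hz with h | h <;> omega
  have e2 : G.dist x w = G.dist z' w + 1 := by
    rcases dist_succ_cases hG w hz' with h | h <;> omega
  obtain ⟨p, hp⟩ := hG.connected.exists_walk_length_eq_dist z w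
  obtain ⟨p', hp'⟩ := hG.connected.exists_walk_length_eq_dist z' w
  have hq : (SimpleGraph.Walk.cons hz p).IsPath := by
    apply SimpleGraph.Walk.isPath_of_length_eq_dist
    rw [SimpleGraph.Walk.length_cons, hp, e1]
  have hq' : (SimpleGraph.Walk.cons hz' p').IsPath := by
    apply SimpleGraph.Walk.isPath_of_length_eq_dist
    rw [SimpleGraph.Walk.length_cons, hp', e2]
  have heq := (hG.existsUnique_path x w).unique hq hq'
  have := congrArg SimpleGraph.Walk.snd heq
  simpa using this

/-- The only edge between the two sides of the edge `v w` is `v w`. -/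
lemma crossing_unique (hG : G.IsTree) {v w x y : V} (hxy : G.Adj x y)
    (hx : G.dist x v < G.dist x w) (hy : G.dist y w < G.dist y v) (hvw : G.Adj v w) :
    x = v ∧ y = w := by
  have e1 : G.dist x w = G.dist x v + 1 := by
    rcases hG.dist_eq_dist_add_one_of_adj x hvw with h | h <;> omega
  have e2 : G.dist y v = G.dist y w + 1 := by
    rcases hG.dist_eq_dist_add_one_of_adj y hvw with h | h <;> omega
  have e3 := dist_succ_cases hG v hxy
  have e4 := dist_succ_cases hG w hxy
  have hk : G.dist x v = G.dist y w := by omega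
  by_cases hxv : x = v
  · subst hxv
    refine ⟨rfl, ?_⟩
    rw [SimpleGraph.dist_self] at hk
    exact (hG.connected.dist_eq_zero_iff).mp hk.symm
  · exfalso
    obtain ⟨z, hz, hz'⟩ := exists_adj_closer hG.connected hxv
    have hzw : G.dist z w < G.dist x w := by
      have := hG.connected.dist_triangle (u := z) (v := v) (w := w)
      rw [SimpleGraph.dist_eq_one_iff_adj.mpr hvw] at this
      omega
    have hyw : G.dist y w < G.dist x w := by omega
    have hzy := closer_unique hG hz hxy hzw hyw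
    subst hzy
    omega

end Geometry

section Markov

variable {V : Type*} [DecidableEq V] {G : SimpleGraph V} [DecidableRel G.Adj]

/-- The part of `D` on the `v`-side of the edge `v w`. -/
noncomputable def side (G : SimpleGraph V) (D : Finset V) (v w : V) : Finset V :=
  {x ∈ D | G.dist x v < G.dist x w}

omit [DecidableEq V] [DecidableRel G.Adj] in
lemma mem_side {D : Finset V} {v w x : V} :
    x ∈ side G D v w ↔ x ∈ D ∧ G.dist x v < G.dist x w := by
  unfold side; simp

omit [DecidableEq V] [DecidableRel G.Adj] in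
lemma side_disjoint (D : Finset V) (v w : V) : Disjoint (side G D v w) (side G D w v) := by
  rw [Finset.disjoint_left]
  intro x hx hx'
  rw [mem_side] at hx hx'
  omega

omit [DecidableRel G.Adj] in
lemma side_union (hG : G.IsTree) (D : Finset V) {v w : V} (hvw : G.Adj v w) :
    side G D v w ∪ side G D w v = D := by
  ext x
  rw [mem_union, mem_side, mem_side]
  constructor
  · rintro (h | h) <;> exact h.1
  · intro hx
    rcases hG.dist_eq_dist_add_one_of_adj x hvw with h | h
    · right; exact ⟨hx, by omega⟩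
    · left; exact ⟨hx, by omega⟩

lemma en_split (hG : G.IsTree) (β : ℝ) (D : Finset V) (h : V → ℝ) {v w : V} (hvw : G.Adj v w)
    (hv : v ∈ D) {S₁ S₂ : Finset V} (h1 : S₁ ⊆ side G D v w) (h2 : S₂ ⊆ side G D w v) :
    en G β D h (S₁ ∪ S₂) = en G β (side G D v w) h S₁ + en G β (side G D w v) h S₂ +
      β * (if w ∈ D then sp S₁ v * sp S₂ w else 0) := by
  have hd := side_disjoint (G := G) D v w
  have hu := side_union hG D hvw
  set T := side G D v w with hT
  set R := side G D w v with hR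
  have hvT : v ∈ T := by
    rw [hT, mem_side]
    refine ⟨hv, ?_⟩
    rw [SimpleGraph.dist_self, SimpleGraph.dist_eq_one_iff_adj.mpr hvw]; norm_num
  have cross : ∑ x ∈ T, ∑ y ∈ R, (if G.Adj x y then sp (S₁ ∪ S₂) x * sp (S₁ ∪ S₂) y else 0) =
      if w ∈ D then sp S₁ v * sp S₂ w else 0 := by
    rw [Finset.sum_eq_single_of_mem v hvT]
    · by_cases hw : w ∈ D
      · have hwR : w ∈ R := by
          rw [hR, mem_side]
          refine ⟨hw, ?_⟩
          rw [SimpleGraph.dist_self, SimpleGraph.dist_comm, SimpleGraph.dist_eq_one_iff_adj.mpr hvw]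
          norm_num
        rw [Finset.sum_eq_single_of_mem w hwR]
        · rw [if_pos hvw, if_pos hw, sp_union_left hd h2 hvT, sp_union_right hd h1 hwR]
        · intro y hy hyw
          rw [if_neg]
          intro hadj
          have hyR := (mem_side.mp (hR ▸ hy)).2
          have hvT' := (mem_side.mp (hT ▸ hvT)).2
          exact hyw (crossing_unique hG hadj hvT' hyR hvw).2
      · rw [if_neg hw]
        apply Finset.sum_eq_zero
        intro y hy
        rw [if_neg]
        intro hadj
        have hyR := (mem_side.mp (hR ▸ hy))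
        have hvT' := (mem_side.mp (hT ▸ hvT)).2
        have := (crossing_unique hG hadj hvT' hyR.2 hvw).2
        exact hw (this ▸ hyR.1)
    · intro x hx hxv
      apply Finset.sum_eq_zero
      intro y hy
      rw [if_neg]
      intro hadj
      have hyR := (mem_side.mp (hR ▸ hy)).2
      have hxT := (mem_side.mp (hT ▸ hx)).2
      exact hxv (crossing_unique hG hadj hxT hyR hvw).1
  have cross' : ∑ x ∈ R, ∑ y ∈ T, (if G.Adj x y then sp (S₁ ∪ S₂) x * sp (S₁ ∪ S₂) y else 0) =
      if w ∈ D then sp S₁ v * sp S₂ w else 0 := by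
    rw [Finset.sum_comm, ← cross]
    apply Finset.sum_congr rfl; intro x _
    apply Finset.sum_congr rfl; intro y _
    simp only [G.adj_comm y x]
    split_ifs
    · ring
    · rfl
  unfold en
  conv_lhs => rw [← hu]
  rw [Finset.sum_union hd, Finset.sum_union hd]
  simp_rw [Finset.sum_union hd]
  rw [Finset.sum_add_distrib, Finset.sum_add_distrib, cross, cross']
  have a1 : ∑ x ∈ T, h x * sp (S₁ ∪ S₂) x = ∑ x ∈ T, h x * sp S₁ x :=
    Finset.sum_congr rfl fun x hx => by rw [sp_union_left hd h2 hx]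
  have a2 : ∑ x ∈ R, h x * sp (S₁ ∪ S₂) x = ∑ x ∈ R, h x * sp S₂ x :=
    Finset.sum_congr rfl fun x hx => by rw [sp_union_right hd h1 hx]
  have a3 : ∑ x ∈ T, ∑ y ∈ T, (if G.Adj x y then sp (S₁ ∪ S₂) x * sp (S₁ ∪ S₂) y else 0) =
      ∑ x ∈ T, ∑ y ∈ T, (if G.Adj x y then sp S₁ x * sp S₁ y else 0) :=
    Finset.sum_congr rfl fun x hx => Finset.sum_congr rfl fun y hy => by
      rw [sp_union_left hd h2 hx, sp_union_left hd h2 hy]
  have a4 : ∑ x ∈ R, ∑ y ∈ R, (if G.Adj x y then sp (S₁ ∪ S₂) x * sp (S₁ ∪ S₂) y else 0) =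
      ∑ x ∈ R, ∑ y ∈ R, (if G.Adj x y then sp S₂ x * sp S₂ y else 0) :=
    Finset.sum_congr rfl fun x hx => Finset.sum_congr rfl fun y hy => by
      rw [sp_union_right hd h1 hx, sp_union_right hd h1 hy]
  rw [a1, a2, a3, a4]
  ring

lemma exp_beta_mul (β : ℝ) {s t : ℝ} (hs : s = 1 ∨ s = -1) (ht : t = 1 ∨ t = -1) :
    Real.exp (β * (s * t)) = Real.cosh β * (1 + Real.tanh β * (s * t)) := by
  have hc : Real.cosh β ≠ 0 := (Real.cosh_pos β).ne'
  have h1 : Real.cosh β * Real.tanh β = Real.sinh β := by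
    rw [Real.tanh_eq_sinh_div_cosh]; field_simp
  have e1 : Real.exp β = Real.cosh β * (1 + Real.tanh β) := by
    rw [mul_add, h1, mul_one, Real.cosh_add_sinh]
  have e2 : Real.exp (-β) = Real.cosh β * (1 - Real.tanh β) := by
    rw [mul_sub, h1, mul_one, Real.cosh_sub_sinh]
  rcases hs with rfl | rfl <;> rcases ht with rfl | rfl
  · simpa using e1
  · have : β * (1 * -1) = -β := by ring
    rw [this, e2]; ring
  · have : β * (-1 * 1) = -β := by ring
    rw [this, e2]; ring
  · have : β * (-1 * -1) = β := by ring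
    rw [this, e1]; ring

/-- slope of the conditional mean. -/
noncomputable def slope (θ M : ℝ) : ℝ := θ * (1 - M ^ 2) / (1 - θ ^ 2 * M ^ 2)

/-- intercept of the conditional mean. -/
noncomputable def icept (θ M : ℝ) : ℝ := M * (1 - θ ^ 2) / (1 - θ ^ 2 * M ^ 2)

/-- Markov property across the edge `v w`, both end vertices in `D`. -/
lemma markov_in (hG : G.IsTree) {β : ℝ} {D : Finset V} {h : V → ℝ} {v w : V} (hvw : G.Adj v w)
    (hv : v ∈ D) (hw : w ∈ D) :
    ∃ M : ℝ, |M| ≤ 1 ∧ ∀ f : Finset V → ℝ,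
      (∀ S₁ S₂, S₁ ⊆ side G D v w → S₂ ⊆ side G D w v → f (S₁ ∪ S₂) = f S₂) →
      gx G β D h (fun S => sp S v * f S) =
        icept (Real.tanh β) M * gx G β D h f +
        slope (Real.tanh β) M * gx G β D h (fun S => sp S w * f S) := by
  have hd := side_disjoint (G := G) D v w
  have hu := side_union hG D hvw
  have hsplit := fun (S₁ S₂ : Finset V) (h1 : S₁ ⊆ side G D v w) (h2 : S₂ ⊆ side G D w v) =>
    en_split hG β D h hvw hv h1 h2
  set T := side G D v w with hT
  set R := side G D w v with hR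
  set θ := Real.tanh β with hθ
  have hvT : v ∈ T := by
    rw [hT, mem_side]
    refine ⟨hv, ?_⟩
    rw [SimpleGraph.dist_self, SimpleGraph.dist_eq_one_iff_adj.mpr hvw]; norm_num
  have hwR : w ∈ R := by
    rw [hR, mem_side]
    refine ⟨hw, ?_⟩
    rw [SimpleGraph.dist_self, SimpleGraph.dist_comm, SimpleGraph.dist_eq_one_iff_adj.mpr hvw]
    norm_num
  set M := mag G β T h v with hM
  have hMle : |M| ≤ 1 := abs_mag_le v
  have hθlt : |θ| < 1 := by
    rw [abs_lt]; exact ⟨Real.neg_one_lt_tanh β, Real.tanh_lt_one β⟩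
  set ZT := gs G β T h (fun _ => 1) with hZT
  have hZTpos : 0 < ZT := gs_one_pos
  have hMZ : gs G β T h (fun S => sp S v) = M * ZT := by
    rw [hM]; unfold mag gx; rw [div_mul_cancel₀ _ hZTpos.ne']
  -- general formula
  have main : ∀ (a b : ℝ) (f : Finset V → ℝ),
      (∀ S₁ S₂, S₁ ⊆ T → S₂ ⊆ R → f (S₁ ∪ S₂) = f S₂) →
      gs G β D h (fun S => (a + b * sp S v) * f S) =
        Real.cosh β * ZT * gs G β R h (fun S => (a * (1 + θ * M * sp S w) +
          b * (M + θ * sp S w)) * f S) := by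
    intro a b f hf
    have hl : gs G β D h (fun S => (a + b * sp S v) * f S) =
      ∑ S₁ ∈ T.powerset, ∑ S₂ ∈ R.powerset, Real.exp (en G β D h (S₁ ∪ S₂)) *
        ((a + b * sp (S₁ ∪ S₂) v) * f (S₁ ∪ S₂)) := by
      unfold gs
      conv_lhs => rw [show D.powerset = (T ∪ R).powerset by rw [hu]]
      rw [sum_powerset_union hd]
    rw [hl, Finset.sum_comm]
    have hr : Real.cosh β * ZT * gs G β R h (fun S => (a * (1 + θ * M * sp S w) +
          b * (M + θ * sp S w)) * f S) =
        ∑ S₂ ∈ R.powerset, Real.exp (en G β R h S₂) * f S₂ * Real.cosh β *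
          (a * (ZT + θ * sp S₂ w * (M * ZT)) + b * (M * ZT + θ * sp S₂ w * ZT)) := by
      unfold gs
      rw [Finset.mul_sum]
      apply Finset.sum_congr rfl
      intro S _
      ring
    rw [hr]
    apply Finset.sum_congr rfl
    intro S₂ hS₂
    have h2 : S₂ ⊆ R := mem_powerset.mp hS₂
    rw [← hMZ, hZT]
    unfold gs
    rw [Finset.mul_sum, Finset.mul_sum, ← Finset.sum_add_distrib, ← Finset.sum_add_distrib,
      Finset.mul_sum, Finset.mul_sum, ← Finset.sum_add_distrib, Finset.mul_sum]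
    apply Finset.sum_congr rfl
    intro S₁ hS₁
    have h1 : S₁ ⊆ T := mem_powerset.mp hS₁
    rw [hsplit S₁ S₂ h1 h2, if_pos hw, Real.exp_add, Real.exp_add,
      exp_beta_mul β (sp_eq S₁ v) (sp_eq S₂ w), hf S₁ S₂ h1 h2, sp_union_left hd h2 hvT]
    have hs := sp_mul_self S₁ v
    linear_combination (Real.exp (en G β T h S₁) * Real.exp (en G β R h S₂) * Real.cosh β * θ *
      b * sp S₂ w * f S₂) * hs
  refine ⟨M, hMle, fun f hf => ?_⟩
  have hMθ : (1 - θ ^ 2 * M ^ 2) ≠ 0 := by
    have h1 : θ ^ 2 < 1 := sq_lt_one_iff_abs_lt_one θ |>.mpr hθlt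
    have h2 : M ^ 2 ≤ 1 := by
      have := sq_abs M
      nlinarith [abs_nonneg M]
    nlinarith [sq_nonneg θ, sq_nonneg M]
  have hloc : ∀ S₁ S₂, S₁ ⊆ T → S₂ ⊆ R →
      (icept θ M + slope θ M * sp (S₁ ∪ S₂) w) * f (S₁ ∪ S₂) =
      (icept θ M + slope θ M * sp S₂ w) * f S₂ := by
    intro S₁ S₂ h1 h2
    rw [sp_union_right hd h1 hwR, hf S₁ S₂ h1 h2]
  have e1 := main 0 1 f hf
  have e2 := main 1 0 (fun S => (icept θ M + slope θ M * sp S w) * f S) hloc
  have e3 : gs G β D h (fun S => sp S v * f S) =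
      icept θ M * gs G β D h f + slope θ M * gs G β D h (fun S => sp S w * f S) := by
    rw [← gs_mul_left, ← gs_mul_left, ← gs_add]
    have e1' : gs G β D h (fun S => sp S v * f S) =
      gs G β D h (fun S => (0 + 1 * sp S v) * f S) := gs_congr fun S _ => by ring
    have e2' : gs G β D h (fun S => icept θ M * f S + slope θ M * (sp S w * f S)) =
      gs G β D h (fun S => (1 + 0 * sp S v) * ((icept θ M + slope θ M * sp S w) * f S)) :=
        gs_congr fun S _ => by ring
    rw [e1', e2', e1, e2]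
    congr 1
    apply gs_congr
    intro S _
    have hs := sp_mul_self S w
    have k1 : icept θ M + slope θ M * (θ * M) = M := by
      have : icept θ M + slope θ M * (θ * M) =
        (M * (1 - θ ^ 2) + θ * (1 - M ^ 2) * (θ * M)) / (1 - θ ^ 2 * M ^ 2) := by
        unfold icept slope; ring
      rw [this, div_eq_iff hMθ]
      ring
    have k2 : icept θ M * (θ * M) + slope θ M = θ := by
      have : icept θ M * (θ * M) + slope θ M =
        (M * (1 - θ ^ 2) * (θ * M) + θ * (1 - M ^ 2)) / (1 - θ ^ 2 * M ^ 2) := by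
        unfold icept slope; ring
      rw [this, div_eq_iff hMθ]
      ring
    linear_combination (-f S) * k1 - sp S w * f S * k2 - (slope θ M * θ * M * f S) * hs
  unfold gx
  rw [e3]
  ring

/-- If `w ∉ D`, the spin at `v` is independent of the `w`-side. -/
lemma markov_out (hG : G.IsTree) {β : ℝ} {D : Finset V} {h : V → ℝ} {v w : V} (hvw : G.Adj v w)
    (hv : v ∈ D) (hw : w ∉ D) (f : Finset V → ℝ)
    (hf : ∀ S₁ S₂, S₁ ⊆ side G D v w → S₂ ⊆ side G D w v → f (S₁ ∪ S₂) = f S₂) :
    gx G β D h (fun S => sp S v * f S) = mag G β D h v * gx G β D h f := by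
  have hd := side_disjoint (G := G) D v w
  have hu := side_union hG D hvw
  have hsplit := fun (S₁ S₂ : Finset V) (h1 : S₁ ⊆ side G D v w) (h2 : S₂ ⊆ side G D w v) =>
    en_split hG β D h hvw hv h1 h2
  set T := side G D v w with hT
  set R := side G D w v with hR
  have hvT : v ∈ T := by
    rw [hT, mem_side]
    refine ⟨hv, ?_⟩
    rw [SimpleGraph.dist_self, SimpleGraph.dist_eq_one_iff_adj.mpr hvw]; norm_num
  have main : ∀ (g f : Finset V → ℝ),
      (∀ S₁ S₂, S₁ ⊆ T → S₂ ⊆ R → g (S₁ ∪ S₂) = g S₁) →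
      (∀ S₁ S₂, S₁ ⊆ T → S₂ ⊆ R → f (S₁ ∪ S₂) = f S₂) →
      gs G β D h (fun S => g S * f S) = gs G β T h g * gs G β R h f := by
    intro g f hg hf
    have hl : gs G β D h (fun S => g S * f S) =
      ∑ S₁ ∈ T.powerset, ∑ S₂ ∈ R.powerset, Real.exp (en G β D h (S₁ ∪ S₂)) *
        (g (S₁ ∪ S₂) * f (S₁ ∪ S₂)) := by
      unfold gs
      conv_lhs => rw [show D.powerset = (T ∪ R).powerset by rw [hu]]
      rw [sum_powerset_union hd]
    rw [hl]
    unfold gs
    rw [Finset.sum_mul_sum]
    apply Finset.sum_congr rfl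
    intro S₁ hS₁
    apply Finset.sum_congr rfl
    intro S₂ hS₂
    have h2 : S₂ ⊆ R := mem_powerset.mp hS₂
    have h1 : S₁ ⊆ T := mem_powerset.mp hS₁
    rw [hsplit S₁ S₂ h1 h2, if_neg hw, mul_zero, add_zero, Real.exp_add, hf S₁ S₂ h1 h2,
      hg S₁ S₂ h1 h2]
    ring
  have hgv : ∀ S₁ S₂, S₁ ⊆ T → S₂ ⊆ R → sp (S₁ ∪ S₂) v = sp S₁ v :=
    fun S₁ S₂ _ h2 => sp_union_left hd h2 hvT
  have h1 : ∀ S₁ S₂ : Finset V, S₁ ⊆ T → S₂ ⊆ R → (fun _ : Finset V => (1 : ℝ)) (S₁ ∪ S₂) =
      (fun _ : Finset V => (1 : ℝ)) S₂ := fun _ _ _ _ => rfl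
  have h1' : ∀ S₁ S₂ : Finset V, S₁ ⊆ T → S₂ ⊆ R → (fun _ : Finset V => (1 : ℝ)) (S₁ ∪ S₂) =
      (fun _ : Finset V => (1 : ℝ)) S₁ := fun _ _ _ _ => rfl
  have e1 := main (fun S => sp S v) f hgv hf
  have e2 := main (fun _ => 1) f h1' hf
  have e3 := main (fun S => sp S v) (fun _ => 1) hgv h1
  have e4 := main (fun _ => 1) (fun _ => 1) h1' h1
  simp only [one_mul, mul_one] at e2 e3 e4
  have p1 : 0 < gs G β T h (fun _ => 1) := gs_one_pos
  have p2 : 0 < gs G β R h (fun _ => 1) := gs_one_pos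
  unfold mag gx
  rw [e1, e2, e3, e4]
  field_simp

end Markov

end Vale.Agent.P161
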